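import Vale.Agent.P032.H180.NFrz
import Vale.Agent.P032.S5.H180.BaseH

/-!
# P032: the circle about a plain end of a two-pair point is not frozen, one exceptional column

`V` a two-pair point with the pairs `a, b` and `m, n`, `v` on its circle with the palette
`{m, n, g}`, `g` not a colour of `V`. If every common point of the circles about `v` and `V` has at
most three colours or both colours `a`, `b`, then the ring on the circle about `v` is not frozen,
not even only at the times outside one column `t₀ + ℤ` not containing the time of `V`; full times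
with an apex (`Qt`) are allowed (`Irr.not_FrzX862`).  Over `H180/NFrz`.
-/

open Set Filter Topology Metric

noncomputable section

namespace Vale.Agent.P032.H862

open Vale.Agent.P032.Six Vale.Agent.P032.H175 Vale.Agent.P032.H180
open Vale.Agent.P032.S5.H783 (cis_add cis_zero yy dist_yy yy_succ yy_rel dist_yy_succ
  yy_not_line three_cover yy_shift continuous_yy dist_yy_add dist_sq_lt dist_sq_gt dist_cis_sub
  norm_cis_sub_le dist_sq_ip ip_sum ip_sq_sum)
open Vale.Agent.P032.S5.H767 (sub_of_closure)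
open Vale.Agent.P032.H460 (pv_of_dpt)

variable {U : Fin 6 → Set ℂ} {T : ℂ → Set (Fin 6)}

theorem dpt_card862 {V : ℂ} {a b m n : Fin 6} (hz : DPt T V a b m n) : (T V).ncard = 4 := by
  rw [hz.pal, Set.ncard_insert_of_notMem, Set.ncard_insert_of_notMem, Set.ncard_pair hz.cd]
  · simp only [mem_insert_iff, mem_singleton_iff, not_or]
    exact ⟨hz.bc, hz.bd⟩
  · simp only [mem_insert_iff, mem_singleton_iff, not_or]
    exact ⟨hz.ab, hz.ac, hz.ad⟩

/-- the data of a circle frozen near one time -/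
theorem frz_atP862 {v : ℂ} {A : Set (Fin 6)} (hA3 : A.ncard = 3)
    {c d e : Fin 6}
    (hcov : ∀ i, i ∉ A ↔ i = c ∨ i = d ∨ i = e) (hcd : c ≠ d) (hde : d ≠ e) (hce : c ≠ e)
    (σ : Fin 6 → Fin 6) (hσc : σ c = d) (hσd : σ d = e) (hσe : σ e = c)
    {θa θ0 : ℝ} (hfr' : ∀ θ ∈ Icc θa θ0, ∀ k i, i ∉ A →
      (i ∈ T (yy v θ k) ↔ σ i ∈ T (yy v θ (k + 1))))
    (hQ2 : ∃ i, i ∉ A ∧ i ∉ T (yy v θ0 0)) (ha0 : θa < θ0) (ha1 : θ0 - θa ≤ 1 / 2) {m m' : Fin 6} (hm : m ∉ A)
    (hm' : m' ∉ A) (hmm' : m' ≠ m) (hmK0 : m ∈ T (yy v θ0 0)) (hm'K : m' ∈ T (yy v θ0 0))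
    (hpure0 : ∀ θ ∈ Ico θa θ0, ∀ i, i ∉ A → (i ∈ T (yy v θ 0) ↔ i = m)) :
    ∃ cc : ℕ → Fin 6, FD T v A θa θ0 cc ∧
      ((Hxs T A (yy v θ0) fun k => cc (k + 2)) ∨ (Hxs T A (yy v θ0) fun k => cc (k + 1))) := by
  -- facts on `σ`
  have hσT : ∀ i, i ∉ A → σ i ∉ A := by
    intro i hi
    rcases (hcov i).1 hi with rfl | rfl | rfl
    · rw [hσc]; exact (hcov _).2 (Or.inr (Or.inl rfl))
    · rw [hσd]; exact (hcov _).2 (Or.inr (Or.inr rfl))
    · rw [hσe]; exact (hcov _).2 (Or.inl rfl)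
  have hσ1 : ∀ i, i ∉ A → i ≠ σ i := by
    intro i hi
    rcases (hcov i).1 hi with rfl | rfl | rfl
    · rw [hσc]; exact hcd
    · rw [hσd]; exact hde
    · rw [hσe]; exact hce.symm
  have hσ2 : ∀ i, i ∉ A → i ≠ σ (σ i) := by
    intro i hi
    rcases (hcov i).1 hi with rfl | rfl | rfl
    · rw [hσc, hσd]; exact hce
    · rw [hσd, hσe]; exact hcd.symm
    · rw [hσe, hσc]; exact hde.symm
  have hσ3 : ∀ i, i ∉ A → σ (σ (σ i)) = i := by
    intro i hi
    rcases (hcov i).1 hi with rfl | rfl | rfl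
    · rw [hσc, hσd, hσe]
    · rw [hσd, hσe, hσc]
    · rw [hσe, hσc, hσd]
  have hσcov : ∀ i j, i ∉ A → j ∉ A → j = i ∨ j = σ i ∨ j = σ (σ i) := by
    intro i j hi hj
    exact covA hA3 hi (hσT i hi) (hσT _ (hσT i hi)) (hσ1 i hi) (hσ1 _ (hσT i hi))
      (hσ2 i hi) hj
  have hm0 : θ0 ∈ Icc θa θ0 := ⟨ha0.le, le_rfl⟩
  -- iterates
  set cc : ℕ → Fin 6 := fun k => σ^[k] m with hcc
  have hcs : ∀ k, cc (k + 1) = σ (cc k) := fun k => Function.iterate_succ_apply' σ k m
  have hcT : ∀ k, cc k ∉ A := by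
    intro k
    induction k with
    | zero => exact hm
    | succ k ih => rw [hcs]; exact hσT _ ih
  have hc1 : ∀ k, cc k ≠ cc (k + 1) := fun k => by rw [hcs]; exact hσ1 _ (hcT k)
  have hc2 : ∀ k, cc k ≠ cc (k + 2) := fun k => by
    rw [show k + 2 = k + 1 + 1 from rfl, hcs, hcs]; exact hσ2 _ (hcT k)
  have hc3 : ∀ k, cc (k + 3) = cc k := fun k => by
    rw [show k + 3 = k + 1 + 1 + 1 from rfl, hcs, hcs, hcs]; exact hσ3 _ (hcT k)
  have hiter : ∀ θ ∈ Icc θa θ0, ∀ k j, (cc j ∈ T (yy v θ 0) ↔ cc (j + k) ∈ T (yy v θ k)) := by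
    intro θ hθ k j
    induction k with
    | zero => rfl
    | succ k ih =>
      rw [ih, show j + (k + 1) = (j + k) + 1 from rfl, hcs]
      exact hfr' θ hθ k _ (hcT _)
  have hin : ∀ k, cc k ∈ T (yy v θ0 k) := fun k => by
    have := (hiter θ0 hm0 k 0).1 hmK0
    rwa [Nat.zero_add] at this
  have hcov3 : ∀ k, ∀ i, i ∉ A → ∃ j, i = cc (j + k) := by
    intro k i hi
    rcases hσcov (cc k) i (hcT k) hi with h5 | h5 | h5
    · exact ⟨0, by rw [h5, Nat.zero_add]⟩
    · exact ⟨1, by rw [h5, ← hcs, add_comm]⟩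
    · exact ⟨2, by rw [h5, ← hcs, ← hcs]; congr 1; ring⟩
  have hmod : ∀ j, cc j = cc (j % 3) := by
    intro j
    induction j using Nat.strong_induction_on with
    | _ j ih =>
      by_cases hj : j < 3
      · rw [Nat.mod_eq_of_lt hj]
      · have e1 : j = (j - 3) + 3 := by omega
        have h1 := ih (j - 3) (by omega)
        rw [e1, hc3, h1, Nat.add_mod_right]
  have hinj3 : ∀ i < 3, ∀ j < 3, cc i = cc j → i = j := by
    intro i hi j hj hij
    have k01 := hc1 0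
    have k12 := hc1 1
    have k02 := hc2 0
    interval_cases i <;> interval_cases j <;> first | rfl | exact absurd hij (by assumption) |
      exact absurd hij.symm (by assumption)
  have hinjc : ∀ k j, (cc j = cc 0 ↔ cc (j + k) = cc k) := by
    intro k j
    constructor
    · intro h5
      rw [hmod j, hmod 0] at h5
      have h6 := hinj3 _ (Nat.mod_lt _ (by norm_num)) _ (Nat.mod_lt _ (by norm_num)) h5
      rw [hmod (j + k), hmod k]
      congr 1
      omega
    · intro h5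
      rw [hmod (j + k), hmod k] at h5
      have h6 := hinj3 _ (Nat.mod_lt _ (by norm_num)) _ (Nat.mod_lt _ (by norm_num)) h5
      rw [hmod j, hmod 0]
      congr 1
      omega
  refine ⟨cc, ⟨ha0, ha1, hcT, hc1, hc2, hc3, hin, fun k θ hθ i hi => ?_⟩, ?_⟩
  · obtain ⟨j, rfl⟩ := hcov3 k i hi
    rw [← hiter θ ⟨hθ.1, hθ.2.le⟩ k j, hpure0 θ hθ _ (hcT j)]
    exact hinjc k j
  obtain ⟨q, hq, hq'⟩ := hQ2
  -- the two cases
  rcases hσcov m m' hm hm' with h6 | h6 | h6
  · exact absurd h6 hmm'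
  · left
    have hm1' : cc 1 ∈ T (yy v θ0 0) := by rw [hcs 0]; exact h6 ▸ hm'K
    have hm2' : cc 2 ∉ T (yy v θ0 0) := by
      rcases hσcov m q hm hq with h7 | h7 | h7
      · exact absurd (h7 ▸ hmK0) hq'
      · exact absurd (by rw [h7, ← h6]; exact hm'K) hq'
      · rw [show (2 : ℕ) = 1 + 1 from rfl, hcs, hcs 0]; exact h7 ▸ hq'
    refine ⟨fun k => hcT _, fun k => hc1 _, fun k => hc2 _, fun k i hi => ?_⟩
    have e0 : cc k ∈ T (yy v θ0 k) := hin k
    have e1 : cc (k + 1) ∈ T (yy v θ0 k) := by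
      have := (hiter θ0 hm0 k 1).1 hm1'
      rwa [add_comm] at this
    have e2 : cc (k + 2) ∉ T (yy v θ0 k) := by
      intro h8
      apply hm2'
      rw [hiter θ0 hm0 k 2, add_comm]; exact h8
    constructor
    · rintro h8 rfl
      exact e2 h8
    · intro h8
      rcases covA hA3 (hcT k) (hcT (k + 1)) (hcT (k + 2)) (hc1 k) (hc1 (k + 1)) (hc2 k) hi
        with h9 | h9 | h9
      · rw [h9]; exact e0
      · rw [h9]; exact e1
      · exact absurd h9 h8
  · right
    have hm2' : cc 2 ∈ T (yy v θ0 0) := by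
      rw [show (2 : ℕ) = 1 + 1 from rfl, hcs, hcs 0]; exact h6 ▸ hm'K
    have hm1' : cc 1 ∉ T (yy v θ0 0) := by
      rcases hσcov m q hm hq with h7 | h7 | h7
      · exact absurd (h7 ▸ hmK0) hq'
      · rw [hcs 0]; exact h7 ▸ hq'
      · exact absurd (by rw [h7, ← h6]; exact hm'K) hq'
    refine ⟨fun k => hcT _, fun k => hc1 _, fun k => hc2 _, fun k i hi => ?_⟩
    have e0 : cc k ∈ T (yy v θ0 k) := hin k
    have e1 : cc (k + 2) ∈ T (yy v θ0 k) := by
      have := (hiter θ0 hm0 k 2).1 hm2'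
      rwa [add_comm] at this
    have e2 : cc (k + 1) ∉ T (yy v θ0 k) := by
      intro h8
      apply hm1'
      rw [hiter θ0 hm0 k 1, add_comm]; exact h8
    constructor
    · rintro h8 rfl
      exact e2 h8
    · intro h8
      rcases covA hA3 (hcT k) (hcT (k + 1)) (hcT (k + 2)) (hc1 k) (hc1 (k + 1)) (hc2 k) hi
        with h9 | h9 | h9
      · rw [h9]; exact e0
      · exact absurd h9 h8
      · rw [h9]; exact e1

/-- **Not frozen near a plain end**, germ form -/
theorem core862 (h : Irr U T) {V v : ℂ} {a b m n g : Fin 6}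
    (hz : DPt T V a b m n) (hvV : dist v V = 1) (h3 : (T v).ncard = 3) (hT : T v = {m, n, g})
    (hgV : g ∉ T V) (hiso : ∀ᶠ w in 𝓝 V, 4 ≤ (T w).ncard → w = V)
    (hle : ∀ y, dist y V = 1 → dist y v = 1 → (T y).ncard ≤ 3 ∨ (a ∈ T y ∧ b ∈ T y))
    {c d e : Fin 6} (hcov : ∀ i, i ∉ T v ↔ i = c ∨ i = d ∨ i = e) (hcd : c ≠ d) (hde : d ≠ e)
    (hce : c ≠ e) {σ : Fin 6 → Fin 6} (hσc : σ c = d) (hσd : σ d = e) (hσe : σ e = c)
    {θ0 η : ℝ} (hV0 : V = yy v θ0 0) (hη : 0 < η)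
    (hfr : ∀ θ ∈ Icc (θ0 - η) θ0, ∀ k i, i ∉ T v →
      (i ∈ T (yy v θ k) ↔ σ i ∈ T (yy v θ (k + 1)))) : False := by
  have haV : a ∈ T V := by rw [hz.pal]; exact Or.inl rfl
  have hbV : b ∈ T V := by rw [hz.pal]; exact Or.inr (Or.inl rfl)
  have hmV : m ∈ T V := by rw [hz.pal]; exact Or.inr (Or.inr (Or.inl rfl))
  have hnV : n ∈ T V := by rw [hz.pal]; exact Or.inr (Or.inr (Or.inr rfl))
  have haA : a ∉ T v := by
    rw [hT]
    rintro (h1 | h1 | h1)
    · exact hz.ac h1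
    · exact hz.ad h1
    · exact hgV (h1 ▸ haV)
  have hbA : b ∉ T v := by
    rw [hT]
    rintro (h1 | h1 | h1)
    · exact hz.bc h1
    · exact hz.bd h1
    · exact hgV (h1 ▸ hbV)
  -- palettes inside `T V` on the circle about `V`
  have hnear : ∀ y, dist y V = 1 → T y ⊆ T V → (a ∈ T y ∧ b ∈ T y) ∨ (m ∈ T y ∧ n ∈ T y) := by
    intro y hy hs
    rcases (pv_of_dpt h hz).near y hy hs with h1 | h1
    · exact Or.inl ⟨sub_of_closure h h1 (Or.inl rfl), sub_of_closure h h1 (Or.inr rfl)⟩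
    · exact Or.inr ⟨sub_of_closure h h1 (Or.inl rfl), sub_of_closure h h1 (Or.inr rfl)⟩
  have hV6 : V = yy v θ0 6 := by
    have := yy_six v θ0 0
    rw [Nat.zero_add] at this
    rw [this]; exact hV0
  obtain ⟨p1, hp1⟩ := hz.arc1
  have hp1d : dist p1 V = 1 := hp1.1
  have hp1T : T p1 = {a, b} := hp1.2.self_of_nhdsWithin hp1.1
  obtain ⟨r, hr, hrp⟩ := Metric.eventually_nhds_iff.1
    (hiso.and ((h.nhd V).and (h.no_layer hp1d)))
  obtain ⟨μ₀, hμ0, hμ1, hμ2, hμ3⟩ : ∃ μ₀ : ℝ, 0 < μ₀ ∧ μ₀ ≤ 1 / 2 ∧ μ₀ < r ∧ μ₀ ≤ η := by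
    refine ⟨min (min (r / 2) (1 / 2)) η, by positivity,
      (min_le_left _ _).trans (min_le_right _ _), ?_, min_le_right _ _⟩
    exact ((min_le_left _ _).trans (min_le_left _ _)).trans_lt (by linarith)
  set θa := θ0 - μ₀ with hθa
  have ha0 : θa < θ0 := by rw [hθa]; linarith
  have ha1 : θ0 - θa ≤ 1 / 2 := by rw [hθa]; linarith
  have hfr' : ∀ θ ∈ Icc θa θ0, ∀ k i, i ∉ T v →
      (i ∈ T (yy v θ k) ↔ σ i ∈ T (yy v θ (k + 1))) := fun θ hθ =>
    hfr θ ⟨by rw [hθa] at hθ; linarith [hθ.1], hθ.2⟩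
  have hpi := Real.pi_gt_three
  have hone : ∀ θ ∈ Ico θa θ0, (∀ i, i ∉ T v → i ∈ T (yy v θ 0) → i = a ∨ i = b) ∧
      (a ∈ T (yy v θ 0) ∨ b ∈ T (yy v θ 0)) ∧ ¬ (a ∈ T (yy v θ 0) ∧ b ∈ T (yy v θ 0)) := by
    intro θ hθ
    set w := yy v θ 0 with hw
    have hwd : dist w V < r := by
      rw [hV0, hw, yy, yy, dist_add_left, dist_eq_norm]
      refine (norm_cis_sub_le _ _).trans_lt ?_
      have e1 : θ + ((0 : ℕ) : ℝ) * (Real.pi / 3) - (θ0 + ((0 : ℕ) : ℝ) * (Real.pi / 3)) =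
          -(θ0 - θ) := by push_cast; ring
      rw [e1, abs_neg, abs_of_pos (by linarith [hθ.2])]
      have := hθ.1
      rw [hθa] at this
      linarith
    have hwV : w ≠ V := by
      intro h5
      have h6 := dist_yy_add v θ θ0 0 0
      rw [← hw, ← hV0, h5, dist_self] at h6
      have h7 : Real.cos (θ - θ0) < 1 := by
        rw [← Real.cos_abs, ← Real.cos_zero]
        apply Real.cos_lt_cos_of_nonneg_of_le_pi le_rfl
        · rw [abs_of_neg (by linarith [hθ.2])]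
          linarith [hθ.1, ha1]
        · exact abs_pos.2 (by linarith [hθ.2])
      rw [sub_self, zero_mul, add_zero] at h6
      norm_num at h6
      linarith
    obtain ⟨k1, k2, k3⟩ := hrp hwd
    have hin : ∀ i, i ∉ T v → i ∈ T w → i = a ∨ i = b := by
      intro i hi hi'
      have h5 := k2 hi'
      rw [hz.pal] at h5
      rcases h5 with h5 | h5 | h5 | h5
      · exact Or.inl h5
      · exact Or.inr h5
      · exact absurd (by rw [h5, hT]; exact Or.inl rfl) hi
      · rw [mem_singleton_iff] at h5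
        exact absurd (by rw [h5, hT]; exact Or.inr (Or.inl rfl)) hi
    refine ⟨hin, ?_, ?_⟩
    · obtain ⟨i, hi, hi'⟩ := h.not_sub' (dist_yy v θ 0) h3.le
      rcases hin i hi' hi with rfl | rfl
      · exact Or.inl hi
      · exact Or.inr hi
    · rintro ⟨h5, h6⟩
      refine hwV (k1 (k3 ?_))
      rw [hp1T]
      rintro i (rfl | hi)
      · exact h5
      · rw [mem_singleton_iff] at hi; subst hi; exact h6
  have hcl : ∀ i, IsClosed {θ : ℝ | i ∈ T (yy v θ 0)} := fun i =>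
    (h.closed i).preimage (continuous_yy v 0)
  have hs : ∃ s s', ((s = a ∧ s' = b) ∨ (s = b ∧ s' = a)) ∧
      ∀ θ ∈ Ico θa θ0, s ∈ T (yy v θ 0) := by
    by_contra hcon
    push Not at hcon
    obtain ⟨δ1, a1, a3⟩ := hcon a b (Or.inl ⟨rfl, rfl⟩)
    obtain ⟨δ2, b1, b3⟩ := hcon b a (Or.inr ⟨rfl, rfl⟩)
    have hpre : IsPreconnected (Ico θa θ0) := isPreconnected_Ico
    rw [isPreconnected_closed_iff] at hpre
    obtain ⟨δ, hδ, hδ1, hδ2⟩ := hpre {δ : ℝ | a ∈ T (yy v δ 0)} {δ : ℝ | b ∈ T (yy v δ 0)}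
      (hcl a) (hcl b) (fun δ hδ => (hone δ hδ).2.1)
      ⟨δ2, b1, ((hone δ2 b1).2.1.resolve_right b3)⟩
      ⟨δ1, a1, ((hone δ1 a1).2.1.resolve_left a3)⟩
    exact (hone δ hδ).2.2 ⟨hδ1, hδ2⟩
  obtain ⟨s, s', hss, hsθ⟩ := hs
  have hsV : s ∈ T V ∧ s' ∈ T V ∧ s ∉ T v ∧ s' ∉ T v ∧ s' ≠ s := by
    rcases hss with ⟨rfl, rfl⟩ | ⟨rfl, rfl⟩
    · exact ⟨haV, hbV, haA, hbA, hz.ab.symm⟩
    · exact ⟨hbV, haV, hbA, haA, hz.ab⟩
  have hQ2 : ∃ i, i ∉ T v ∧ i ∉ T (yy v θ0 0) := by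
    by_contra hcon
    push Not at hcon
    have h5 : (T v)ᶜ ⊆ T V := fun i hi => hV0 ▸ hcon i hi
    have h6 : ({m, n} : Set (Fin 6)) ∪ (T v)ᶜ ⊆ T V := by
      rintro i (hi | hi)
      · rcases hi with rfl | hi
        · exact hmV
        · rw [mem_singleton_iff] at hi; subst hi; exact hnV
      · exact h5 hi
    have h7 := Set.ncard_le_ncard h6 (Set.toFinite _)
    have h8 : ((T v)ᶜ).ncard = 3 := by
      have := Set.ncard_add_ncard_compl (T v)
      rw [h3, Nat.card_eq_fintype_card, Fintype.card_fin] at this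
      omega
    rw [Set.ncard_union_eq (by
      rw [Set.disjoint_left]
      rintro i hi hi'
      refine hi' ?_
      rw [hT]
      rcases hi with rfl | hi
      · exact Or.inl rfl
      · rw [mem_singleton_iff] at hi; subst hi; exact Or.inr (Or.inl rfl)) (Set.toFinite _)
      (Set.toFinite _), Set.ncard_pair hz.cd, h8, dpt_card862 hz] at h7
    omega
  obtain ⟨cc, hd, hhx⟩ := frz_atP862 (T := T) (v := v) (A := T v) h3 hcov hcd hde hce σ hσc hσd
    hσe hfr' hQ2 ha0 ha1 (m := s) (m' := s') hsV.2.2.1 hsV.2.2.2.1 hsV.2.2.2.2 (hV0 ▸ hsV.1)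
    (hV0 ▸ hsV.2.1) (fun θ hθ i hi => by
      constructor
      · intro hi'
        have h5 := (hone θ hθ).1 i hi hi'
        have h6 := (hone θ hθ).2.2
        have h7 := hsθ θ hθ
        rcases hss with ⟨rfl, rfl⟩ | ⟨rfl, rfl⟩
        · rcases h5 with h5 | h5
          · exact h5
          · exact absurd ⟨h7, h5 ▸ hi'⟩ h6
        · rcases h5 with h5 | h5
          · exact absurd ⟨h5 ▸ hi', h7⟩ h6
          · exact h5
      · intro hi'
        rw [hi']; exact hsθ θ hθ)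
  -- facts for both cases
  have main : ∀ μ : ℕ → Fin 6, Hxs T (T v) (yy v θ0) μ →
      (T (yy v θ0 5)).ncard ≤ 3 ∧ (T (yy v θ0 7)).ncard ≤ 3 ∧ g ∈ T (yy v θ0 5) ∧
      g ∈ T (yy v θ0 7) := by
    intro μ hs
    have e6 : ∀ k, (a ∈ T (yy v θ0 k) ∧ b ∈ T (yy v θ0 k)) → μ k = μ 6 := by
      rintro k ⟨h5, h6⟩
      have h7 := (hs.mem k a haA).1 h5
      have h8 := (hs.mem k b hbA).1 h6
      have h9 := (hs.mem 6 a haA).1 (hV6 ▸ haV)
      have h10 := (hs.mem 6 b hbA).1 (hV6 ▸ hbV)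
      rcases covA h3 haA hbA (hs.notA 6) hz.ab h10 h9 (hs.notA k) with h11 | h11 | h11
      · exact absurd h11.symm h7
      · exact absurd h11.symm h8
      · exact h11
    have d5 : dist (yy v θ0 5) V = 1 := by rw [hV6]; exact dist_yy_succ v θ0 5
    have d7 : dist (yy v θ0 7) V = 1 := by rw [hV6, dist_comm]; exact dist_yy_succ v θ0 6
    have n5 : ¬ (a ∈ T (yy v θ0 5) ∧ b ∈ T (yy v θ0 5)) := fun h5 => hs.ne1 5 (e6 5 h5)
    have n7 : ¬ (a ∈ T (yy v θ0 7) ∧ b ∈ T (yy v θ0 7)) := fun h5 => hs.ne1 6 (e6 7 h5).symm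
    have l5 := (hle _ d5 (dist_yy v θ0 5)).resolve_right n5
    have l7 := (hle _ d7 (dist_yy v θ0 7)).resolve_right n7
    have hμV : μ 6 ∉ T V := fun h5 => (hs.mem 6 _ (hs.notA 6)).1 (hV6 ▸ h5) rfl
    obtain ⟨t5, ht5, ht5'⟩ := hs.ex h h3 3
    obtain ⟨t7, ht7, ht7'⟩ := hs.ex h h3 5
    have hrel : ∀ j, (T (yy v θ0 (j + 2))).ncard ≤ 3 →
        ¬ (a ∈ T (yy v θ0 (j + 2)) ∧ b ∈ T (yy v θ0 (j + 2))) →
        Rel T V (yy v θ0 (j + 2)) := by
      intro j hj hj' w hw h5 h6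
      rcases hnear w hw h6 with h7 | h7
      · exact hj' ⟨h5 h7.1, h5 h7.2⟩
      · have h8 := hs.uniq h3 hj (by rw [hT]; exact Or.inl rfl : m ∈ T v) (h5 h7.1)
          (by rw [hT]; exact Or.inr (Or.inl rfl) : n ∈ T v) (h5 h7.2)
        exact hz.cd h8
    have k5 : t5 = g := by
      by_contra hcon
      have h5 : t5 ∈ T V := by
        rw [hT] at ht5
        rcases ht5 with h5 | h5 | h5
        · rw [h5]; exact hmV
        · rw [h5]; exact hnV
        · exact absurd h5 hcon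
      have hsub : T (yy v θ0 (3 + 2)) ⊆ insert (μ 6) (T V) := by
        intro i hi
        by_cases hiA : i ∈ T v
        · right
          rw [hs.uniq h3 l5 hiA hi ht5 ht5']; exact h5
        · by_cases him : i = μ 6
          · exact Or.inl him
          · right
            rw [hV6]
            exact (hs.mem 6 i hiA).2 him
      have h6 := (hrel 3 l5 n5).line h (v := yy v θ0 4) d5 hsub
        (by rw [dist_comm]; exact dist_yy_succ v θ0 4)
        (h.sub _ ((hs.mem 4 _ (hs.notA _)).2 (hs.ne2 4).symm))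
      rw [hV6] at h6
      exact not_line' v θ0 4 h6
    have k7 : t7 = g := by
      by_contra hcon
      have h5 : t7 ∈ T V := by
        rw [hT] at ht7
        rcases ht7 with h5 | h5 | h5
        · rw [h5]; exact hmV
        · rw [h5]; exact hnV
        · exact absurd h5 hcon
      have hsub : T (yy v θ0 (5 + 2)) ⊆ insert (μ 6) (T V) := by
        intro i hi
        by_cases hiA : i ∈ T v
        · right
          rw [hs.uniq h3 l7 hiA hi ht7 ht7']; exact h5
        · by_cases him : i = μ 6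
          · exact Or.inl him
          · right
            rw [hV6]
            exact (hs.mem 6 i hiA).2 him
      have h6 := (hrel 5 l7 n7).line h (v := yy v θ0 8) d7 hsub
        (dist_yy_succ v θ0 7)
        (h.sub _ ((hs.mem 8 _ (hs.notA _)).2 (hs.ne2 6)))
      rw [hV6] at h6
      exact yy_not_line v θ0 6 h6
    exact ⟨l5, l7, k5 ▸ ht5', k7 ▸ ht7'⟩
  have hgA : g ∈ T v := by rw [hT]; exact Or.inr (Or.inr rfl)
  -- both sides of `v` on the circle about `V`
  have fin : ∀ μ : ℕ → Fin 6, Hxs T (T v) (yy v θ0) μ → ∀ ε : ℝ, (ε = 1 ∨ ε = -1) →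
      (∀ᶠ w in 𝓝 v, g ∈ T w → 0 ≤ ε * (dist w (yy v θ0 5) - 1)) →
      (∀ᶠ w in 𝓝 v, g ∈ T w → 0 ≤ ε * (dist w (yy v θ0 7) - 1)) → False := by
    intro μ hs ε hε h5 h7
    obtain ⟨l5, l7, g5, g7⟩ := main μ hs
    have hev : ∀ᶠ w in 𝓝 v, dist w V = 1 → w ≠ v → g ∉ T w := by
      filter_upwards [h5, h7, Metric.ball_mem_nhds v one_pos] with w k1 k2 k3 hwV hwv hgw
      exact noside180 (θ := θ0) (k := 5) hε hV6 hwV hwv k3 (k1 hgw) (k2 hgw)
    -- then `m` and `n` are on the circle about `V` near `v`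
    have hmn : ∀ᶠ w in 𝓝[sphere V 1] v, m ∈ T w ∧ n ∈ T w := by
      filter_upwards [mem_nhdsWithin_of_mem_nhds hev, mem_nhdsWithin_of_mem_nhds (h.nhd v),
        self_mem_nhdsWithin] with w k1 k2 k3
      have k3 : dist w V = 1 := k3
      by_cases hwv : w = v
      · rw [hwv, hT]
        exact ⟨Or.inl rfl, Or.inr (Or.inl rfl)⟩
      · have k4 := k1 k3 hwv
        have k5 : ∀ i ∈ T w, i = m ∨ i = n := by
          intro i hi
          have k6 := k2 hi
          rw [hT] at k6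
          rcases k6 with k6 | k6 | k6
          · exact Or.inl k6
          · exact Or.inr k6
          · rw [mem_singleton_iff] at k6
            exact absurd (k6 ▸ hi) k4
        rcases hnear w k3 (fun i hi => by
          rcases k5 i hi with k6 | k6
          · rw [k6]; exact hmV
          · rw [k6]; exact hnV) with k6 | k6
        · exact absurd (k2 k6.1) haA
        · exact k6
    have hline : ∀ u, dist v u = 1 → (m ∈ T u ∨ n ∈ T u) → u = V ∨ u + V = 2 * v := by
      rintro u hu (h8 | h8)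
      · exact h.mx.partner_line hvV (hmn.mono fun q hq => h.sub q hq.1) hu (h.sub _ h8)
      · exact h.mx.partner_line hvV (hmn.mono fun q hq => h.sub q hq.2) hu (h.sub _ h8)
    -- the next neighbour
    have hn8 : ∀ i, i = m ∨ i = n → i ∉ T (yy v θ0 8) := by
      intro i hi hi'
      have h8 := hline (yy v θ0 8) (by rw [dist_comm]; exact dist_yy v θ0 8) (by
        rcases hi with rfl | rfl
        · exact Or.inl hi'
        · exact Or.inr hi')
      rw [hV6] at h8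
      have r := yy_rel v θ0 6
      rcases h8 with h8 | h8
      · exact yy_not_line v θ0 6 (Or.inl h8)
      · rw [r] at h8
        have h9 : yy v θ0 7 = v := by linear_combination h8
        have h10 := dist_yy v θ0 7
        rw [h9, dist_self] at h10
        norm_num at h10
    obtain ⟨t, ht, ht'⟩ := hs.ex h h3 6
    have htg : t = g := by
      have h8 := ht
      rw [hT] at h8
      rcases h8 with h8 | h8 | h8
      · exact absurd ht' (hn8 t (Or.inl h8))
      · exact absurd ht' (hn8 t (Or.inr h8))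
      · exact h8
    have h8 : (T (yy v θ0 8)).ncard ≤ 3 := by
      have h9 : T (yy v θ0 8) ⊆ {μ 6, μ 7, g} := by
        intro i hi
        by_cases hiA : i ∈ T v
        · rw [hT] at hiA
          rcases hiA with h10 | h10 | h10
          · exact absurd hi (hn8 i (Or.inl h10))
          · exact absurd hi (hn8 i (Or.inr h10))
          · exact Or.inr (Or.inr h10)
        · rcases hs.cov h3 6 hiA with h10 | h10 | h10
          · exact Or.inl h10
          · exact Or.inr (Or.inl h10)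
          · exact absurd h10 ((hs.mem 8 i hiA).1 hi)
      refine (Set.ncard_le_ncard h9 (Set.toFinite _)).trans ?_
      refine (Set.ncard_insert_le _ _).trans ?_
      have := Set.ncard_insert_le (μ 7) {g}
      rw [Set.ncard_singleton] at this
      omega
    exact adj180 h h3 hs (k := 5) l7 h8 hgA g7 (htg ▸ ht')
  rcases hhx with hs | hs
  · obtain ⟨l5, l7, g5, g7⟩ := main _ hs
    refine fin _ hs 1 (Or.inl rfl) ?_ ?_
    · refine (oneA180 h h3 hd hs (k := 3) l5 hgA g5).mono fun w hw hw' => ?_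
      have := hw (h.sub w hw')
      linarith
    · refine (oneA180 h h3 hd hs (k := 5) l7 hgA g7).mono fun w hw hw' => ?_
      have := hw (h.sub w hw')
      linarith
  · obtain ⟨l5, l7, g5, g7⟩ := main _ hs
    refine fin _ hs (-1) (Or.inr rfl) ?_ ?_
    · refine (oneB180 h h3 hd hs (k := 3) l5 hgA g5).mono fun w hw hw' => ?_
      have := hw (h.sub w hw')
      linarith
    · refine (oneB180 h h3 hd hs (k := 5) l7 hgA g7).mono fun w hw hw' => ?_
      have := hw (h.sub w hw')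
      linarith

/-- a frozen law on a set of points, permutation form -/
theorem frz_sigmaP862 {A : Set (Fin 6)} {col : Fin 3 → Fin 6} (hcol : ∀ i, i ∉ A ↔ ∃ l, i = col l)
    (hinj : Function.Injective col) {s : Fin 3} (hs : s = 1 ∨ s = 2) :
    ∃ (c d e : Fin 6) (σ : Fin 6 → Fin 6), (∀ i, i ∉ A ↔ i = c ∨ i = d ∨ i = e) ∧ c ≠ d ∧ d ≠ e ∧
      c ≠ e ∧ σ c = d ∧ σ d = e ∧ σ e = c ∧ ∀ l, σ (col l) = col (l + s) := by
  classical
  set σ : Fin 6 → Fin 6 := fun i => if hi : ∃ l, i = col l then col (hi.choose + s) else i with hσ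
  have hσc : ∀ l, σ (col l) = col (l + s) := by
    intro l
    have hi : ∃ l', col l = col l' := ⟨l, rfl⟩
    have h1 : hi.choose = l := (hinj hi.choose_spec).symm
    simp only [hσ]
    rw [dif_pos hi, h1]
  have hcov : ∀ i, i ∉ A ↔ i = col 0 ∨ i = col 1 ∨ i = col 2 := by
    intro i
    rw [hcol]
    constructor
    · rintro ⟨l, rfl⟩
      fin_cases l
      · exact Or.inl rfl
      · exact Or.inr (Or.inl rfl)
      · exact Or.inr (Or.inr rfl)
    · rintro (rfl | rfl | rfl) <;> exact ⟨_, rfl⟩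
  have h01 : col 0 ≠ col 1 := fun h5 => absurd (hinj h5) (by decide)
  have h12 : col 1 ≠ col 2 := fun h5 => absurd (hinj h5) (by decide)
  have h02 : col 0 ≠ col 2 := fun h5 => absurd (hinj h5) (by decide)
  rcases hs with rfl | rfl
  · exact ⟨col 0, col 1, col 2, σ, hcov, h01, h12, h02, by rw [hσc]; rfl, by rw [hσc]; rfl,
      by rw [hσc]; rfl, hσc⟩
  · refine ⟨col 0, col 2, col 1, σ, fun i => ?_, h02, h12.symm, h01, by rw [hσc]; rfl,
      by rw [hσc]; rfl, by rw [hσc]; rfl, hσc⟩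
    rw [hcov]
    tauto

theorem yy_pt862 (v : ℂ) (t : ℝ) (k : ℕ) :
    yy v (t * (Real.pi / 3)) k = H180.pt v (t + k) := by
  unfold yy H180.pt cis
  congr 3
  push_cast
  ring

/-- **Not frozen near a plain end**, in the coordinate `pt` -/
theorem _root_.Vale.Agent.P032.Six.Irr.not_FrzG862 (h : Irr U T) {V v : ℂ} {a b m n g : Fin 6}
    (hz : DPt T V a b m n) (hvV : dist v V = 1) (h3 : (T v).ncard = 3) (hT : T v = {m, n, g})
    (hgV : g ∉ T V) (hiso : ∀ᶠ w in 𝓝 V, 4 ≤ (T w).ncard → w = V)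
    (hle : ∀ y, dist y V = 1 → dist y v = 1 → (T y).ncard ≤ 3 ∨ (a ∈ T y ∧ b ∈ T y))
    {col : Fin 3 → Fin 6} (hcol : ∀ i, i ∉ T v ↔ ∃ l, i = col l) (hinj : Function.Injective col)
    {s : Fin 3} (hs : s = 1 ∨ s = 2) {t₁ : ℝ} (hV : V = H180.pt v t₁)
    (hfr : ∀ᶠ t in 𝓝 t₁, ∀ (k : ℕ) (l : Fin 3),
      (col l ∈ T (H180.pt v (t + k)) ↔ col (l + s) ∈ T (H180.pt v (t + k + 1)))) : False := by
  have hpi := Real.pi_pos
  obtain ⟨c, d, e, σ, hcov, hcd, hde, hce, hσc, hσd, hσe, hσ⟩ :=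
    frz_sigmaP862 hcol hinj hs
  obtain ⟨η, hη, hfr⟩ := Metric.eventually_nhds_iff.1 hfr
  refine core862 h hz hvV h3 hT hgV hiso hle hcov hcd hde hce hσc hσd hσe
    (θ0 := t₁ * (Real.pi / 3)) (η := η / 2 * (Real.pi / 3))
    (by rw [yy_pt862, Nat.cast_zero, add_zero]; exact hV) (by positivity) ?_
  intro θ hθ k i hi
  obtain ⟨t, rfl⟩ : ∃ t : ℝ, θ = t * (Real.pi / 3) := ⟨θ / (Real.pi / 3), by field_simp⟩
  obtain ⟨l, rfl⟩ := (hcol i).1 hi
  have hp3 : 0 < Real.pi / 3 := by positivity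
  have h1 : t ≤ t₁ := le_of_mul_le_mul_right hθ.2 hp3
  have h2 : t₁ - η / 2 ≤ t := by
    refine le_of_mul_le_mul_right ?_ hp3
    have := hθ.1
    linarith
  rw [hσ, yy_pt862, yy_pt862, Nat.cast_succ, ← add_assoc]
  refine hfr ?_ k l
  rw [Real.dist_eq, abs_lt]
  constructor <;> linarith

/-- **Not frozen near a plain end, full times and one exceptional column.** -/
theorem _root_.Vale.Agent.P032.Six.Irr.not_FrzX862 (h : Irr U T) {V v : ℂ} {a b m n g : Fin 6}
    (hz : DPt T V a b m n) (hvV : dist v V = 1) (h3 : (T v).ncard = 3) (hT : T v = {m, n, g})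
    (hgV : g ∉ T V) (hiso : ∀ᶠ w in 𝓝 V, 4 ≤ (T w).ncard → w = V)
    (hle : ∀ y, dist y V = 1 → dist y v = 1 → (T y).ncard ≤ 3 ∨ (a ∈ T y ∧ b ∈ T y))
    {col : Fin 3 → Fin 6} (hcol : ∀ i, i ∉ T v ↔ ∃ l, i = col l) (hinj : Function.Injective col)
    {s : Fin 3} (hs : s = 1 ∨ s = 2) {r : ℝ → Fin 3} (hr : ∀ t, r (t + 6) = r t) {t₀ t₁ : ℝ}
    (hV : V = H180.pt v t₁) (ht : ∀ n : ℤ, t₁ ≠ t₀ + n)
    (hfr : ∀ t ∈ Icc (0 : ℝ) 6, (∀ n : ℤ, t ≠ t₀ + n) → ∀ l,
      l ∈ Qt (S5.H180.Qx T v col) r t ↔ l + s ∈ Qt (S5.H180.Qx T v col) r (t + 1)) : False := by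
  set Q := S5.H180.Qx T v col with hQ
  have hper : ∀ t, Q (t + 6) = Q t := by
    intro t
    simp only [hQ, S5.H180.Qx, H180.pt_six]
  have hF : Function.Periodic (Qt Q r) 6 := by
    intro t
    unfold Qt
    rw [hper, hr]
  -- all times off the column
  have hall : ∀ t, (∀ n : ℤ, t ≠ t₀ + n) → ∀ l, l ∈ Qt Q r t ↔ l + s ∈ Qt Q r (t + 1) := by
    intro t htn l
    set N : ℤ := ⌊t / 6⌋ with hN
    have e1 := Int.floor_le (t / 6)
    have e2 := Int.lt_floor_add_one (t / 6)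
    have h1 := hfr (t - N * 6) ⟨by linarith, by linarith⟩ (fun n hn => htn (n + N * 6) (by
      push_cast
      linarith)) l
    have p1 : Qt Q r (t - N * 6) = Qt Q r t := hF.sub_int_mul_eq N
    have p2 : Qt Q r (t - N * 6 + 1) = Qt Q r (t + 1) := by
      rw [show t - N * 6 + 1 = t + 1 - N * 6 by ring]
      exact hF.sub_int_mul_eq N
    rwa [p1, p2] at h1
  -- at the column of `V` no time is full
  have haV : a ∈ T V := by rw [hz.pal]; exact Or.inl rfl
  have hbV : b ∈ T V := by rw [hz.pal]; exact Or.inr (Or.inl rfl)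
  have hmV : m ∈ T V := by rw [hz.pal]; exact Or.inr (Or.inr (Or.inl rfl))
  have hnV : n ∈ T V := by rw [hz.pal]; exact Or.inr (Or.inr (Or.inr rfl))
  have haA : a ∉ T v := by
    rw [hT]
    rintro (h1 | h1 | h1)
    · exact hz.ac h1
    · exact hz.ad h1
    · exact hgV (h1 ▸ haV)
  have hbA : b ∉ T v := by
    rw [hT]
    rintro (h1 | h1 | h1)
    · exact hz.bc h1
    · exact hz.bd h1
    · exact hgV (h1 ▸ hbV)
  obtain ⟨la, hla⟩ := (hcol a).1 haA
  obtain ⟨lb, hlb⟩ := (hcol b).1 hbA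
  have hlab : la ≠ lb := fun h1 => hz.ab (by rw [hla, hlb, h1])
  have hQV : Q t₁ ≠ univ := by
    intro hu
    have h5 : (T v)ᶜ ⊆ T V := by
      intro i hi
      obtain ⟨l, rfl⟩ := (hcol i).1 hi
      have h6 : l ∈ Q t₁ := by rw [hu]; trivial
      rw [hV]
      exact h6
    have h6 : ({m, n} : Set (Fin 6)) ∪ (T v)ᶜ ⊆ T V := by
      rintro i (hi | hi)
      · rcases hi with rfl | hi
        · exact hmV
        · rw [mem_singleton_iff] at hi; subst hi; exact hnV
      · exact h5 hi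
    have h7 := Set.ncard_le_ncard h6 (Set.toFinite _)
    have h8 : ((T v)ᶜ).ncard = 3 := by
      have := Set.ncard_add_ncard_compl (T v)
      rw [h3, Nat.card_eq_fintype_card, Fintype.card_fin] at this
      omega
    rw [Set.ncard_union_eq (by
      rw [Set.disjoint_left]
      rintro i hi hi'
      refine hi' ?_
      rw [hT]
      rcases hi with rfl | hi
      · exact Or.inl rfl
      · rw [mem_singleton_iff] at hi; subst hi; exact Or.inr (Or.inl rfl)) (Set.toFinite _)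
      (Set.toFinite _), Set.ncard_pair hz.cd, h8, dpt_card862 hz] at h7
    omega
  have htk : ∀ k : ℕ, ∀ n : ℤ, t₁ + k ≠ t₀ + n := by
    intro k n hn
    refine ht (n - k) ?_
    push_cast
    linarith
  have htwo : ∀ k : ℕ, ∃ i j, i ≠ j ∧ i ∈ Qt Q r (t₁ + k) ∧ j ∈ Qt Q r (t₁ + k) := by
    intro k
    induction k with
    | zero =>
      rw [Nat.cast_zero, add_zero, Qt_of_ne hQV]
      refine ⟨la, lb, hlab, ?_, ?_⟩
      · show col la ∈ T (H180.pt v t₁)
        rw [← hla, ← hV]; exact haV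
      · show col lb ∈ T (H180.pt v t₁)
        rw [← hlb, ← hV]; exact hbV
    | succ k ih =>
      obtain ⟨i, j, hij, hi, hj⟩ := ih
      rw [Nat.cast_succ, ← add_assoc]
      exact ⟨i + s, j + s, fun h1 => hij (add_right_cancel h1), (hall _ (htk k) i).1 hi,
        (hall _ (htk k) j).1 hj⟩
  have hnu : ∀ k : ℕ, Q (t₁ + k) ≠ univ := by
    intro k hu
    obtain ⟨i, j, hij, hi, hj⟩ := htwo k
    rw [Qt_of_eq hu] at hi hj
    exact hij (hi.trans hj.symm)
  -- nor near it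
  have hloc : ∀ k : ℕ, ∀ᶠ t in 𝓝 t₁, Q (t + k) ≠ univ := by
    intro k
    have hc : Tendsto (fun t : ℝ => t + k) (𝓝 t₁) (𝓝 (t₁ + k)) :=
      (continuous_id.add continuous_const).tendsto t₁
    filter_upwards [hc.eventually (S5.H180.usc_pt h.nhd v col (t₁ + k))] with t h1 hu
    refine hnu k (Set.univ_subset_iff.1 ?_)
    rw [← hu]
    exact h1
  have hsix : ∀ᶠ t in 𝓝 t₁, ∀ k ∈ Finset.range 6, Q (t + (k : ℕ)) ≠ univ :=
    (Finset.eventually_all _).2 fun k _ => hloc k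
  have hcolm : ∀ᶠ t in 𝓝 t₁, ∀ n : ℤ, t ≠ t₀ + n := by
    have h0 : 0 < |t₁ - t₀ - round (t₁ - t₀)| := by
      refine abs_pos.2 fun h1 => ht (round (t₁ - t₀)) ?_
      linarith
    filter_upwards [Metric.ball_mem_nhds t₁ h0] with t h1 n hn
    rw [mem_ball, Real.dist_eq] at h1
    have h2 := round_le (t₁ - t₀) n
    rw [hn] at h1
    have h4 : |t₁ - t₀ - n| = |t₀ + n - t₁| := by
      rw [← abs_neg]; congr 1; ring
    linarith
  refine h.not_FrzG862 hz hvV h3 hT hgV hiso hle hcol hinj hs hV ?_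
  filter_upwards [hsix, hcolm] with t h1 h2 k l
  have hu : ∀ k : ℕ, Q (t + k) ≠ univ := by
    intro k
    have e1 : Q (t + k) = Q (t + ((k % 6 : ℕ) : ℝ)) := by
      have hQp : Function.Periodic Q 6 := hper
      have e2 : (k : ℝ) = ((k % 6 : ℕ) : ℝ) + ((k / 6 : ℕ) : ℝ) * 6 := by
        have := Nat.mod_add_div k 6
        have h3 : ((k % 6 + 6 * (k / 6) : ℕ) : ℝ) = k := by rw [this]
        push_cast at h3
        linarith
      rw [e2, ← add_assoc]
      exact hQp.nat_mul _ _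
    rw [e1]
    exact h1 _ (Finset.mem_range.2 (Nat.mod_lt _ (by norm_num)))
  have hk : ∀ n : ℤ, t + k ≠ t₀ + n := by
    intro n hn
    refine h2 (n - k) ?_
    push_cast
    linarith
  have h5 := hall (t + k) hk l
  have h6 := hu (k + 1)
  rw [Nat.cast_succ, ← add_assoc] at h6
  rw [Qt_of_ne (hu k), Qt_of_ne h6] at h5
  exact h5

end Vale.Agent.P032.H862
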