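import Vale.Agent.P032.H862.HarmZ
import Vale.Agent.P032.H98.MRow

/-!
# P032: harmless points near a point of the mode `M_e` (helper862)

`V` a point of `Md98 T V a b c d e f`, `y` a harmless point of `S(V)` with the pair `A`.
* `germA862` : the germ of `S(y)` at `V`;
* `coreM862` : the core lemma in the world `XC`;
* `harmK862` : not `T y = {a, b, c, f}`;
* `harmT862` : not `T y = {a, b, e, f}` with `e ∈ A`;
* `harmV862` : not `T y = T V`.
-/

open Set Filter Topology Metric

noncomputable section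

namespace Vale.Agent.P032.H862

open Vale.Agent.P032.Six Vale.Agent.P032.S5.H767 Vale.Agent.P032.H383 Vale.Agent.P032.H800
  Vale.Agent.P032.H98

variable {U : Fin 6 → Set ℂ} {T : ℂ → Set (Fin 6)} {V y : ℂ} {a b c d e f : Fin 6}
  {A : Set (Fin 6)}

/-- an existing half branch inside a pair of colours of `T y` forces the pair of `y` -/
theorem hb_force862 (hy : dist V y = 1) (hH : Six.Harm T y A) {x z : Fin 6} {τ : ℝ}
    (hb : ∀ᶠ t : ℝ in 𝓝[>] 0, T (hb y V τ t) ⊆ {x, z}) (hs : ({x, z} : Set (Fin 6)) ⊆ T y) :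
    A = {x, z} := by
  obtain ⟨t, ht⟩ := hb.exists
  have h1 := hH.h1 _ (dist_hb hy τ t) (ht.trans hs)
  refine Set.eq_of_subset_of_ncard_le (h1.trans ht) ?_ (Set.toFinite _)
  rw [hH.cardA]
  exact Set.ncard_insert_le x {z} |>.trans (by rw [Set.ncard_singleton])

/-- **the germ of `S(y)` at `V` for a harmless point `y`** -/
theorem germA862 (h : Irr U T) (hV : DPt T V a b c d) (hy : dist y V = 1)
    (hH : Six.Harm T y A) :
    ((({a, c} : Set (Fin 6)) ⊆ T y → A = {a, c}) ∧ (({b, d} : Set (Fin 6)) ⊆ T y → A = {b, d})) ∨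
      ((({a, d} : Set (Fin 6)) ⊆ T y → A = {a, d}) ∧
        (({b, c} : Set (Fin 6)) ⊆ T y → A = {b, c})) := by
  have hy' : dist V y = 1 := by rw [dist_comm]; exact hy
  rcases h.germ_branch hV hy' with hG | hG | hG | hG
  · exact Or.inl ⟨hb_force862 hy' hH hG.1, hb_force862 hy' hH hG.2⟩
  · exact Or.inr ⟨hb_force862 hy' hH hG.1, hb_force862 hy' hH hG.2⟩
  · exact Or.inr ⟨hb_force862 hy' hH hG.2, hb_force862 hy' hH hG.1⟩
  · exact Or.inl ⟨hb_force862 hy' hH hG.2, hb_force862 hy' hH hG.1⟩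

/-- the points of order at least four on a unit circle: the given one and another one -/
theorem n3_two862 (n3 : N3 T) {z p : ℂ} (hz4 : 4 ≤ (T z).ncard) (hp : dist p z = 1)
    (hp4 : 4 ≤ (T p).ncard) :
    ∃ p2, ∀ q, dist q z = 1 → 4 ≤ (T q).ncard → q = p ∨ q = p2 := by
  by_cases hex : ∃ q, dist q z = 1 ∧ 4 ≤ (T q).ncard ∧ q ≠ p
  · obtain ⟨p2, k1, k2, k3⟩ := hex
    refine ⟨p2, fun q h1 h2 => ?_⟩
    rcases n3 z q p p2 hz4 h1 hp k1 h2 hp4 k2 with h5 | h5 | h5
    · exact Or.inl h5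
    · exact Or.inr h5
    · exact (k3 h5.symm).elim
  · refine ⟨p, fun q h1 h2 => ?_⟩
    by_contra hcon
    exact hex ⟨q, h1, h2, fun h => hcon (Or.inl h)⟩

theorem Md98.fA862 (M : Md98 T V a b c d e f) :
    ∀ p ∈ closure (Ex T V {a, b}), (T p).ncard ≤ 3 → f ∉ T p := by
  have hn := M.nd
  simp only [List.nodup_cons, List.mem_cons, List.not_mem_nil, or_false, not_or, List.nodup_nil,
    and_true, not_false_eq_true] at hn
  obtain ⟨⟨ab, ac, ad, ae, af⟩, ⟨bc, bd, be, bf⟩, ⟨cd, ce, cf⟩, ⟨de, df⟩, ef⟩ := hn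
  intro p hp h3 hf
  rcases M.hA p hp h3 with h5 | h5 <;> rw [h5] at hf <;>
    simp [Ne.symm af, Ne.symm bf, Ne.symm ef] at hf

/-- **the core lemma in the world `XC`** -/
theorem coreM862 (X : XC U T) (M : Md98 T V a b c d e f) (hy : dist y V = 1)
    (hy4 : 4 ≤ (T y).ncard) (hyA : y ∉ closure (Ex T V {a, b}))
    (hcov : ∀ q, dist q y = 1 → e ∈ T q ∨ a ∈ T q ∨ b ∈ T q) : False := by
  obtain ⟨y2, h2⟩ := n3_two862 X.n3 M.dpt.ncard.ge hy hy4
  obtain ⟨y1, h1⟩ := n3_two862 X.n3 hy4 (by rw [dist_comm]; exact hy) M.dpt.ncard.ge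
  exact coreZ862 X.df.irr M.dpt M.nd (Md98.fA862 M) (Md98.fA862 M.swap) hy hy4 hyA h2 h1 hcov

/-- **no harmless point with the palette `{a, b, c, f}`** -/
theorem harmK862 (X : XC U T) (M : Md98 T V a b c d e f) (hy : dist y V = 1)
    (hH : Six.Harm T y A) (hT : T y = {a, b, c, f}) : False := by
  have hn := M.nd
  simp only [List.nodup_cons, List.mem_cons, List.not_mem_nil, or_false, not_or, List.nodup_nil,
    and_true, not_false_eq_true] at hn
  obtain ⟨⟨ab, ac, ad, ae, af⟩, ⟨bc, bd, be, bf⟩, ⟨cd, ce, cf⟩, ⟨de, df⟩, ef⟩ := hn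
  have hcA : c ∈ A := by
    rcases germA862 X.df.irr M.dpt hy hH with ⟨h1, -⟩ | ⟨-, h1⟩
    · rw [h1 (by rw [hT]; intro i hi; simp only [mem_insert_iff, mem_singleton_iff] at hi ⊢; tauto)]
      simp
    · rw [h1 (by rw [hT]; intro i hi; simp only [mem_insert_iff, mem_singleton_iff] at hi ⊢; tauto)]
      simp
  refine coreM862 X M.swap hy hH.card.ge (fun hcl => ?_) fun q hq => ?_
  · have := (sub_of_closure X.df.irr hcl) (Or.inr rfl : d ∈ ({c, d} : Set (Fin 6)))
    rw [hT] at this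
    simp [Ne.symm ad, Ne.symm bd, Ne.symm cd, df] at this
  · by_cases hs : T q ⊆ T y
    · exact Or.inr (Or.inl (hH.h1 q hq hs hcA))
    · obtain ⟨i, hi, hi'⟩ := Set.not_subset.1 hs
      rw [hT] at hi'
      rcases M.all X i with rfl | rfl | rfl | rfl | rfl | rfl
      · exact absurd (by simp) hi'
      · exact absurd (by simp) hi'
      · exact absurd (by simp) hi'
      · exact Or.inr (Or.inr hi)
      · exact Or.inl hi
      · exact absurd (by simp) hi'

/-- **no harmless point with the palette `{a, b, e, f}` and a pair with `e`** -/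
theorem harmT862 (X : XC U T) (M : Md98 T V a b c d e f) (hy : dist y V = 1)
    (hH : Six.Harm T y A) (hT : T y = {a, b, e, f}) (he : e ∈ A) : False := by
  have hn := M.nd
  simp only [List.nodup_cons, List.mem_cons, List.not_mem_nil, or_false, not_or, List.nodup_nil,
    and_true, not_false_eq_true] at hn
  obtain ⟨⟨ab, ac, ad, ae, af⟩, ⟨bc, bd, be, bf⟩, ⟨cd, ce, cf⟩, ⟨de, df⟩, ef⟩ := hn
  refine coreM862 X M.swap hy hH.card.ge (fun hcl => ?_) fun q hq => ?_
  · have := (sub_of_closure X.df.irr hcl) (Or.inr rfl : d ∈ ({c, d} : Set (Fin 6)))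
    rw [hT] at this
    simp [Ne.symm ad, Ne.symm bd, de, df] at this
  · by_cases hs : T q ⊆ T y
    · exact Or.inl (hH.h1 q hq hs he)
    · obtain ⟨i, hi, hi'⟩ := Set.not_subset.1 hs
      rw [hT] at hi'
      rcases M.all X i with rfl | rfl | rfl | rfl | rfl | rfl
      · exact absurd (by simp) hi'
      · exact absurd (by simp) hi'
      · exact Or.inr (Or.inl hi)
      · exact Or.inr (Or.inr hi)
      · exact absurd (by simp) hi'
      · exact absurd (by simp) hi'

/-- **no harmless point with the palette of `V`** -/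
theorem harmV862 (h : Irr U T) (hV : DPt T V a b c d) (hy : dist y V = 1)
    (hH : Six.Harm T y A) (hT : T y = T V) : False := by
  have s : ∀ {x z : Fin 6}, x ∈ T V → z ∈ T V → ({x, z} : Set (Fin 6)) ⊆ T y := by
    intro x z hx hz
    rw [hT]
    rintro i (rfl | hi)
    · exact hx
    · rw [mem_singleton_iff] at hi; rw [hi]; exact hz
  have ha : a ∈ T V := by rw [hV.pal]; simp
  have hb : b ∈ T V := by rw [hV.pal]; simp
  have hc : c ∈ T V := by rw [hV.pal]; simp
  have hd : d ∈ T V := by rw [hV.pal]; simp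
  rcases germA862 h hV hy hH with ⟨h1, h2⟩ | ⟨h1, h2⟩
  · have h3 := (h1 (s ha hc)).symm.trans (h2 (s hb hd))
    have h4 : a ∈ ({b, d} : Set (Fin 6)) := by rw [← h3]; simp
    rcases h4 with h4 | h4
    · exact hV.ab h4
    · exact hV.ad h4
  · have h3 := (h1 (s ha hd)).symm.trans (h2 (s hb hc))
    have h4 : a ∈ ({b, c} : Set (Fin 6)) := by rw [← h3]; simp
    rcases h4 with h4 | h4
    · exact hV.ab h4
    · exact hV.ac h4

end Vale.Agent.P032.H862
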