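import Vale.Agent.P032.H862.HarmS
import Vale.Agent.P032.H594.HarmA
import Vale.Agent.P032.H538.H3

/-!
# P032: the row HA from two outputs of the one-circle list (helper862)

`FlipE862` : a point of order at least four of `S(V)` off the closed pair arcs has an apex of order at
most three with both free colours; `FlipK862` : a point of order at least four off the closed
`cd`-arcs has an apex of order at most three off the closed `cd`-arcs.

`rowHarm862 : FlipE862 → FlipK862 → RowHarm98`.
-/

open Set Filter Topology Metric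

noncomputable section

namespace Vale.Agent.P032.H862

open Vale.Agent.P032.Six Vale.Agent.P032.S5.H767 Vale.Agent.P032.H383 Vale.Agent.P032.H800
  Vale.Agent.P032.H98 Vale.Agent.P032.H961

variable {U : Fin 6 → Set ℂ} {T : ℂ → Set (Fin 6)} {V y p : ℂ} {a b c d e f i : Fin 6}
  {A : Set (Fin 6)}

/-- a point of order at least four off the pair arcs is a real flip -/
def FlipE862 : Prop := ∀ (U : Fin 6 → Set ℂ) (T : ℂ → Set (Fin 6)), XC U T →
  ∀ V a b c d e f, Md98 T V a b c d e f → ∀ y, dist y V = 1 → 4 ≤ (T y).ncard →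
    y ∉ closure (Ex T V {a, b}) → y ∉ closure (Ex T V {c, d}) →
    ∃ p, dist p V = 1 ∧ dist p y = 1 ∧ (T p).ncard ≤ 3 ∧ e ∈ T p ∧ f ∈ T p

/-- a point of order at least four off the `cd`-arcs has an apex off the `cd`-arcs -/
def FlipK862 : Prop := ∀ (U : Fin 6 → Set ℂ) (T : ℂ → Set (Fin 6)), XC U T →
  ∀ V a b c d e f, Md98 T V a b c d e f → ∀ y, dist y V = 1 → 4 ≤ (T y).ncard →
    y ∉ closure (Ex T V {c, d}) →
    ∃ p, dist p V = 1 ∧ dist p y = 1 ∧ (T p).ncard ≤ 3 ∧ p ∉ closure (Ex T V {c, d})

/-- palettes with one colour of each pair -/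
theorem harmH862 (hE : FlipE862) (X : XC U T) (M : Md98 T V a b c d e f) (hy : dist y V = 1)
    (hH : Six.Harm T y A) (hT : T y = {a, c, e, f}) : False := by
  have hn := M.nd
  simp only [List.nodup_cons, List.mem_cons, List.not_mem_nil, or_false, not_or, List.nodup_nil,
    and_true, not_false_eq_true] at hn
  obtain ⟨⟨ab, ac, ad, ae, af⟩, ⟨bc, bd, be, bf⟩, ⟨cd, ce, cf⟩, ⟨de, df⟩, ef⟩ := hn
  by_cases hA : A = {e, f}
  · subst hA
    obtain ⟨y2, h2⟩ := n3_two862 X.n3 M.dpt.ncard.ge hy hH.card.ge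
    obtain ⟨y1, h1⟩ := n3_two862 X.n3 hH.card.ge (by rw [dist_comm]; exact hy) M.dpt.ncard.ge
    exact H538.h3_all538 X.df.irr M.dpt M.nd hy hH hT h2 h1
  · refine harmE862 X M hy hH hA (by rw [hT]; simp) (by rw [hT]; simp)
      (hE U T X V a b c d e f M y hy hH.card.ge (fun hcl => ?_) fun hcl => ?_)
    · have := (sub_of_closure X.df.irr hcl) (Or.inr rfl : b ∈ ({a, b} : Set (Fin 6)))
      rw [hT] at this
      simp [Ne.symm ab, bc, be, bf] at this
    · have := (sub_of_closure X.df.irr hcl) (Or.inr rfl : d ∈ ({c, d} : Set (Fin 6)))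
      rw [hT] at this
      simp [Ne.symm ad, Ne.symm cd, de, df] at this

/-- palettes with one pair -/
theorem harmP862 (hK : FlipK862) (X : XC U T) (M : Md98 T V a b c d e f) (hy : dist y V = 1)
    (hH : Six.Harm T y A) (hT : T y = {a, b, e, f}) : False := by
  have hn := M.nd
  simp only [List.nodup_cons, List.mem_cons, List.not_mem_nil, or_false, not_or, List.nodup_nil,
    and_true, not_false_eq_true] at hn
  obtain ⟨⟨ab, ac, ad, ae, af⟩, ⟨bc, bd, be, bf⟩, ⟨cd, ce, cf⟩, ⟨de, df⟩, ef⟩ := hn
  by_cases heA : e ∈ A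
  · exact harmT862 X M hy hH hT heA
  · refine harmT2_862 X M hy hH hT heA
      (hK U T X V a b c d e f M y hy hH.card.ge fun hcl => ?_)
    have := (sub_of_closure X.df.irr hcl) (Or.inr rfl : d ∈ ({c, d} : Set (Fin 6)))
    rw [hT] at this
    simp [Ne.symm ad, Ne.symm bd, de, df] at this

/-- **row HA from the outputs of the list** -/
theorem rowHarm862 (hE : FlipE862) (hK : FlipK862) : RowHarm98 := by
  intro U T X V a b c d e f M y hy A hH
  rcases H594.harm_cases594 X M hy hH with (h | h) | (h | h) | (h | h)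
  · exact harmP862 hK X M hy hH h
  · exact harmP862 hK X M.swap hy hH h
  · exact harmH862 hE X M hy hH h
  · exact harmH862 hE X M.swap34 hy hH h
  · exact harmH862 hE X M.swap12 hy hH h
  · exact harmH862 hE X M.swap12.swap34 hy hH h

end Vale.Agent.P032.H862
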