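import Vale.Agent.P032.H862.HarmM

/-!
# P032: harmless points near a point of the mode `M_e`, the plain apexes (helper862)

`V` a point of `Md98 T V a b c d e f`, `y` a harmless point of `S(V)` with the pair `A`, `p` a common
point of `S(V)` and `S(y)` of order at most three.
* `noswap862` : `A ≠ {e, f}`, `e, f ∈ T y`: not both `e, f ∈ T p`;
* `apexC862` : `T y = {a, b, e, f}`, `e ∉ A`: `p ∈ closure (Ex T V {c, d})`;
* `harmE862`, `harmT2_862` : the ends of the row HA over the outputs of the list.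
-/

open Set Filter Topology Metric

noncomputable section

namespace Vale.Agent.P032.H862

open Vale.Agent.P032.Six Vale.Agent.P032.S5.H767 Vale.Agent.P032.H383 Vale.Agent.P032.H800
  Vale.Agent.P032.H98 Vale.Agent.P032.H961

variable {U : Fin 6 → Set ℂ} {T : ℂ → Set (Fin 6)} {V y p : ℂ} {a b c d e f i : Fin 6}
  {A : Set (Fin 6)}

/-- a palette of `S(y)` near the apex `p` without a colour of `V` -/
theorem palV862 (h : Irr U T) (hy : dist y V = 1) (hH : Six.Harm T y A) (hpV : dist p V = 1)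
    (hpy : dist p y = 1) (hi : i ∈ T V) :
    ∃ P, P ⊆ T p ∧ i ∉ P ∧ ((∃ j ∈ P, j ∉ T y) ∨ A ⊆ P) := by
  obtain ⟨k1, k2⟩ := S5.H767.tri hpy (y' := V) (by rw [dist_comm]; exact hy)
  obtain ⟨m1, m2⟩ := S5.H767.tri hpV (y' := y) hy
  obtain ⟨P, hP, hiP, hcl⟩ := exists_pal353 h hpy hpV (v := V) (q := y)
    (by rintro rfl; simp at hy) (by
      intro hcon
      have h1 : dist V y = 2 := by
        have h2 : V - y = 2 * (p - y) := by linear_combination hcon
        rw [dist_eq_norm, h2, norm_mul, ← dist_eq_norm, hpy]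
        norm_num
      rw [dist_comm, hy] at h1
      norm_num at h1) hi
  refine ⟨P, hP, hiP, ?_⟩
  obtain ⟨x, hx⟩ : (Ex T y P).Nonempty := closure_nonempty_iff.1 ⟨p, hcl⟩
  by_cases hs : P ⊆ T y
  · right
    have hxP : T x = P := ex_self hx
    have := hH.h1 x hx.1 (by rw [hxP]; exact hs)
    rwa [hxP] at this
  · obtain ⟨j, hj, hj'⟩ := Set.not_subset.1 hs
    exact Or.inl ⟨j, hj, hj'⟩

/-- **no apex of order at most three with both free colours** -/
theorem noswap862 (X : XC U T) (M : Md98 T V a b c d e f) (hy : dist y V = 1)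
    (hH : Six.Harm T y A) (hA : A ≠ {e, f}) (hey : e ∈ T y) (hfy : f ∈ T y) (hpV : dist p V = 1)
    (hpy : dist p y = 1) (h3 : (T p).ncard ≤ 3) : ¬ (e ∈ T p ∧ f ∈ T p) := by
  rintro ⟨he, hf⟩
  have hn := M.nd
  simp only [List.nodup_cons, List.mem_cons, List.not_mem_nil, or_false, not_or, List.nodup_nil,
    and_true, not_false_eq_true] at hn
  obtain ⟨⟨ab, ac, ad, ae, af⟩, ⟨bc, bd, be, bf⟩, ⟨cd, ce, cf⟩, ⟨de, df⟩, ef⟩ := hn
  obtain ⟨x, hx⟩ := third_of353 h3 ef he hf
  -- every palette of `S(y)` near `p` has the third colour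
  have key : ∀ P : Set (Fin 6), P ⊆ T p → ((∃ j ∈ P, j ∉ T y) ∨ A ⊆ P) → x ∈ P ∧ x ≠ e ∧ x ≠ f := by
    rintro P hP (⟨j, hj, hjy⟩ | hAP)
    · rcases hx j (hP hj) with h1 | h1 | h1
      · exact absurd (h1 ▸ hey) hjy
      · exact absurd (h1 ▸ hfy) hjy
      · refine ⟨h1 ▸ hj, ?_, ?_⟩
        · rintro rfl
          exact hjy (h1 ▸ hey)
        · rintro rfl
          exact hjy (h1 ▸ hfy)
    · obtain ⟨j, hj, hj'⟩ : ∃ j ∈ A, j ∉ ({e, f} : Set (Fin 6)) := by
        by_contra hcon
        push Not at hcon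
        exact hA (Set.eq_of_subset_of_ncard_le hcon (by rw [hH.cardA, Set.ncard_pair ef])
          (Set.toFinite _))
      simp only [mem_insert_iff, mem_singleton_iff, not_or] at hj'
      rcases hx j (hP (hAP hj)) with h1 | h1 | h1
      · exact absurd h1 hj'.1
      · exact absurd h1 hj'.2
      · exact ⟨h1 ▸ hAP hj, h1 ▸ hj'.1, h1 ▸ hj'.2⟩
  have haV : a ∈ T V := by rw [M.dpt.pal]; simp
  obtain ⟨P, hP, -, hPA⟩ := palV862 X.df.irr hy hH hpV hpy haV
  obtain ⟨-, hxe, hxf⟩ := key P hP hPA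
  have hxV : x ∈ T V := by
    rw [M.dpt.pal]
    rcases M.all X x with h1 | h1 | h1 | h1 | h1 | h1
    · simp [h1]
    · simp [h1]
    · simp [h1]
    · simp [h1]
    · exact absurd h1 hxe
    · exact absurd h1 hxf
  obtain ⟨P', hP', hxP', hPA'⟩ := palV862 X.df.irr hy hH hpV hpy hxV
  exact hxP' (key P' hP' hPA').1

/-- **the plain apexes of a neighbour with the palette `{a, b, e, f}`, `e ∉ A`** -/
theorem apexC862 (X : XC U T) (M : Md98 T V a b c d e f) (hy : dist y V = 1)
    (hH : Six.Harm T y A) (hT : T y = {a, b, e, f}) (heA : e ∉ A) (hpV : dist p V = 1)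
    (hpy : dist p y = 1) (h3 : (T p).ncard ≤ 3) : p ∈ closure (Ex T V {c, d}) := by
  have hn := M.nd
  simp only [List.nodup_cons, List.mem_cons, List.not_mem_nil, or_false, not_or, List.nodup_nil,
    and_true, not_false_eq_true] at hn
  obtain ⟨⟨ab, ac, ad, ae, af⟩, ⟨bc, bd, be, bf⟩, ⟨cd, ce, cf⟩, ⟨de, df⟩, ef⟩ := hn
  have C : Ctr U T V a b c d e f := ctr_of_dpt X.df.irr M.dpt M.nd
  have hAef : A ≠ {e, f} := by
    rintro rfl
    exact heA (by simp)
  have hey : e ∈ T y := by rw [hT]; simp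
  have hfy : f ∈ T y := by rw [hT]; simp
  have hns := noswap862 X M hy hH hAef hey hfy hpV hpy h3
  have hyV : dist V y = 1 := by rw [dist_comm]; exact hy
  have g0 : y ≠ V := by rintro rfl; simp at hy
  have g1 : y + V ≠ 2 * p := by
    intro hcon
    have h1 : dist y V = 2 := by
      have h2 : y - V = 2 * (p - V) := by linear_combination hcon
      rw [dist_eq_norm, h2, norm_mul, ← dist_eq_norm, hpV]
      norm_num
    rw [hy] at h1
    norm_num at h1
  obtain ⟨P1, hP1, he1, hc1⟩ := exists_pal353 C.irr hpV hpy g0 g1 hey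
  obtain ⟨P2, hP2, hf2, hc2⟩ := exists_pal353 C.irr hpV hpy g0 g1 hfy
  -- no `ab`-points near `p`
  have hab : p ∉ closure (Ex T V {a, b}) := by
    intro hcl
    have haV : a ∈ T V := by rw [M.dpt.pal]; simp
    obtain ⟨P, hP, haP, hPA⟩ := palV862 X.df.irr hy hH hpV hpy haV
    have hsub : P ⊆ {b, e} := by
      intro i hi
      have h5 := hP hi
      rcases M.hA p hcl h3 with h6 | h6 <;> rw [h6] at h5 <;>
        simp only [mem_insert_iff, mem_singleton_iff] at h5 ⊢
      · rcases h5 with h5 | h5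
        · exact absurd (h5 ▸ hi) haP
        · exact Or.inl h5
      · rcases h5 with h5 | h5 | h5
        · exact absurd (h5 ▸ hi) haP
        · exact Or.inl h5
        · exact Or.inr h5
    rcases hPA with ⟨j, hj, hjy⟩ | hAP
    · apply hjy
      rw [hT]
      rcases hsub hj with h5 | h5
      · simp [h5]
      · rw [mem_singleton_iff] at h5
        simp [h5]
    · have h5 : A ⊆ {b} := by
        intro i hi
        rcases hsub (hAP hi) with h6 | h6
        · exact h6
        · rw [mem_singleton_iff] at h6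
          exact absurd (h6 ▸ hi) heA
      have h7 := Set.ncard_le_ncard h5 (Set.toFinite _)
      rw [hH.cardA, Set.ncard_singleton] at h7
      omega
  have g3 : f ∈ P1 ∨ P1 = {a, b} ∨ P1 = {c, d} := by
    rcases pal_z353 C hc1 with h | h
    · exact absurd h he1
    · exact h
  have g4 : e ∈ P2 ∨ P2 = {a, b} ∨ P2 = {c, d} := by
    rcases pal_z353 C hc2 with h | h | h
    · exact Or.inl h
    · exact absurd h hf2
    · exact Or.inr h
  rcases g3 with g3 | g3 | g3
  · rcases g4 with g4 | g4 | g4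
    · exact absurd ⟨hP2 g4, hP1 g3⟩ hns
    · rw [g4] at hc2; exact absurd hc2 hab
    · rw [g4] at hc2; exact hc2
  · rw [g3] at hc1; exact absurd hc1 hab
  · rw [g3] at hc1; exact hc1

/-- the end of the case `T y = {x, x', e, f}`, `A ≠ {e, f}` -/
theorem harmE862 (X : XC U T) (M : Md98 T V a b c d e f) (hy : dist y V = 1)
    (hH : Six.Harm T y A) (hA : A ≠ {e, f}) (hey : e ∈ T y) (hfy : f ∈ T y)
    (hE : ∃ p, dist p V = 1 ∧ dist p y = 1 ∧ (T p).ncard ≤ 3 ∧ e ∈ T p ∧ f ∈ T p) : False := by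
  obtain ⟨p, h1, h2, h3, h4, h5⟩ := hE
  exact noswap862 X M hy hH hA hey hfy h1 h2 h3 ⟨h4, h5⟩

/-- the end of the case `T y = {a, b, e, f}`, `e ∉ A` -/
theorem harmT2_862 (X : XC U T) (M : Md98 T V a b c d e f) (hy : dist y V = 1)
    (hH : Six.Harm T y A) (hT : T y = {a, b, e, f}) (heA : e ∉ A)
    (hK : ∃ p, dist p V = 1 ∧ dist p y = 1 ∧ (T p).ncard ≤ 3 ∧ p ∉ closure (Ex T V {c, d})) :
    False := by
  obtain ⟨p, h1, h2, h3, h4⟩ := hK
  exact h4 (apexC862 X M hy hH hT heA h1 h2 h3)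

end Vale.Agent.P032.H862
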