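import Vale.Agent.P032.H862.EEApex
import Vale.Agent.P032.H695.JPar

/-!
# P032: the circle of a neighbour over the exact arcs of a centre (product rule, 428)

`dist y V = 1`, `x ∈ S(V)`, parallel point `w = x + y - V ∈ S(y)`.

`over862` : over an open exact `P`-arc of `S(V)` the circle `S(y)` has no colour of `P`.
`over_pair862` : if `T y` is the complement of `P` and `y` has the pairs `Q | Q'`, then over the closed
`P`-set of `S(V)` the circle `S(y)` is in the closed `Q`- and `Q'`-sets.
`over_end862`, `over_end3_862` : where `x` has a colour of `Q` and `w` only colours of `y`, or both have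
order at most three, `w` is in the closed `Q'`-set.
`over_anti862` : the point of `S(V)` opposite to `y` is in the closed `P`-set only if a pair of `y` is
contained in `T V`.
`over_J862` : an exact `P`-arc of `S(V)` over whose ends `S(y)` is in different closed pair sets has a
point with the palette of `y` over it.  `he_*` : HE neighbours.
-/

open Set Filter Topology Metric

noncomputable section

namespace Vale.Agent.P032.H862

open Vale.Agent.P032.Six Vale.Agent.P032.S5.H767 Vale.Agent.P032.H460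

variable {U : Fin 6 → Set ℂ} {T : ℂ → Set (Fin 6)} {V y x w : ℂ} {P Q Q' : Set (Fin 6)}

/-- a colour of an exact arc through `x` is absent at the other points of `S(x)` -/
theorem over862 (h : Irr U T) (hx : x ∈ Ex T V P) (hw : dist w x = 1) (hne : w ≠ V)
    (hne2 : w + V ≠ 2 * x) {i : Fin 6} (hi : i ∈ P) : i ∉ T w := by
  intro hiw
  refine h.not_eventually hx.1 (by rw [dist_comm]; exact hw) hne hne2 hiw ?_
  filter_upwards [hx.2] with q hq
  rw [hq]; exact hi

theorem dist_par862 (x y V : ℂ) : dist (x + y - V) y = dist x V ∧ dist (x + y - V) x = dist y V := by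
  constructor
  · rw [dist_eq_norm, dist_eq_norm]; congr 1; ring
  · rw [dist_eq_norm, dist_eq_norm]; congr 1; ring

/-- **product rule** over an open exact arc -/
theorem over_par862 (h : Irr U T) (hx : x ∈ Ex T V P) (hy : dist y V = 1) (hne : x ≠ y)
    (hne2 : x + y ≠ 2 * V) {i : Fin 6} (hi : i ∈ P) : i ∉ T (x + y - V) := by
  refine over862 h hx ((dist_par862 x y V).2.trans hy) (fun h1 => hne2 ?_) (fun h1 => hne ?_) hi
  · linear_combination h1
  · linear_combination -h1

/-- over the closed `P`-set of `S(V)` the circle about `y`, `T y = Pᶜ`, is in its closed pair arcs -/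
theorem over_pair862 (h : Irr U T) (K : PV T y Q Q') (hT : T y = Pᶜ) (hy : dist y V = 1)
    (hx : x ∈ closure (Ex T V P)) (hne : x ≠ y) (hne2 : x + y ≠ 2 * V) :
    x + y - V ∈ closure (Ex T y Q) ∨ x + y - V ∈ closure (Ex T y Q') := by
  rw [← mem_union]
  have hcl : IsClosed (closure (Ex T y Q) ∪ closure (Ex T y Q')) :=
    isClosed_closure.union isClosed_closure
  by_contra hcon
  have hc : Continuous fun x : ℂ => x + y - V := by fun_prop
  have h1 : ∀ᶠ x' in 𝓝 x, x' + y - V ∉ closure (Ex T y Q) ∪ closure (Ex T y Q') :=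
    hc.continuousAt.eventually (hcl.isOpen_compl.mem_nhds hcon)
  have h2 : ∀ᶠ x' in 𝓝 x, x' ≠ y := isOpen_ne.mem_nhds hne
  have hc2 : Continuous fun x : ℂ => x + y := by fun_prop
  have h3 : ∀ᶠ x' in 𝓝 x, x' + y ≠ 2 * V := hc2.continuousAt.eventually (isOpen_ne.mem_nhds hne2)
  obtain ⟨x', hx', k1, k2, k3⟩ := ((mem_closure_iff_frequently.1 hx).and_eventually
    (h1.and (h2.and h3))).exists
  refine k1 (K.near _ ((dist_par862 x' y V).1.trans hx'.1) ?_)
  intro i hi
  rw [hT]
  exact fun hiP => over_par862 h hx' hy k2 k3 hiP hi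

/-- **ends** : `x` in the closed `P`-set with a colour of `Q`, and only colours of `y` at the parallel
point: it is in the closed `Q'`-set -/
theorem over_end862 (h : Irr U T) (K : PV T y Q Q') (hy : dist y V = 1)
    (hx : x ∈ closure (Ex T V P)) (hne : x ≠ y) (hne2 : x + y ≠ 2 * V) {e : Fin 6}
    (he : e ∈ T x) (heQ : e ∈ Q) (hw : T (x + y - V) ⊆ T y) :
    x + y - V ∈ closure (Ex T y Q') := by
  by_contra hcon
  have hxV : dist x V = 1 := dist_of_closure hx
  refine h.not_eventually (u := y) (v := x) (p := x + y - V)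
    ((dist_par862 x y V).1.trans hxV) ((dist_par862 x y V).2.trans hy)
    hne (fun h1 => hne2 ?_) he ?_
  · linear_combination -h1
  · filter_upwards [PV.near_nhds hcon, self_mem_nhdsWithin,
      mem_nhdsWithin_of_mem_nhds (h.nhd (x + y - V))] with q k1 k2 k3
    rcases K.near q k2 (k3.trans hw) with k4 | k4
    · exact sub_of_closure h k4 heQ
    · exact absurd k4 k1

/-- **ends, order at most three** : `x` in the closed `P`-set with a colour of `Q`, `x` and the
parallel point of order at most three: the parallel point is in the closed `Q'`-set -/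
theorem over_end3_862 (h : Irr U T) (K : PV T y Q Q') (hT : T y = Pᶜ) (hy : dist y V = 1)
    (hx : x ∈ closure (Ex T V P)) (hne : x ≠ y) (hne2 : x + y ≠ 2 * V) (h3 : (T x).ncard ≤ 3)
    {e : Fin 6} (he : e ∈ T x) (heQ : e ∈ Q) (hw3 : (T (x + y - V)).ncard ≤ 3) :
    x + y - V ∈ closure (Ex T y Q') := by
  by_contra hcon
  have hxV : dist x V = 1 := dist_of_closure hx
  have hA : x + y - V ∈ closure (Ex T y Q) :=
    (over_pair862 h K hT hy hx hne hne2).resolve_right hcon
  have hPx : P ⊆ T x := sub_of_closure h hx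
  have hwy : dist (x + y - V) y = 1 := (dist_par862 x y V).1.trans hxV
  have hwx : dist (x + y - V) x = 1 := (dist_par862 x y V).2.trans hy
  have h1 : 2 ≤ (T (x + y - V) ∩ (T x)ᶜ).ncard := by
    refine H227.two_of_full h hwx hwy (Ne.symm hne) (fun h2 => hne2 (by linear_combination -h2))
      (s := (T x)ᶜ) (s' := T x) (fun i hi => ?_) (fun i => (em (i ∈ T x)).symm) ?_
    · rw [hT]; exact fun hiP => hi (hPx hiP)
    · filter_upwards [self_mem_nhdsWithin] with q hq hsub
      exact (h.fc_three h3).full q hq hsub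
  have heW : e ∈ T (x + y - V) := sub_of_closure h hA heQ
  have hsub : T (x + y - V) ⊆ T y := by
    intro i hi
    by_contra hiy
    have hiP : i ∈ P := by
      by_contra hiP
      exact hiy (by rw [hT]; exact hiP)
    have hie : i ≠ e := by
      rintro rfl
      exact hiy (K.sub heQ)
    have h2 : insert i (insert e (T (x + y - V) ∩ (T x)ᶜ)) ⊆ T (x + y - V) := by
      refine insert_subset hi (insert_subset heW inter_subset_left)
    have h4 := Set.ncard_le_ncard h2 (Set.toFinite _)
    rw [Set.ncard_insert_of_notMem, Set.ncard_insert_of_notMem] at h4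
    · omega
    · exact fun h5 => h5.2 he
    · rintro (h5 | h5)
      · exact hie h5
      · exact h5.2 (hPx hiP)
  exact hcon (over_end862 h K hy hx hne hne2 he heQ hsub)

/-- an exact arc has points near `x`, different from `x` -/
theorem ex_ne862 (hx : x ∈ Ex T V P) {N : Set ℂ} (hN : N ∈ 𝓝 x) :
    ∃ x' ∈ Ex T V P, x' ∈ N ∧ x' ≠ x := by
  obtain ⟨θ, hθ⟩ := exists_cis (u := x - V) (by rw [← dist_eq_norm]; exact hx.1)
  have hxθ : V + cis θ = x := by rw [← hθ]; ring
  have hc : Continuous fun s : ℝ => V + cis (θ + s) :=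
    continuous_const.add (continuous_cis.comp (continuous_const.add continuous_id))
  have h1 : Tendsto (fun s : ℝ => V + cis (θ + s)) (𝓝 0) (𝓝[sphere V 1] x) := by
    rw [tendsto_nhdsWithin_iff]
    refine ⟨?_, Eventually.of_forall fun s => dist_add_cis V _⟩
    have h2 := hc.tendsto 0
    rwa [add_zero, hxθ] at h2
  have h2 : ∀ᶠ s in 𝓝 (0 : ℝ), V + cis (θ + s) ∈ Ex T V P ∧ V + cis (θ + s) ∈ N :=
    h1.eventually ((ex_open hx).and (mem_nhdsWithin_of_mem_nhds hN))
  have h3 : ∀ᶠ s in 𝓝 (0 : ℝ), |s| < 1 := by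
    have : Continuous fun s : ℝ => |s| := continuous_abs
    exact this.continuousAt.eventually_lt continuousAt_const (by simp)
  have h4 : ∀ᶠ s in 𝓝[≠] (0 : ℝ), (V + cis (θ + s) ∈ Ex T V P ∧ V + cis (θ + s) ∈ N) ∧ |s| < 1 :=
    (h2.and h3).filter_mono nhdsWithin_le_nhds
  obtain ⟨s, ⟨⟨k1, k2⟩, k3⟩, k4⟩ := (h4.and self_mem_nhdsWithin).exists
  refine ⟨_, k1, k2, fun h5 => ?_⟩
  rw [← hxθ] at h5
  obtain ⟨n, hn⟩ := H695.cis_eq (add_left_cancel h5)
  have hpi := Real.pi_gt_three
  have h6 : s = n * (2 * Real.pi) := by linarith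
  rcases lt_trichotomy n 0 with hn0 | hn0 | hn0
  · have h7 : (n : ℝ) ≤ -1 := by exact_mod_cast Int.le_sub_one_of_lt hn0
    have h8 := abs_lt.1 k3
    nlinarith
  · rw [hn0, Int.cast_zero, zero_mul] at h6
    exact k4 h6
  · have h7 : (1 : ℝ) ≤ n := by exact_mod_cast hn0
    have h8 := abs_lt.1 k3
    nlinarith

/-- the point opposite to `y` is over `V` -/
theorem over_anti862 (h : Irr U T) (K : PV T y Q Q') (hT : T y = Pᶜ) (hy : dist y V = 1)
    (hx : x ∈ closure (Ex T V P)) (hne2 : x + y = 2 * V) : Q ⊆ T V ∨ Q' ⊆ T V := by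
  have hxV : dist x V = 1 := dist_of_closure hx
  have hxy : x ≠ y := by
    rintro rfl
    have h1 : x = V := by
      have h2 : (2 : ℂ) * x = 2 * V := by linear_combination hne2
      exact mul_left_cancel₀ two_ne_zero h2
    rw [h1, dist_self] at hxV
    exact zero_ne_one hxV
  have hc : Continuous fun x : ℂ => x + y - V := by fun_prop
  have h1 : ∀ᶠ x' in 𝓝 x, T (x' + y - V) ⊆ T V := by
    have h2 : Tendsto (fun x' : ℂ => x' + y - V) (𝓝 x) (𝓝 V) := by
      have h3 := hc.tendsto x
      have h4 : x + y - V = V := by linear_combination hne2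
      rwa [h4] at h3
    exact h2.eventually (h.nhd V)
  have h2 : ∀ᶠ x' in 𝓝 x, x' ≠ y := isOpen_ne.mem_nhds hxy
  obtain ⟨x₁, hx₁, k0⟩ := ((mem_closure_iff_frequently.1 hx).and_eventually
      (eventually_eventually_nhds.2 (h1.and h2))).exists
  have h3 : ∃ x', x' ∈ Ex T V P ∧ x' ≠ x ∧ T (x' + y - V) ⊆ T V ∧ x' ≠ y := by
    by_cases hx1 : x₁ = x
    · subst hx1
      obtain ⟨x', hx', hN, hne⟩ := ex_ne862 hx₁ k0
      exact ⟨x', hx', hne, hN.1, hN.2⟩
    · exact ⟨x₁, hx₁, hx1, k0.self_of_nhds.1, k0.self_of_nhds.2⟩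
  obtain ⟨x', hx', k1, k2, k3⟩ := h3
  have hne2' : x' + y ≠ 2 * V := fun h4 => k1 (by linear_combination h4 - hne2)
  rcases over_pair862 h K hT hy (subset_closure hx') k3 hne2' with k4 | k4
  · exact Or.inl ((sub_of_closure h k4).trans k2)
  · exact Or.inr ((sub_of_closure h k4).trans k2)

/-- **an exact `P`-arc of `S(V)` over whose ends `S(y)` is in different closed pair sets of `y` has a
point of palette `T y` over it** -/
theorem over_J862 (h : Irr U T) (K : PV T y Q Q') (hT : T y = Pᶜ) (hy : dist y V = 1)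
    {s t : ℝ} (hst : s < t) (harc : ∀ r ∈ Ioo s t, V + cis r ∈ Ex T V P) (hP : P.Nonempty)
    (hanti : ∀ r ∈ Icc s t, V + cis r + y ≠ 2 * V)
    (hs : V + cis s + y - V ∈ closure (Ex T y Q')) (ht : V + cis t + y - V ∈ closure (Ex T y Q)) :
    ∃ r ∈ Icc s t, T y ⊆ T (V + cis r + y - V) := by
  have hcl : ∀ r ∈ Icc s t, V + cis r ∈ closure (Ex T V P) := by
    intro r hr
    have h1 : r ∈ closure (Ioo s t) := by rw [closure_Ioo hst.ne]; exact hr
    have h2 : Continuous fun r : ℝ => V + cis r := continuous_const.add continuous_cis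
    exact map_mem_closure (f := fun r : ℝ => V + cis r) h2 h1 harc
  have hne : ∀ r ∈ Icc s t, V + cis r ≠ y := by
    intro r hr h1
    obtain ⟨i, hi⟩ := hP
    have h2 := sub_of_closure h (hcl r hr) hi
    rw [h1, hT] at h2
    exact h2 hi
  have h1 : IsPreconnected (Icc s t) := isPreconnected_Icc
  have hcw : Continuous fun r : ℝ => V + cis r + y - V := by
    have := continuous_cis
    fun_prop
  have hA : IsClosed {r : ℝ | V + cis r + y - V ∈ closure (Ex T y Q)} :=
    isClosed_closure.preimage hcw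
  have hB : IsClosed {r : ℝ | V + cis r + y - V ∈ closure (Ex T y Q')} :=
    isClosed_closure.preimage hcw
  obtain ⟨r, hr, hr1, hr2⟩ := isPreconnected_closed_iff.1 h1 _ _ hA hB
    (fun r hr => over_pair862 h K hT hy (hcl r hr) (hne r hr) (hanti r hr))
    ⟨t, ⟨hst.le, le_rfl⟩, ht⟩ ⟨s, ⟨le_rfl, hst.le⟩, hs⟩
  refine ⟨r, hr, ?_⟩
  rw [K.pal]
  exact union_subset (sub_of_closure h hr1) (sub_of_closure h hr2)

/-- names at a neighbour with the palette `{a, b, e, f}` -/
theorem he_pal862 {a b m n e f : Fin 6} (hV : DPt T V a b m n) (hy : T y = {a, e, b, f})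
    (he : e ∉ T V) (hf : f ∉ T V) (hef : e ≠ f) : T y = ({m, n} : Set (Fin 6))ᶜ := by
  have ha : a ∈ T V := by rw [hV.pal]; simp
  have hb : b ∈ T V := by rw [hV.pal]; simp
  have hm : m ∈ T V := by rw [hV.pal]; simp
  have hn : n ∈ T V := by rw [hV.pal]; simp
  have hne_e : ∀ x ∈ T V, x ≠ e := fun x hx h1 => he (h1 ▸ hx)
  have hne_f : ∀ x ∈ T V, x ≠ f := fun x hx h1 => hf (h1 ▸ hx)
  have hnd : [a, b, m, n, e, f].Nodup := by
    simp only [List.nodup_cons, List.mem_cons, List.not_mem_nil, or_false, not_or,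
      List.nodup_nil, and_true, not_false_eq_true]
    exact ⟨⟨hV.ab, hV.ac, hV.ad, hne_e a ha, hne_f a ha⟩,
      ⟨hV.bc, hV.bd, hne_e b hb, hne_f b hb⟩, ⟨hV.cd, hne_e m hm, hne_f m hm⟩,
      ⟨hne_e n hn, hne_f n hn⟩, hef⟩
  have hall : ∀ x : Fin 6, x = a ∨ x = b ∨ x = m ∨ x = n ∨ x = e ∨ x = f := by
    intro x
    have h1 : ({a, b, m, n, e, f} : Finset (Fin 6)) = Finset.univ := by
      apply Finset.eq_univ_of_card
      have := List.toFinset_card_of_nodup hnd
      simpa using this
    have h2 : x ∈ ({a, b, m, n, e, f} : Finset (Fin 6)) := by rw [h1]; simp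
    simpa only [Finset.mem_insert, Finset.mem_singleton] using h2
  ext x
  rw [hy]
  simp only [mem_insert_iff, mem_singleton_iff, mem_compl_iff, not_or]
  constructor
  · rintro (rfl | rfl | rfl | rfl)
    · exact ⟨hV.ac, hV.ad⟩
    · exact ⟨Ne.symm (hne_e m hm), Ne.symm (hne_e n hn)⟩
    · exact ⟨hV.bc, hV.bd⟩
    · exact ⟨Ne.symm (hne_f m hm), Ne.symm (hne_f n hn)⟩
  · rintro ⟨h1, h2⟩
    rcases hall x with h4 | h4 | h4 | h4 | h4 | h4 <;> tauto

/-- **HE neighbour** `y = (ae | bf)` of `V = (ab | mn)` : the opposite point is not in the closed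
`mn`-set -/
theorem he_anti862 (h : Irr U T) {a b m n e f : Fin 6} (hV : DPt T V a b m n)
    (hy : DPt T y a e b f) (he : e ∉ T V) (hf : f ∉ T V) (hyV : dist y V = 1)
    (hx : x ∈ closure (Ex T V {m, n})) : x + y ≠ 2 * V := by
  intro h1
  have hT := he_pal862 hV hy.pal he hf hy.bd
  rcases over_anti862 h (pv_of_dpt h hy) hT hyV hx h1 with h2 | h2
  · exact he (h2 (by simp))
  · exact hf (h2 (by simp))

/-- **HE neighbour** : over the closed `mn`-set of `V` the circle about `y` is in its closed pair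
arcs -/
theorem he_over862 (h : Irr U T) {a b m n e f : Fin 6} (hV : DPt T V a b m n)
    (hy : DPt T y a e b f) (he : e ∉ T V) (hf : f ∉ T V) (hyV : dist y V = 1)
    (hx : x ∈ closure (Ex T V {m, n})) :
    x + y - V ∈ closure (Ex T y {a, e}) ∨ x + y - V ∈ closure (Ex T y {b, f}) := by
  have hT := he_pal862 hV hy.pal he hf hy.bd
  refine over_pair862 h (pv_of_dpt h hy) hT hyV hx (fun h1 => ?_)
    (he_anti862 h hV hy he hf hyV hx)
  have h2 : m ∈ T y := h1 ▸ sub_of_closure h hx (by simp)
  rw [hT] at h2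
  exact h2 (by simp)

/-- **HE neighbour, plain end** : at a point of the closed `mn`-set with the letter `e` the parallel
point is in the closed `bf`-set -/
theorem he_end862 (h : Irr U T) {a b m n e f : Fin 6} (hV : DPt T V a b m n)
    (hy : DPt T y a e b f) (he : e ∉ T V) (hf : f ∉ T V) (hyV : dist y V = 1)
    (hx : x ∈ closure (Ex T V {m, n})) (h3 : (T x).ncard ≤ 3) (hex : e ∈ T x)
    (hw3 : (T (x + y - V)).ncard ≤ 3) : x + y - V ∈ closure (Ex T y {b, f}) := by
  have hT := he_pal862 hV hy.pal he hf hy.bd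
  refine over_end3_862 h (pv_of_dpt h hy) hT hyV hx (fun h1 => ?_)
    (he_anti862 h hV hy he hf hyV hx) h3 hex (by simp) hw3
  have h2 : m ∈ T y := h1 ▸ sub_of_closure h hx (by simp)
  rw [hT] at h2
  exact h2 (by simp)

/-- the same with the letter `f` -/
theorem he_end862' (h : Irr U T) {a b m n e f : Fin 6} (hV : DPt T V a b m n)
    (hy : DPt T y a e b f) (he : e ∉ T V) (hf : f ∉ T V) (hyV : dist y V = 1)
    (hx : x ∈ closure (Ex T V {m, n})) (h3 : (T x).ncard ≤ 3) (hfx : f ∈ T x)
    (hw3 : (T (x + y - V)).ncard ≤ 3) : x + y - V ∈ closure (Ex T y {a, e}) := by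
  have hT := he_pal862 hV hy.pal he hf hy.bd
  refine over_end3_862 h (pv_of_dpt h hy).swap hT hyV hx (fun h1 => ?_)
    (he_anti862 h hV hy he hf hyV hx) h3 hfx (by simp) hw3
  have h2 : m ∈ T y := h1 ▸ sub_of_closure h hx (by simp)
  rw [hT] at h2
  exact h2 (by simp)

/-- **HE neighbour** : over an exact `mn`-arc of `V` whose ends have the letters `e` and `f` there is a
point of the palette of `y` on the circle about `y` -/
theorem he_J862 (h : Irr U T) {a b m n e f : Fin 6} (hV : DPt T V a b m n)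
    (hy : DPt T y a e b f) (he : e ∉ T V) (hf : f ∉ T V) (hyV : dist y V = 1)
    {s t : ℝ} (hst : s < t) (harc : ∀ r ∈ Ioo s t, V + cis r ∈ Ex T V {m, n})
    (hs3 : (T (V + cis s)).ncard ≤ 3) (ht3 : (T (V + cis t)).ncard ≤ 3)
    (hes : e ∈ T (V + cis s)) (hft : f ∈ T (V + cis t))
    (hs : (T (V + cis s + y - V)).ncard ≤ 3) (ht : (T (V + cis t + y - V)).ncard ≤ 3) :
    ∃ r ∈ Icc s t, T y ⊆ T (V + cis r + y - V) := by
  have hT := he_pal862 hV hy.pal he hf hy.bd
  have hcl : ∀ r ∈ Icc s t, V + cis r ∈ closure (Ex T V {m, n}) := by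
    intro r hr
    have h1 : r ∈ closure (Ioo s t) := by rw [closure_Ioo hst.ne]; exact hr
    have h2 : Continuous fun r : ℝ => V + cis r := continuous_const.add continuous_cis
    exact map_mem_closure (f := fun r : ℝ => V + cis r) h2 h1 harc
  exact over_J862 h (pv_of_dpt h hy) hT hyV hst harc ⟨m, by simp⟩
    (fun r hr => he_anti862 h hV hy he hf hyV (hcl r hr))
    (he_end862 h hV hy he hf hyV (hcl s ⟨le_rfl, hst.le⟩) hs3 hes hs)
    (he_end862' h hV hy he hf hyV (hcl t ⟨hst.le, le_rfl⟩) ht3 hft ht)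

/-- over an exact pair arc of the neighbour `y` the circle about `V` has no colour of this pair -/
theorem over_back862 (h : Irr U T) (hx : x ∈ Ex T y Q) (hy : dist y V = 1) (hne : x ≠ V)
    (hne2 : x + V ≠ 2 * y) {i : Fin 6} (hi : i ∈ Q) : i ∉ T (x + V - y) :=
  over_par862 h hx (by rw [dist_comm]; exact hy) hne hne2 hi

end Vale.Agent.P032.H862
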