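import Vale.Agent.P032.H538.T1

/-!
# P032: chains with T1 points and EE points, the form of the EE clause of 98

`Away862` : the points of `S(q)` with the colours `e`, `f` are farther than one from `z` and its ends.
`JCh.good862`, `JCh.false862a` : 538's `JCh.good538`, `JCh.false538` with this clause (same proofs).
-/

open Set Filter Topology Metric

noncomputable section

namespace Vale.Agent.P032.Six

variable {k : ℕ} {U : Fin k → Set ℂ} {T : ℂ → Set (Fin k)}

/-- the points of `S(q)` with the colours `e`, `f` are farther than one from `z` and from the points of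
`S(z)` with the palette of `z` -/
def Away862 (T : ℂ → Set (Fin k)) (z q : ℂ) (e f : Fin k) : Prop :=
  ∀ u, dist u q = 1 → e ∈ T u → f ∈ T u → 1 < dist u z ∧
    ∀ w, dist w z = 1 → T w = T z → 1 < dist u w

namespace JCh

variable {V : ℕ → ℂ} {ρ : ℕ → ℝ} {S : Set (Fin k)} {C : ℕ → Set (Fin k)}

/-- **the point of the parity lemma, with T1 points and EE points on the circles** -/
theorem good862 (h : Irr U T)
    (hmin : ∀ z, 4 ≤ (T z).ncard → ∀ s, s ⊆ T z → s ≠ T z →
      ¬ ∀ᶠ w in 𝓝 z, ∃ i ∈ s, w ∈ U i ∨ (w ∈ XX U ∧ i ∈ Pal U w))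
    (J : JCh T V ρ S C)
    (hF : ∀ z, (∃ a b c d, DPt T z a b c d) → Full T z)
    {e f : Fin k} (hT1 : ∀ i q, dist q (V (i + 1)) = 1 → 4 ≤ (T q).ncard → T q = S ∨
      (T q = Sᶜ ∪ (S \ C (i + 1)) ∧ ¬ ∃ a b c d, DPt T q a b c d) ∨ Away862 T (V (i + 1)) q e f)
    (hef : e ≠ f) (hSe : e ∉ S) (hSf : f ∉ S) (hcov : ∀ i, i = e ∨ i = f ∨ i ∈ S)
    {i : ℕ} {u : ℂ} {x : Fin k} (h4 : (T u).ncard ≤ 4) (hu : dist u (V (i + 2)) ≤ 1)
    (hu3 : dist u (V (i + 2)) = 1 → (T u).ncard ≤ 3)
    (he : e ∈ T u) (hf : f ∈ T u) (hxe : x ≠ e) (hxf : x ≠ f) (hin : InnO T (V (i + 2)) u x)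
    (hno : ∀ g, dist g u = 1 → ¬ T g ⊆ {e, f}) :
    ∃ y, y ∈ T u ∧ y ∈ C (i + 1) ∧ y ∈ C (i + 2) ∧ y ∈ C (i + 3) ∧
      (0 < (ρ (i + 1) - ρ i) * (ρ (i + 2) - ρ (i + 1)) → dist u (V (i + 2)) < 1) := by
  have hxu : x ∈ T u := hin.mem h
  have hD : ∀ j, ∃ a b c d, DPt T (V j) a b c d := by
    intro j
    obtain ⟨a, b, c, d, -, h1⟩ := J.dpt j
    exact ⟨a, b, c, d, h1⟩
  obtain ⟨y, hyu, hye, hyf, hy3, hycl⟩ := h.l2_538 hmin he hf hxu hef hxe hxf h4 fun hD => hF u hD
  have hyS : y ∈ S := by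
    rcases hcov y with h1 | h1 | h1
    · exact absurd h1 hye
    · exact absurd h1 hyf
    · exact h1
  have hI : InnO T (V (i + 2)) u y := by
    rcases hu.lt_or_eq with h1 | h1
    · exact subset_closure ⟨h1, hyu⟩
    · rw [hy3 (hu3 h1)]
      exact hin
  have hS4 : ∀ {q : ℂ}, (∃ a b c d, DPt T q a b c d) → (T q).ncard = 4 := by
    rintro q ⟨a, b, c, d, hq⟩
    rw [hq.pal, Set.ncard_insert_of_notMem (by simp [hq.ab, hq.ac, hq.ad]) (Set.toFinite _),
      Set.ncard_insert_of_notMem (by simp [hq.bc, hq.bd]) (Set.toFinite _), Set.ncard_pair hq.cd]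
  obtain ⟨c1, c2, c3, c4, -⟩ := J.common' h hSe he hu hyS hyu hI (by
    intro j hj hyC p hpu hpV hp1 hp2
    by_contra hcon
    have hmid : u + V (j + 1) ≠ 2 * p := by
      intro h1
      rcases hj with rfl | rfl | rfl
      · refine hp2 (mid169 hu ?_ hpV h1).symm
        rw [dist_comm]; exact J.rods.unit (j + 1)
      · have h2 : u - V (i + 1 + 1) = 2 * (p - V (i + 1 + 1)) := by linear_combination h1
        have h3 : dist u (V (i + 1 + 1)) = 2 := by
          rw [dist_eq_norm, h2, norm_mul, ← dist_eq_norm, hpV, mul_one]; norm_num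
        have h4 : dist u (V (i + 1 + 1)) ≤ 1 := hu
        linarith
      · refine hp1 (mid169 hu ?_ hpV h1).symm
        exact J.rods.unit (i + 2)
    have hnoA : ∀ g, ¬ Six.Arc T u g {e, f} := fun g hg => hno g hg.1 (by rw [hg.mem])
    by_cases hp3 : (T p).ncard ≤ 3
    · obtain ⟨k1, k2⟩ := h.l1_169 (z := V (j + 1)) (by rw [J.pal]; exact hcov) he hf hef hyu
        (by rw [J.pal]; exact hyS) (by rw [J.pal]; exact hSe) (by rw [J.pal]; exact hSf) hp3 hpu hpV
        hmid hnoA hcon
      obtain ⟨k3, k4⟩ := hycl p k1.ge fun hDu hTpu => by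
        have := hS4 hDu
        rw [← hTpu] at this
        omega
      rcases k2 with k2 | k2
      · exact k3 k2
      · exact k4 k2
    · rcases hT1 j p hpV (by omega) with h1 | ⟨h1, h2⟩ | h1
      · rcases J.pal_end538 (hF _ (hD (j + 1))) hpV h1 with h3 | h3
        · exact hp1 h3
        · exact hp2 h3
      · -- a T1 point
        obtain ⟨a, b, c, d, hC, hV⟩ := J.dpt (j + 1)
        have hSV : S = {a, b, c, d} := by rw [← J.pal (j + 1), hV.pal]
        have hy2 : y = c ∨ y = d := by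
          have h3 := hyS
          rw [hSV] at h3
          rw [hC] at hyC
          rcases h3 with h3 | h3 | h3 | h3
          · exact absurd (by rw [h3]; simp) hyC
          · exact absurd (by rw [h3]; simp) hyC
          · exact Or.inl h3
          · exact Or.inr h3
        have hsub : T p ⊆ {e, f, c, d} := by
          intro l hl
          rw [h1] at hl
          rcases hl with hl | ⟨hl, hl'⟩
          · rcases hcov l with h3 | h3 | h3
            · exact Or.inl h3
            · exact Or.inr (Or.inl h3)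
            · exact absurd h3 hl
          · rw [hSV] at hl
            rw [hC] at hl'
            rcases hl with h3 | h3 | h3 | h3
            · exact absurd (by rw [h3]; simp) hl'
            · exact absurd (by rw [h3]; simp) hl'
            · exact Or.inr (Or.inr (Or.inl h3))
            · exact Or.inr (Or.inr (Or.inr h3))
        have hcV : c ∈ T (V (j + 1)) := by rw [hV.pal]; simp
        have hdV : d ∈ T (V (j + 1)) := by rw [hV.pal]; simp
        have heV : e ∉ T (V (j + 1)) := by rw [J.pal]; exact hSe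
        have hp4 : 3 ≤ (T p).ncard := by omega
        obtain ⟨k3, k4⟩ := hycl p hp4 fun hDu hTpu => h2 (h.dpt_of_eq169 hDu hpu hTpu)
        have hfin : p ∈ closure {g | Six.Arc T u g {e, y}} ∨ p ∈ closure {g | Six.Arc T u g {f, y}} := by
          rcases hy2 with h3 | h3
          · exact h.l1_four538 (n := d) he hf hyu hdV heV (by rw [h3]; exact hsub) h4 hpu hpV hmid hnoA
          · refine h.l1_four538 (n := c) he hf hyu hcV heV ?_ h4 hpu hpV hmid hnoA
            rw [h3]
            refine hsub.trans ?_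
            intro l hl
            simp only [mem_insert_iff, mem_singleton_iff] at hl ⊢
            tauto
        rcases hfin with k2 | k2
        · exact k3 k2
        · exact k4 k2
      · obtain ⟨k1, k2⟩ := h1 u (by rw [dist_comm]; exact hpu) he hf
        rcases hj with rfl | rfl | rfl
        · have h3 := k2 (V (j + 2)) (by rw [dist_comm]; exact J.rods.unit (j + 1))
            (by rw [J.pal, J.pal])
          linarith
        · have h3 : 1 < dist u (V (i + 2)) := k1
          linarith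
        · have h3 := k2 (V (i + 2)) (J.rods.unit (i + 2)) (by rw [J.pal, J.pal])
          linarith)
  exact ⟨y, hyu, c1, c2, c3, c4⟩

/-- **no J-chains**, from the conclusions of the parity lemma -/
theorem false862a (J : JCh T V ρ S C) (h : Irr U T)
    (hmin : ∀ z, 4 ≤ (T z).ncard → ∀ s, s ⊆ T z → s ≠ T z →
      ¬ ∀ᶠ w in 𝓝 z, ∃ i ∈ s, w ∈ U i ∨ (w ∈ XX U ∧ i ∈ Pal U w))
    (h4 : ∀ z, (T z).ncard ≤ 4)
    (hF : ∀ z, (∃ a b c d, DPt T z a b c d) → Full T z)
    {e f : Fin k} (hT1 : ∀ i q, dist q (V (i + 1)) = 1 → 4 ≤ (T q).ncard → T q = S ∨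
      (T q = Sᶜ ∪ (S \ C (i + 1)) ∧ ¬ ∃ a b c d, DPt T q a b c d) ∨ Away862 T (V (i + 1)) q e f)
    (hef : e ≠ f) (hSe : e ∉ S) (hSf : f ∉ S) (hcov : ∀ i, i = e ∨ i = f ∨ i ∈ S)
    (hE : ∀ R : ℝ, (range V ∩ closedBall 0 R).Finite)
    (hPC : ∀ i, PC538 T (V (i + 2)) e f) (hPF : PF538 T (V 2) e f) : False := by
  obtain ⟨I, O, hIO⟩ := J.sides h
  have hS : JSd U V ρ C I O := ⟨fun i => (hIO i).1, fun i => (hIO i).2.1, fun i => (hIO i).2.2⟩
  have hty : ∀ i, (0 < (ρ (i + 1) - ρ i) * (ρ (i + 2) - ρ (i + 1)) ↔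
      0 < (ρ (i + 2) - ρ (i + 1)) * (ρ (i + 3) - ρ (i + 2))) := by
    intro i
    obtain ⟨u, x, hu, hu3, he, hf, hxe, hxf, hin, hno⟩ := hPC i
    obtain ⟨y, -, c1, c2, c3, -⟩ :=
      J.good862 h hmin hF hT1 hef hSe hSf hcov (h4 u) hu hu3 he hf hxe hxf hin hno
    exact J.same_type169 h hS c1 c2 c3
  by_cases h0 : 0 < (ρ (0 + 1) - ρ 0) * (ρ (0 + 2) - ρ (0 + 1))
  · -- constant orientation
    have hst : ∀ i, 0 < (ρ (i + 1) - ρ i) * (ρ (i + 2) - ρ (i + 1)) := by
      intro i
      induction i with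
      | zero => exact h0
      | succ i ih => exact (hty i).1 ih
    have hI : ∀ i, I i = I 0 := by
      intro i
      induction i with
      | zero => rfl
      | succ i ih => exact (J.junction_stay h hS (hst i)).1.trans ih
    have hIC : ∀ i, I 0 ∈ C (i + 1) := by
      intro i
      rw [hS.pair i, ← hI i]; simp
    have hfin := J.finite h hIC hE
    have hW : (evV V).Finite := hfin.subset (by rintro w ⟨j, -, rfl⟩; exact ⟨j, rfl⟩)
    have haS : I 0 ∈ S := J.C_sub 1 (hIC 0)
    obtain ⟨u, x, hu, hu3, he, hf, hxe, hxf, hin, ⟨w, ⟨j, hj, rfl⟩, hw⟩, hno⟩ :=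
      hPF (I 0) (evV V) (odΓ V ρ) hW ⟨2, by decide, rfl⟩
        (fun z hz hz1 => J.stay_bd h hst hIC hfin hz hz1)
        (fun y hy => ⟨J.odΓ_mem h hIC hy, fun h1 => hSe (J.odΓ_sub hy h1)⟩)
        (fun h1 => hSe (h1 ▸ haS)) (fun h1 => hSf (h1 ▸ haS))
    obtain ⟨y, hyT, c1, c2, c3, c4⟩ := J.good862 h hmin hF hT1 hef hSe hSf hcov (i := 0) (h4 u)
      hu hu3 he hf hxe hxf hin hno
    rw [hS.pair 0] at c1
    rw [hS.pair 1] at c2
    have hne := (J.junction_stay h hS (hst 0)).2
    have hx : y = I 0 := by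
      rcases c1 with h4 | h4
      · exact h4
      · rw [mem_singleton_iff] at h4
        rcases c2 with h5 | h5
        · exact h5.trans (hI 1)
        · rw [mem_singleton_iff] at h5
          exact absurd (h5.symm.trans h4) hne
    subst hx
    have h5 := h.curve_in169 J.preconn_evΓ (fun w hw => J.evΓ_mem h hIC hw) hyT
      (J.ev_mem_Γ (j := 2) (by decide)) (by rw [dist_comm]; exact c4 (hst 0)) (J.ev_mem_Γ hj)
    rw [dist_comm] at h5
    linarith
  · -- alternating orientation
    have h0' : (ρ (0 + 1) - ρ 0) * (ρ (0 + 2) - ρ (0 + 1)) < 0 :=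
      lt_of_le_of_ne (not_lt.1 h0) (J.ori_ne 0)
    have hsw : ∀ i, (ρ (i + 1) - ρ i) * (ρ (i + 2) - ρ (i + 1)) < 0 := by
      intro i
      induction i with
      | zero => exact h0'
      | succ i ih =>
        refine lt_of_le_of_ne (not_lt.1 fun h1 => ?_) (J.ori_ne (i + 1))
        exact absurd ((hty i).2 h1) (not_lt.2 ih.le)
    have hO' : ∀ i, O i = O 0 := by
      intro i
      induction i with
      | zero => rfl
      | succ i ih => exact (J.junction_switch h hS (hsw i)).1.trans ih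
    exact JCh.switch h J (x := O 0) (fun i => by rw [hS.pair i, ← hO' i]; simp) hE hsw

end JCh

end Vale.Agent.P032.Six
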