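import Vale.Agent.P032.H460.ContVV
import Vale.Agent.P032.H98.EE
import Vale.Agent.P032.H538.State1

/-!
# P032: the two apexes of an EE pair

`V`, `y` two-pair points with the pairs `ab | cd` and `ae | cf` (`{e, f}` free at `V`, `{b, d}` free at
`y`), `dist V y = 1`, `p` a common point of the two circles with at most three colours.

`ee_apex862` : `T p = {a, b, e}` or `T p = {c, d, f}`, and `p` is the end of an exact arc of a pair on
both circles.  `ee_apex_same862` : with `NoComp T` the two apexes have the same palette.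
-/

open Set Filter Topology Metric

noncomputable section

namespace Vale.Agent.P032.H862

open Vale.Agent.P032.Six Vale.Agent.P032.S5.H767 Vale.Agent.P032.H460

variable {U : Fin 6 → Set ℂ} {T : ℂ → Set (Fin 6)} {V y p p' : ℂ} {a b c d e f : Fin 6}

/-- **the apex of an EE pair** : plain end of a pair for both circles -/
theorem ee_apex862 (h : Irr U T) (hV : DPt T V a b c d) (hy : DPt T y a e c f) (he : e ∉ T V)
    (hf : f ∉ T V) (hVy : dist V y = 1) (hpV : dist p V = 1) (hpy : dist p y = 1)
    (h3 : (T p).ncard ≤ 3) :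
    (T p = {a, b, e} ∧ p ∈ closure (Ex T V {a, b}) ∧ p ∈ closure (Ex T y {a, e})) ∨
    (T p = {c, d, f} ∧ p ∈ closure (Ex T V {c, d}) ∧ p ∈ closure (Ex T y {c, f})) := by
  have ha : a ∈ T V := by rw [hV.pal]; simp
  have hb : b ∈ T V := by rw [hV.pal]; simp
  have hc : c ∈ T V := by rw [hV.pal]; simp
  have hd : d ∈ T V := by rw [hV.pal]; simp
  have hne_e : ∀ x ∈ T V, x ≠ e := fun x hx h1 => he (h1 ▸ hx)
  have hne_f : ∀ x ∈ T V, x ≠ f := fun x hx h1 => hf (h1 ▸ hx)
  have mV : ∀ x, x ∈ T V ↔ x = a ∨ x = b ∨ x = c ∨ x = d := by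
    intro x; rw [hV.pal]; simp only [mem_insert_iff, mem_singleton_iff]
  have my : ∀ x, x ∈ T y ↔ x = a ∨ x = e ∨ x = c ∨ x = f := by
    intro x; rw [hy.pal]; simp only [mem_insert_iff, mem_singleton_iff]
  have hby : b ∉ T y := by
    rw [my]
    rintro (h1 | h1 | h1 | h1)
    · exact hV.ab h1.symm
    · exact hne_e b hb h1
    · exact hV.bc h1
    · exact hne_f b hb h1
  have hdy : d ∉ T y := by
    rw [my]
    rintro (h1 | h1 | h1 | h1)
    · exact hV.ad h1.symm
    · exact hne_e d hd h1
    · exact hV.cd h1.symm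
    · exact hne_f d hd h1
  have hnd : [a, b, c, d, e, f].Nodup := by
    simp only [List.nodup_cons, List.mem_cons, List.not_mem_nil, or_false, not_or,
      List.nodup_nil, and_true, not_false_eq_true]
    exact ⟨⟨hV.ab, hV.ac, hV.ad, hne_e a ha, hne_f a ha⟩,
      ⟨hV.bc, hV.bd, hne_e b hb, hne_f b hb⟩, ⟨hV.cd, hne_e c hc, hne_f c hc⟩,
      ⟨hne_e d hd, hne_f d hd⟩, hy.bd⟩
  have hall : ∀ x : Fin 6, x = a ∨ x = b ∨ x = c ∨ x = d ∨ x = e ∨ x = f := by
    intro x
    have h1 : ({a, b, c, d, e, f} : Finset (Fin 6)) = Finset.univ := by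
      apply Finset.eq_univ_of_card
      have := List.toFinset_card_of_nodup hnd
      simpa using this
    have h2 : x ∈ ({a, b, c, d, e, f} : Finset (Fin 6)) := by rw [h1]; simp
    simpa only [Finset.mem_insert, Finset.mem_singleton] using h2
  have hcov : ∀ i, i ∈ T V ∨ i ∈ T y := by
    intro i
    rw [mV, my]
    rcases hall i with h1 | h1 | h1 | h1 | h1 | h1 <;> tauto
  have hne : V ≠ y := by
    intro h1
    rw [h1, dist_self] at hVy
    norm_num at hVy
  have hne2 : V + y ≠ 2 * p := by
    intro h1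
    have h2 : dist V y = 2 * dist p y := by
      rw [dist_eq_norm, dist_eq_norm, show V - y = 2 * (p - y) by linear_combination h1, norm_mul]
      norm_num
    rw [hVy, hpy] at h2
    norm_num at h2
  have bp := hV
  rcases PV.contact h (pv_of_dpt h hV) (pv_of_dpt h hy) hcov hpV hpy hne hne2 h3 with
    ⟨R, hR, hR', -⟩ | ⟨S, hS, hS', -⟩ | ⟨R, S, hR, hS, hRc, hSc, g, g', i, hg, hg', -, -, h6, h7, h8, -, -⟩
  · exfalso
    rcases hR with rfl | rfl
    · have h1 : a ∈ (T y)ᶜ := by rw [← hR']; simp
      exact h1 (by rw [my]; tauto)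
    · have h1 : c ∈ (T y)ᶜ := by rw [← hR']; simp
      exact h1 (by rw [my]; tauto)
  · exfalso
    rcases hS with rfl | rfl
    · have h1 : a ∈ (T V)ᶜ := by rw [← hS']; simp
      exact h1 ha
    · have h1 : c ∈ (T V)ᶜ := by rw [← hS']; simp
      exact h1 hc
  · -- `g' ∈ R`, `g' ∉ T y`, `g ∈ S`, `g ∉ T V`
    have hg'R : g' ∈ R := by rw [h6]; simp
    have hgS : g ∈ S := by rw [h7]; simp
    have hiR : i ∈ R := by rw [h6]; simp
    have hiS : i ∈ S := by rw [h7]; simp
    rcases hR with rfl | rfl <;> rcases hS with rfl | rfl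
    · left
      have k1 : g' = b := by
        rcases hg'R with h1 | h1
        · exact absurd (by rw [my]; tauto) hg'
        · exact h1
      have k2 : g = e := by
        rcases hgS with h1 | h1
        · exact absurd (h1 ▸ ha) hg
        · exact h1
      have k3 : i = a := by
        rcases hiR with h1 | h1
        · exact h1
        · rw [mem_singleton_iff] at h1
          rcases hiS with h2 | h2
          · exact h2
          · rw [mem_singleton_iff] at h2
            exact absurd (h1.symm.trans h2) (hne_e b hb)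
      refine ⟨?_, hRc, hSc⟩
      rw [h8, k1, k2, k3]
      ext x
      simp only [mem_insert_iff, mem_singleton_iff]
      tauto
    · exfalso
      rcases hiR with h1 | h1 <;> rcases hiS with h2 | h2
      · exact hV.ac (h1.symm.trans h2)
      · rw [mem_singleton_iff] at h2
        exact hne_f a ha (h1.symm.trans h2)
      · rw [mem_singleton_iff] at h1
        exact hV.bc (h1.symm.trans h2)
      · rw [mem_singleton_iff] at h1 h2
        exact hne_f b hb (h1.symm.trans h2)
    · exfalso
      rcases hiR with h1 | h1 <;> rcases hiS with h2 | h2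
      · exact hV.ac (h2.symm.trans h1)
      · rw [mem_singleton_iff] at h2
        exact hne_e c hc (h1.symm.trans h2)
      · rw [mem_singleton_iff] at h1
        exact hV.ad (h2.symm.trans h1)
      · rw [mem_singleton_iff] at h1 h2
        exact hne_e d hd (h1.symm.trans h2)
    · right
      have k1 : g' = d := by
        rcases hg'R with h1 | h1
        · exact absurd (by rw [my]; tauto) hg'
        · exact h1
      have k2 : g = f := by
        rcases hgS with h1 | h1
        · exact absurd (h1 ▸ hc) hg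
        · exact h1
      have k3 : i = c := by
        rcases hiR with h1 | h1
        · exact h1
        · rw [mem_singleton_iff] at h1
          rcases hiS with h2 | h2
          · exact h2
          · rw [mem_singleton_iff] at h2
            exact absurd (h1.symm.trans h2) (hne_f d hd)
      refine ⟨?_, hRc, hSc⟩
      rw [h8, k1, k2, k3]
      ext x
      simp only [mem_insert_iff, mem_singleton_iff]
      tauto

/-- **the two apexes of an EE pair have the same palette** -/
theorem ee_apex_same862 (h : Irr U T) (nc : NoComp T) (hV : DPt T V a b c d)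
    (hy : DPt T y a e c f) (he : e ∉ T V) (hf : f ∉ T V) (hVy : dist V y = 1)
    (hpV : dist p V = 1) (hpy : dist p y = 1) (h3 : (T p).ncard ≤ 3)
    (hpV' : dist p' V = 1) (hpy' : dist p' y = 1) (h3' : (T p').ncard ≤ 3) :
    (T p = {a, b, e} ∧ T p' = {a, b, e}) ∨ (T p = {c, d, f} ∧ T p' = {c, d, f}) := by
  have ha : a ∈ T V := by rw [hV.pal]; simp
  have hb : b ∈ T V := by rw [hV.pal]; simp
  have hc : c ∈ T V := by rw [hV.pal]; simp
  have hd : d ∈ T V := by rw [hV.pal]; simp
  have hne_e : ∀ x ∈ T V, x ≠ e := fun x hx h1 => he (h1 ▸ hx)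
  have hne_f : ∀ x ∈ T V, x ≠ f := fun x hx h1 => hf (h1 ▸ hx)
  have hnd : [a, b, c, d, e, f].Nodup := by
    simp only [List.nodup_cons, List.mem_cons, List.not_mem_nil, or_false, not_or,
      List.nodup_nil, and_true, not_false_eq_true]
    exact ⟨⟨hV.ab, hV.ac, hV.ad, hne_e a ha, hne_f a ha⟩,
      ⟨hV.bc, hV.bd, hne_e b hb, hne_f b hb⟩, ⟨hV.cd, hne_e c hc, hne_f c hc⟩,
      ⟨hne_e d hd, hne_f d hd⟩, hy.bd⟩
  have hall : ∀ x : Fin 6, x = a ∨ x = b ∨ x = c ∨ x = d ∨ x = e ∨ x = f := by
    intro x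
    have h1 : ({a, b, c, d, e, f} : Finset (Fin 6)) = Finset.univ := by
      apply Finset.eq_univ_of_card
      have := List.toFinset_card_of_nodup hnd
      simpa using this
    have h2 : x ∈ ({a, b, c, d, e, f} : Finset (Fin 6)) := by rw [h1]; simp
    simpa only [Finset.mem_insert, Finset.mem_singleton] using h2
  have hcomp : ({c, d, f} : Set (Fin 6)) = ({a, b, e} : Set (Fin 6))ᶜ := by
    have hn := hnd
    simp only [List.nodup_cons, List.mem_cons, List.not_mem_nil, or_false, not_or,
      List.nodup_nil, and_true, not_false_eq_true] at hn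
    obtain ⟨⟨ab, ac, ad, ae, af⟩, ⟨bc, bd, be, bf⟩, ⟨cd, ce, cf⟩, ⟨de, df⟩, ef⟩ := hn
    ext x
    simp only [mem_insert_iff, mem_singleton_iff, mem_compl_iff, not_or]
    constructor
    · rintro (rfl | rfl | rfl)
      · exact ⟨Ne.symm ac, Ne.symm bc, ce⟩
      · exact ⟨Ne.symm ad, Ne.symm bd, de⟩
      · exact ⟨Ne.symm af, Ne.symm bf, Ne.symm ef⟩
    · rintro ⟨h1, h2, h3⟩
      rcases hall x with h4 | h4 | h4 | h4 | h4 | h4 <;> tauto
  have hne : V ≠ y := by
    intro h1
    rw [h1, dist_self] at hVy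
    norm_num at hVy
  have hcV : (T V).ncard = 4 := hV.ncard
  have hcy : (T y).ncard = 4 := hy.ncard
  have bad : ∀ q q' : ℂ, dist q V = 1 → dist q y = 1 → dist q' V = 1 → dist q' y = 1 →
      T q = {a, b, e} → T q' = {c, d, f} → False := by
    intro q q' h1 h2 h3 h4 h5 h6
    have hq3 : (T q).ncard = 3 := by
      rw [h5, Set.ncard_insert_of_notMem (by simp [hV.ab, hne_e a ha]),
        Set.ncard_pair (hne_e b hb)]
    have h7 : T q' = (T q)ᶜ := by rw [h6, h5, hcomp]
    have k1 := nc V hcV q q' h1 h3 hq3 h7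
    have k2 := nc y hcy q q' h2 h4 hq3 h7
    exact hne (by
      have h8 : (2 : ℂ) * V = 2 * y := k1.symm.trans k2
      exact mul_left_cancel₀ two_ne_zero h8)
  rcases ee_apex862 h hV hy he hf hVy hpV hpy h3 with ⟨h1, -, -⟩ | ⟨h1, -, -⟩ <;>
    rcases ee_apex862 h hV hy he hf hVy hpV' hpy' h3' with ⟨h2, -, -⟩ | ⟨h2, -, -⟩
  · exact Or.inl ⟨h1, h2⟩
  · exact (bad p p' hpV hpy hpV' hpy' h1 h2).elim
  · exact (bad p' p hpV' hpy' hpV hpy h2 h1).elim
  · exact Or.inr ⟨h1, h2⟩

/-- an EE pair where `{a, b}` has no end with a free colour on `S(V)` : the apexes are `{c, d, f}` -/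
theorem ee_apex_free862 (h : Irr U T) (hV : DPt T V a b c d) (hy : DPt T y a e c f) (he : e ∉ T V)
    (hf : f ∉ T V) (hVy : dist V y = 1) (hpV : dist p V = 1) (hpy : dist p y = 1)
    (h3 : (T p).ncard ≤ 3) (hpf : T p ≠ {a, b, e}) :
    T p = {c, d, f} ∧ p ∈ closure (Ex T V {c, d}) ∧ p ∈ closure (Ex T y {c, f}) := by
  rcases ee_apex862 h hV hy he hf hVy hpV hpy h3 with ⟨h1, -, -⟩ | h1
  · exact absurd h1 hpf
  · exact h1

end Vale.Agent.P032.H862
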