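import Vale.Agent.P032.H862.RingX
import Vale.Agent.P032.H460.GenF

/-!
# P032, X-B (B3) with flip points on the circle: the four-term sum

`ringG862` : the ring in the full apex cover, from a winding form of the cover recoloured near the
flip points (`f y = {e, g}`).
`DSt.sum_four_flip` : the four-term sum at a quasi-full centre is `1`; the points of order at least
four of the circle are flip points (only free letters near the point and near its two apexes,
apexes of order at most three, not over the arc) or ordinary (460's (S1), (S2), (S3)).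
-/

open Set Filter Topology Metric

noncomputable section

namespace Vale.Agent.P032.H862

open Vale.Agent.P032.Six Vale.Agent.P032.S5.H767 Vale.Agent.P032.H695 Vale.Agent.P032.Carr
open Vale.Agent.P032.H460
open Vale.Agent.P032.H180 (f2)
open Vale.Agent.P032.S5 (eps)

variable {Z : Set ℂ} {f : ℂ → Set (Fin 6)} {δ δ₀ : ℝ}
variable {U : Fin 6 → Set ℂ} {T : ℂ → Set (Fin 6)} {V : ℂ} {a b p q e g : Fin 6}

/-- the flip points are closed -/
theorem isCompact_flp862 (H : Hm T Z f δ₀) (V : ℂ) (S : Set (Fin 6)) :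
    IsCompact {y | y ∈ Z ∧ dist y V = 1 ∧ f y = S} := by
  refine H.compact.of_isClosed_subset ?_ fun z hz => hz.1
  rw [← isOpen_compl_iff, isOpen_iff_mem_nhds]
  intro y hy
  by_cases hyZ : y ∈ Z
  · by_cases hyV : dist y V = 1
    · filter_upwards [ball_mem_nhds y H.pos] with z hz hzZ
      obtain ⟨-, e2⟩ := H.const y hyZ z hzZ.1 (mem_ball.1 hz).le
      exact hy ⟨hyZ, hyV, by rw [← e2]; exact hzZ.2.2⟩
    · filter_upwards [(isClosed_sphere (x := V) (ε := 1)).isOpen_compl.mem_nhds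
        (show y ∈ (sphere V 1)ᶜ from hyV)] with z hz hzZ
      exact hz hzZ.2.1
  · filter_upwards [H.compact.isClosed.isOpen_compl.mem_nhds hyZ] with z hz hzZ
    exact hz hzZ.1

/-- near the flip points there are no `e|g` changes of the labels of the full apex cover -/
theorem exists_mesh862 (H : Hm T Z f δ₀) (hcl : ∀ i, IsClosed {y | i ∈ T y}) (hδ : 0 < δ)
    {r : ℝ} (hr : δ + r ≤ δ₀) :
    ∃ μ > 0, ∀ w w', dist w V = 1 → dist w' V = 1 →
      (∃ y ∈ Z, dist y V = 1 ∧ f y = {e, g} ∧ dist w y ≤ r) →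
      (∃ y ∈ Z, dist y V = 1 ∧ f y = {e, g} ∧ dist w' y ≤ r) → dist w w' < μ →
      e ∈ apF758 T Z f δ w → g ∈ apF758 T Z f δ w' → False := by
  set Y : Set ℂ := {y | y ∈ Z ∧ dist y V = 1 ∧ f y = {e, g}} with hYd
  have hY : IsCompact Y := isCompact_flp862 H V {e, g}
  have hA : ∀ i : Fin 6, IsCompact {w | dist w V = 1 ∧ (∃ y ∈ Y, dist w y ≤ r) ∧
      (∀ z ∈ Z, δ ≤ dist w z) ∧ i ∈ T w} := by
    intro i
    refine (isCompact_sphere V 1).of_isClosed_subset ?_ fun w hw => hw.1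
    have c1 : IsClosed {w : ℂ | ∃ y ∈ Y, dist w y ≤ r} := by
      have : {w : ℂ | ∃ y ∈ Y, dist w y ≤ r} = ⋃ y ∈ Y, closedBall y r := by
        ext w; simp
      rw [this]
      rcases lt_or_ge r 0 with hr0 | hr0
      · have : (⋃ y ∈ Y, closedBall y r) = ∅ := by
          simp [closedBall_eq_empty.2 hr0]
        rw [this]; exact isClosed_empty
      · rw [← hY.cthickening_eq_biUnion_closedBall hr0]
        exact isClosed_cthickening
    have c2 : IsClosed {w : ℂ | ∀ z ∈ Z, δ ≤ dist w z} := by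
      have : {w : ℂ | ∀ z ∈ Z, δ ≤ dist w z} = ⋂ z ∈ Z, {w | δ ≤ dist w z} := by
        ext w; simp
      rw [this]
      exact isClosed_biInter fun z _ => isClosed_le continuous_const (continuous_id.dist
        continuous_const)
    exact isClosed_sphere.inter (c1.inter (c2.inter (hcl i)))
  have hd : Disjoint {w | dist w V = 1 ∧ (∃ y ∈ Y, dist w y ≤ r) ∧
      (∀ z ∈ Z, δ ≤ dist w z) ∧ e ∈ T w} {w | dist w V = 1 ∧ (∃ y ∈ Y, dist w y ≤ r) ∧
      (∀ z ∈ Z, δ ≤ dist w z) ∧ g ∈ T w} := by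
    rw [Set.disjoint_left]
    rintro w ⟨-, ⟨y, hy, hwy⟩, hz, he⟩ ⟨-, -, -, hg⟩
    refine H.forb y hy.1 w (by linarith) (fun h => ?_) ?_
    · have := hz w h
      rw [dist_self] at this
      linarith
    · rw [hy.2.2]
      rintro i (rfl | hi)
      · exact he
      · rw [mem_singleton_iff] at hi; subst hi; exact hg
  obtain ⟨μ, hμ, hdis⟩ := hd.exists_thickenings (hA e) (hA g).isClosed
  have hin : ∀ i, (i = e ∨ i = g) → ∀ w, dist w V = 1 →
      (∃ y ∈ Z, dist y V = 1 ∧ f y = {e, g} ∧ dist w y ≤ r) → i ∈ apF758 T Z f δ w →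
      w ∈ {w | dist w V = 1 ∧ (∃ y ∈ Y, dist w y ≤ r) ∧ (∀ z ∈ Z, δ ≤ dist w z) ∧ i ∈ T w} := by
    rintro i hi w hw ⟨y, hyZ, hyV, hyf, hwy⟩ (⟨h1, h2⟩ | ⟨z, hz, h1, -, h2⟩)
    · exact ⟨hw, ⟨y, ⟨hyZ, hyV, hyf⟩, hwy⟩, h2, h1⟩
    · exfalso
      apply h2
      rw [(H.const y hyZ z hz (by
        have := dist_triangle_left z y w
        linarith)).2, hyf]
      exact hi
  refine ⟨μ, hμ, fun w w' hw hw' h1 h2 hdw he hg => ?_⟩
  have k1 := hin e (Or.inl rfl) w hw h1 he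
  have k2 := hin g (Or.inr rfl) w' hw' h2 hg
  exact Set.disjoint_left.1 hdis (self_subset_thickening hμ _ k1)
    (mem_thickening_iff.2 ⟨w', k2, hdw⟩)

/-- **The ring in the full apex cover** : from a winding form of the recoloured cover -/
theorem ringG862 (C : Ctr U T V a b p q e g) (H : Hm T Z f δ₀) {v : ZMod 2}
    (hring : ∃ O, IsOpen O ∧ {y | y ∈ Z ∧ dist y V = 1 ∧ f y = {e, g}} ⊆ O ∧
      ∀ N, IsOpen N → {y | y ∈ Z ∧ dist y V = 1 ∧ f y = {e, g}} ⊆ N → closure N ⊆ O →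
      ∃ δ > 0, ∀ (n : ℕ) (s : ℕ → ℝ) (lab : ℕ → Fin 3), s n = s 0 + 6 →
      (∀ k < n, |s k - s (k + 1)| < δ) →
      (∀ k ≤ n, lab k ∈ RQ862 T V a b p q e g N (pt V (s k))) → lab n = lab 0 →
      ∑ k ∈ Finset.range n, f2 (lab k) (lab (k + 1)) = v) :
    ∃ δ > 0, δ ≤ δ₀ / 2 ∧ ∀ᶠ j : ℕ in atTop, ∑ k ∈ Finset.range (6 * 2 ^ j),
      eps (can (apF758 T Z f δ) e g a (S5.pt V j (2 ^ j) k))
        (can (apF758 T Z f δ) e g a (S5.pt V j (2 ^ j) (k + 1))) {e, g} = v := by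
  have hn := C.nd
  simp only [List.nodup_cons, List.mem_cons, List.not_mem_nil, or_false, not_or, List.nodup_nil,
    and_true, not_false_eq_true] at hn
  obtain ⟨⟨ab, ap, aq, ae, ag⟩, ⟨bp, bq, be, bg⟩, ⟨pq, pe, pg⟩, ⟨qe, qg⟩, eg⟩ := hn
  set Y : Set ℂ := {y | y ∈ Z ∧ dist y V = 1 ∧ f y = {e, g}} with hYd
  have hY : IsCompact Y := isCompact_flp862 H V {e, g}
  obtain ⟨O, hO, hYO, hring⟩ := hring
  have hδ₀ := H.pos
  obtain ⟨r₀, hr₀, hr₀O⟩ := hY.exists_cthickening_subset_open hO hYO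
  obtain ⟨r₁, hr₁, hr₁0, hr₁1⟩ : ∃ r₁ : ℝ, 0 < r₁ ∧ r₁ ≤ r₀ ∧ r₁ ≤ δ₀ / 16 :=
    ⟨min r₀ (δ₀ / 16), lt_min hr₀ (by linarith), min_le_left _ _, min_le_right _ _⟩
  obtain ⟨N, hNd⟩ : ∃ N, N = thickening r₁ Y := ⟨_, rfl⟩
  have hNo : IsOpen N := hNd ▸ isOpen_thickening
  have hYN : Y ⊆ N := hNd ▸ self_subset_thickening hr₁ _
  have hclN : closure N ⊆ O := by
    rw [hNd]
    exact (closure_thickening_subset_cthickening r₁ Y).trans
      ((cthickening_mono hr₁0 Y).trans hr₀O)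
  have hNY : ∀ w, w ∈ N ↔ ∃ y ∈ Y, dist w y < r₁ := by
    intro w
    rw [hNd, mem_thickening_iff]
  obtain ⟨δ₁, hδ₁, hring⟩ := hring N hNo hYN hclN
  obtain ⟨ρ, hρ, hρ1, hρ0, hρr⟩ : ∃ ρ : ℝ, 0 < ρ ∧ ρ ≤ δ₁ / 8 ∧ ρ ≤ δ₀ / 16 ∧ ρ ≤ r₁ :=
    ⟨min (min (δ₁ / 8) (δ₀ / 16)) r₁, lt_min (lt_min (by linarith) (by linarith)) hr₁,
      (min_le_left _ _).trans (min_le_left _ _), (min_le_left _ _).trans (min_le_right _ _),
      min_le_right _ _⟩
  obtain ⟨δ₂, hδ₂, hsc⟩ := exists_scale460 H V (show 0 < ρ / 4 by linarith)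
  obtain ⟨δ, hδ, hδ2, hδρ, hδ0⟩ : ∃ δ : ℝ, 0 < δ ∧ δ ≤ δ₂ ∧ δ ≤ ρ / 4 ∧ δ ≤ δ₀ / 2 := by
    refine ⟨min δ₂ (ρ / 4), lt_min hδ₂ (by linarith), min_le_left _ _, min_le_right _ _, ?_⟩
    have := min_le_right δ₂ (ρ / 4)
    linarith
  refine ⟨δ, hδ, hδ0, ?_⟩
  obtain ⟨μ, hμ, hmesh⟩ := exists_mesh862 (V := V) (e := e) (g := g) H C.irr.closed hδ
    (r := 2 * r₁) (by linarith)
  -- pointwise labels
  have claim : ∀ y, dist y V = 1 → ∃ (l : Fin 3) (r : ℝ), |r| < ρ ∧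
      l ∈ RQ862 T V a b p q e g N (rot V r y) ∧ (y ∈ N → l = 2) ∧ (y ∉ N →
      (can (apF758 T Z f δ) e g a y = e → l = 0) ∧ (can (apF758 T Z f δ) e g a y = g → l = 1) ∧
      (l = 0 → can (apF758 T Z f δ) e g a y ≠ e → ∃ z' ∈ Z, dist y z' ≤ ρ ∧ g ∉ T z') ∧
      (l = 1 → can (apF758 T Z f δ) e g a y ≠ g → ∃ z' ∈ Z, dist y z' ≤ ρ ∧ e ∉ T z')) := by
    intro y hy
    by_cases hyN : y ∈ N
    · refine ⟨2, 0, by rw [abs_zero]; exact hρ, ?_, fun _ => rfl, fun h => absurd hyN h⟩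
      rw [rot_zero]
      exact Or.inl ⟨rfl, subset_closure ⟨hyN, mem_sphere.2 hy⟩⟩
    have ce := can_e (K := apF758 T Z f δ) (y := y) (Ne.symm eg) ae
    have cg := can_g (K := apF758 T Z f δ) (y := y) (Ne.symm eg) ag
    by_cases hn : ∃ z ∈ Z, dist y z ≤ δ
    · obtain ⟨z, hz, hyz⟩ := hn
      obtain ⟨z', hz', hz'V, hzz'⟩ := hsc z hz ⟨y, hy, hyz.trans hδ2⟩
      obtain ⟨eT, ef⟩ := H.const z' hz' z hz (by linarith)
      have hyz' : dist y z' ≤ ρ / 2 := by
        have := dist_triangle y z z'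
        linarith
      obtain ⟨r, hr, hr'⟩ := exists_rot hy hz'V
      have hrρ : |r| < ρ := by linarith
      have hz'f : f z' ≠ {e, g} := by
        intro h
        exact hyN ((hNY y).2 ⟨z', ⟨hz', hz'V, h⟩, by linarith⟩)
      have hz'N : z' ∉ N := by
        intro h
        obtain ⟨y₁, hy₁, hd₁⟩ := (hNY z').1 h
        exact hz'f (by rw [(H.const y₁ hy₁.1 z' hz' (by linarith)).2]; exact hy₁.2.2)
      have hQ3 : ∀ l, l ∈ Q3 T V a b p q e g z' → l ∈ RQ862 T V a b p q e g N (rot V r y) :=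
        fun l hl => by rw [hr]; exact Or.inr ⟨hl, hz'N⟩
      have hin : ∀ i, i ∈ apF758 T Z f δ y → i ∈ T z' := by
        rintro i (⟨hi, -⟩ | ⟨z₂, hz₂, hyz₂, hi, -⟩)
        · exact H.sub z' hz' y (by linarith) hi
        · rw [← (H.const z' hz' z₂ hz₂ (by
            have := dist_triangle_left z₂ z' y
            linarith)).1]
          exact hi
      have hout : ∀ i, i ∉ apF758 T Z f δ y → i ∈ T z' → i ∈ f z' := by
        intro i hi hiT
        by_contra hif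
        exact hi (Or.inr ⟨z, hz, hyz, by rw [eT]; exact hiT, by rw [ef]; exact hif⟩)
      by_cases he : e ∈ apF758 T Z f δ y
      · exact ⟨0, r, hrρ, hQ3 0 (Q3_zero.2 ⟨hz'V, hin e he⟩), fun h => absurd h hyN, fun _ =>
          ⟨fun _ => rfl, fun h => absurd he (cg.1 h).1, fun _ h => absurd (ce.2 he) h,
          fun h => absurd h (by decide)⟩⟩
      · by_cases hg : g ∈ apF758 T Z f δ y
        · exact ⟨1, r, hrρ, hQ3 1 (Q3_one.2 ⟨hz'V, hin g hg⟩), fun h => absurd h hyN, fun _ =>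
            ⟨fun h => absurd (ce.1 h) he, fun _ => rfl, fun h => absurd h (by decide),
            fun _ h => absurd (cg.2 ⟨he, hg⟩) h⟩⟩
        · by_cases hcl : z' ∈ closure (Ex T V {a, b}) ∨ z' ∈ closure (Ex T V {p, q})
          · exact ⟨2, r, hrρ, hQ3 2 (Q3_two.2 hcl), fun h => absurd h hyN, fun _ =>
              ⟨fun h => absurd (ce.1 h) he,
              fun h => absurd (cg.1 h).2 hg, fun h => absurd h (by decide),
              fun h => absurd h (by decide)⟩⟩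
          · push Not at hcl
            have hnot : ¬ (e ∈ T z' ∧ g ∈ T z') := by
              rintro ⟨h1, h2⟩
              refine hz'f ?_
              symm
              refine Set.eq_of_subset_of_ncard_le ?_ ?_ (Set.toFinite _)
              · rintro i (rfl | rfl)
                · exact hout _ he h1
                · exact hout _ hg h2
              · rw [H.two z' hz', Set.ncard_pair eg]
            obtain ⟨l, hl⟩ := C.cover hz'V
            have h3 := Lt_col C.irr hl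
            fin_cases l
            · have h4 : e ∈ T z' := h3 rfl
              exact ⟨0, r, hrρ, hQ3 0 (Q3_zero.2 ⟨hz'V, h4⟩), fun h => absurd h hyN, fun _ =>
                ⟨fun _ => rfl, fun h => absurd (cg.1 h).2 hg,
                fun _ _ => ⟨z', hz', by linarith, fun h5 => hnot ⟨h4, h5⟩⟩,
                fun h => absurd h (by decide)⟩⟩
            · have h4 : g ∈ T z' := h3 rfl
              exact ⟨1, r, hrρ, hQ3 1 (Q3_one.2 ⟨hz'V, h4⟩), fun h => absurd h hyN, fun _ =>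
                ⟨fun h => absurd (ce.1 h) he, fun _ => rfl, fun h => absurd h (by decide),
                fun _ _ => ⟨z', hz', by linarith, fun h5 => hnot ⟨h5, h4⟩⟩⟩⟩
            · exact absurd hl hcl.1
            · exact absurd hl hcl.2
    · push Not at hn
      have hfar := apF_far460 (K := T) (f := f) hn
      rw [hfar] at ce cg
      have hQ3 : ∀ l, l ∈ Q3 T V a b p q e g y → l ∈ RQ862 T V a b p q e g N (rot V 0 y) :=
        fun l hl => by rw [rot_zero]; exact Or.inr ⟨hl, hyN⟩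
      by_cases he : e ∈ T y
      · exact ⟨0, 0, by rw [abs_zero]; exact hρ, hQ3 0 (Q3_zero.2 ⟨hy, he⟩),
          fun h => absurd h hyN, fun _ =>
          ⟨fun _ => rfl, fun h => absurd he (cg.1 h).1, fun _ h => absurd (ce.2 he) h,
          fun h => absurd h (by decide)⟩⟩
      · by_cases hg : g ∈ T y
        · exact ⟨1, 0, by rw [abs_zero]; exact hρ, hQ3 1 (Q3_one.2 ⟨hy, hg⟩),
            fun h => absurd h hyN, fun _ =>
            ⟨fun h => absurd (ce.1 h) he, fun _ => rfl, fun h => absurd h (by decide),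
            fun _ h => absurd (cg.2 ⟨he, hg⟩) h⟩⟩
        · refine ⟨2, 0, by rw [abs_zero]; exact hρ, hQ3 2 ?_, fun h => absurd h hyN, fun _ =>
            ⟨fun h => absurd (ce.1 h) he, fun h => absurd (cg.1 h).2 hg,
            fun h => absurd h (by decide), fun h => absurd h (by decide)⟩⟩
          obtain ⟨l, hl⟩ := C.cover hy
          have h3 := Lt_col C.irr hl
          fin_cases l
          · exact absurd (h3 rfl) he
          · exact absurd (h3 rfl) hg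
          · exact Q3_two.2 (Or.inl hl)
          · exact Q3_two.2 (Or.inr hl)
  choose! lb r hr hQ hN2 hlab using claim
  have hQ0 : ∀ y, dist y V = 1 → lb y = 0 → e ∈ T (rot V (r y) y) := by
    intro y hy h0
    rcases hQ y hy with ⟨h1, -⟩ | ⟨h1, -⟩
    · rw [h0] at h1; exact absurd h1 (by decide)
    · rw [h0] at h1; exact (Q3_zero.1 h1).2
  have hQ1 : ∀ y, dist y V = 1 → lb y = 1 → g ∈ T (rot V (r y) y) := by
    intro y hy h0
    rcases hQ y hy with ⟨h1, -⟩ | ⟨h1, -⟩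
    · rw [h0] at h1; exact absurd h1 (by decide)
    · rw [h0] at h1; exact (Q3_one.1 h1).2
  have hlp : ∀ y y', dist y' V = 1 → dist y y' ≤ δ₀ / 8 → ∀ z' ∈ Z, dist y z' ≤ ρ → ∀ i,
      i ∈ T (rot V (r y') y') → i ∈ T z' := by
    intro y y' hy' hyy z' hz' hyz i hi
    refine H.sub z' hz' _ ?_ hi
    have t1 := dist_rot_self hy' (r y')
    have t2 := dist_triangle (rot V (r y') y') y' z'
    have t3 := dist_triangle_left y' z' y
    have t4 := hr y' hy'
    linarith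
  filter_upwards [(tendsto_order.1 S5.tendsto_mesh).2 _
    (lt_min (lt_min (show 0 < δ₁ / 2 by linarith) (show 0 < δ₀ / 8 by linarith))
      (lt_min hμ hr₁))] with j hj
  have hj1 : (3 : ℝ) / 2 ^ j < δ₁ / 2 := (hj.trans_le (min_le_left _ _)).trans_le (min_le_left _ _)
  have hj0 : (3 : ℝ) / 2 ^ j < δ₀ / 8 := (hj.trans_le (min_le_left _ _)).trans_le (min_le_right _ _)
  have hjμ : (3 : ℝ) / 2 ^ j < μ := (hj.trans_le (min_le_right _ _)).trans_le (min_le_left _ _)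
  have hjr : (3 : ℝ) / 2 ^ j < r₁ := (hj.trans_le (min_le_right _ _)).trans_le (min_le_right _ _)
  have hj2 : (0 : ℝ) < 2 ^ j := by positivity
  have H1 : ((6 * 2 ^ j : ℕ) : ℝ) / 2 ^ j + r (S5.pt V j (2 ^ j) (6 * 2 ^ j)) =
      ((0 : ℕ) : ℝ) / 2 ^ j + r (S5.pt V j (2 ^ j) 0) + 6 := by
    rw [S5.pt_per]
    push_cast
    field_simp
    ring
  have H2 : ∀ k : ℕ, k < 6 * 2 ^ j → |(k : ℝ) / 2 ^ j + r (S5.pt V j (2 ^ j) k) -
      (((k + 1 : ℕ) : ℝ) / 2 ^ j + r (S5.pt V j (2 ^ j) (k + 1)))| < δ₁ := by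
    intro k _
    have e0 := hr _ (S5.pt_ring V j k)
    have e1 := hr _ (S5.pt_ring V j (k + 1))
    have e2 : (k : ℝ) / 2 ^ j + r (S5.pt V j (2 ^ j) k) -
        (((k + 1 : ℕ) : ℝ) / 2 ^ j + r (S5.pt V j (2 ^ j) (k + 1))) =
        -(1 / 2 ^ j) + r (S5.pt V j (2 ^ j) k) - r (S5.pt V j (2 ^ j) (k + 1)) := by
      push_cast
      ring
    have e3 : (1 : ℝ) / 2 ^ j ≤ 3 / 2 ^ j := div_le_div_of_nonneg_right (by norm_num) hj2.le
    have e4 : (0 : ℝ) < 1 / 2 ^ j := by positivity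
    rw [e2]
    rw [abs_lt] at e0 e1 ⊢
    constructor <;> linarith [e0.1, e0.2, e1.1, e1.2]
  have H3 : ∀ k : ℕ, k ≤ 6 * 2 ^ j → lb (S5.pt V j (2 ^ j) k) ∈ RQ862 T V a b p q e g N
      (pt V ((k : ℝ) / 2 ^ j + r (S5.pt V j (2 ^ j) k))) := by
    intro k _
    rw [← rot_pt, ← s5pt460]
    exact hQ _ (S5.pt_ring V j k)
  have H4 : lb (S5.pt V j (2 ^ j) (6 * 2 ^ j)) = lb (S5.pt V j (2 ^ j) 0) := by
    rw [S5.pt_per]
  have hR := hring (6 * 2 ^ j) (fun k => (k : ℝ) / 2 ^ j + r (S5.pt V j (2 ^ j) k))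
    (fun k => lb (S5.pt V j (2 ^ j) k)) H1 H2 H3 H4
  rw [← hR]
  refine Finset.sum_congr rfl fun k _ => ?_
  have e0 := S5.pt_ring V j k
  have e1 := S5.pt_ring V j (k + 1)
  have hd : dist (S5.pt V j (2 ^ j) (k + 1)) (S5.pt V j (2 ^ j) k) ≤ 3 / 2 ^ j :=
    S5.dist_cell V le_rfl (Or.inl rfl) (Or.inr rfl)
  rw [eps_pair460 eg]
  unfold H180.f2
  by_cases hNN : S5.pt V j (2 ^ j) k ∈ N ∨ S5.pt V j (2 ^ j) (k + 1) ∈ N
  · -- near a flip point
    have hnear : (∃ y ∈ Z, dist y V = 1 ∧ f y = {e, g} ∧ dist (S5.pt V j (2 ^ j) k) y ≤ 2 * r₁) ∧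
        ∃ y ∈ Z, dist y V = 1 ∧ f y = {e, g} ∧
          dist (S5.pt V j (2 ^ j) (k + 1)) y ≤ 2 * r₁ := by
      rcases hNN with h | h
      · obtain ⟨y, hy, hyd⟩ := (hNY _).1 h
        refine ⟨⟨y, hy.1, hy.2.1, hy.2.2, by linarith⟩, y, hy.1, hy.2.1, hy.2.2, ?_⟩
        have := dist_triangle (S5.pt V j (2 ^ j) (k + 1)) (S5.pt V j (2 ^ j) k) y
        linarith
      · obtain ⟨y, hy, hyd⟩ := (hNY _).1 h
        refine ⟨⟨y, hy.1, hy.2.1, hy.2.2, ?_⟩, y, hy.1, hy.2.1, hy.2.2, by linarith⟩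
        have := dist_triangle_left (S5.pt V j (2 ^ j) k) y (S5.pt V j (2 ^ j) (k + 1))
        linarith
    have hce : ∀ y, can (apF758 T Z f δ) e g a y = e → e ∈ apF758 T Z f δ y := fun y h =>
      (can_e (Ne.symm eg) ae).1 h
    have hcg : ∀ y, can (apF758 T Z f δ) e g a y = g → g ∈ apF758 T Z f δ y := fun y h =>
      ((can_g (Ne.symm eg) ag).1 h).2
    rw [if_neg, if_neg]
    · rcases hNN with h | h
      · rw [hN2 _ e0 h]
        rintro (⟨h1, -⟩ | ⟨h1, -⟩) <;> exact absurd h1 (by decide)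
      · rw [hN2 _ e1 h]
        rintro (⟨-, h1⟩ | ⟨-, h1⟩) <;> exact absurd h1 (by decide)
    · rintro (⟨c1, c2⟩ | ⟨c1, c2⟩)
      · exact hmesh _ _ e0 e1 hnear.1 hnear.2 (by rw [dist_comm]; linarith) (hce _ c1) (hcg _ c2)
      · exact hmesh _ _ e1 e0 hnear.2 hnear.1 (by linarith) (hce _ c2) (hcg _ c1)
  push Not at hNN
  obtain ⟨n0, n1⟩ := hNN
  obtain ⟨a0, a1, a2, a3⟩ := hlab _ e0 n0
  obtain ⟨b0, b1, b2, b3⟩ := hlab _ e1 n1
  refine if_congr ⟨?_, ?_⟩ rfl rfl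
  · rintro (⟨c1, c2⟩ | ⟨c1, c2⟩)
    · exact Or.inl ⟨a0 c1, b1 c2⟩
    · exact Or.inr ⟨a1 c1, b0 c2⟩
  · rintro (⟨c1, c2⟩ | ⟨c1, c2⟩)
    · left
      constructor
      · by_contra hcon
        obtain ⟨z', hz', hd', hg⟩ := a2 c1 hcon
        exact hg (hlp _ _ e1 (by rw [dist_comm]; linarith) z' hz' hd' g (hQ1 _ e1 c2))
      · by_contra hcon
        obtain ⟨z', hz', hd', hg⟩ := b3 c2 hcon
        exact hg (hlp _ _ e0 (by linarith) z' hz' hd' e (hQ0 _ e0 c1))
    · right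
      constructor
      · by_contra hcon
        obtain ⟨z', hz', hd', hg⟩ := a3 c1 hcon
        exact hg (hlp _ _ e1 (by rw [dist_comm]; linarith) z' hz' hd' e (hQ0 _ e1 c2))
      · by_contra hcon
        obtain ⟨z', hz', hd', hg⟩ := b2 c2 hcon
        exact hg (hlp _ _ e0 (by linarith) z' hz' hd' g (hQ1 _ e0 c1))

/-! ### the points of the circle -/

/-- flip point of the centre `V` with arc `[u0, u0 + α]` : only free letters near the point and
near its two apexes, apexes of order at most three, not over the arc -/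
structure Flp862 (T : ℂ → Set (Fin 6)) (f : ℂ → Set (Fin 6)) (V : ℂ) (a b p q e g : Fin 6)
    (u0 α : ℝ) (y : ℂ) : Prop where
  sep : f y = {e, g}
  far : ∀ y', dist y' V = 1 → (y' = y ∨ dist y y' = 1) →
    y' ∉ closure (Ex T V {a, b}) ∧ y' ∉ closure (Ex T V {p, q})
  apex : ∀ y', dist y' V = 1 → dist y y' = 1 → (T y').ncard ≤ 3
  back : ∀ t ∈ Icc (0 : ℝ) α, pt V (u0 + 3 + t) ≠ y

/-- ordinary point: 460's (S1), (S2), (S3) -/
structure Ord862 (T : ℂ → Set (Fin 6)) (f : ℂ → Set (Fin 6)) (V : ℂ) (a b p q e g : Fin 6)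
    (y : ℂ) : Prop where
  tr : e ∈ T y → g ∈ T y → y ∉ closure (Ex T V {a, b}) ∧ y ∉ closure (Ex T V {p, q})
  sw : y ∉ closure (Ex T V {a, b}) → ∀ y', dist y' V = 1 → dist y y' = 1 →
    y' ∉ closure (Ex T V {a, b}) → ¬ Swp T V a b p q e g y y'
  sep : f y ≠ {e, g}

end Vale.Agent.P032.H862

namespace Vale.Agent.P032.Six

open Vale.Agent.P032.S5.H767 Vale.Agent.P032.Carr Vale.Agent.P032.H460 Vale.Agent.P032.H695
open Vale.Agent.P032.H862

variable {U : Fin 6 → Set ℂ} {T : ℂ → Set (Fin 6)} {f : ℂ → Set (Fin 6)} {Z : Set ℂ} {c : ℂ}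
  {R δ₀ : ℝ}

/-- **X-B (B3) with flip points**, frame form -/
theorem DSt.sum_four_flip (D : DSt U T Z f c R δ₀) {V : ℂ} (hV : dist V c ≤ R - 1)
    {a b p q e g : Fin 6} (C : Ctr U T V a b p q e g) {u0 α : ℝ} (hα0 : 0 < α) (hα1 : α ≤ 1)
    (hX : ∀ t ∈ Ioo (0 : ℝ) α, e ∉ T (pt V (u0 + t)) ∧ g ∉ T (pt V (u0 + t)))
    (hl : PEnd T e g (pt V u0) (pt V (u0 - 1)))
    (hr : PEnd T e g (pt V (u0 + α)) (pt V (u0 + α + 1)))
    (hXonly : ∀ t ∈ Ioo α (6 : ℝ), pt V (u0 + t) ∉ closure (Ex T V {a, b}))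
    (hback : ∀ t ∈ Icc (0 : ℝ) α, pt V (u0 + 3 + t) ∉ closure (Ex T V {p, q}))
    (htr3 : ∀ y, dist y V = 1 → (T y).ncard ≤ 3 → e ∈ T y → g ∈ T y →
      y ∉ closure (Ex T V {a, b}) ∧ y ∉ closure (Ex T V {p, q}))
    (hN : ∀ y, dist y V = 1 → 4 ≤ (T y).ncard →
      Ord862 T f V a b p q e g y ∨ Flp862 T f V a b p q e g u0 α y) :
    lamT T Z f δ₀ a V e g + lamT T Z f δ₀ b V e g + lamT T Z f δ₀ p V e g +
      lamT T Z f δ₀ q V e g = 1 := by
  have hn := C.nd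
  simp only [List.nodup_cons, List.mem_cons, List.not_mem_nil, or_false, not_or, List.nodup_nil,
    and_true, not_false_eq_true] at hn
  obtain ⟨⟨ab, ap, aq, ae, ag⟩, ⟨bp, bq, be, bg⟩, ⟨pq, pe, pg⟩, ⟨qe, qg⟩, eg⟩ := hn
  have hFlp : ∀ y ∈ {y | y ∈ Z ∧ dist y V = 1 ∧ f y = {e, g}},
      Flp862 T f V a b p q e g u0 α y := by
    rintro y ⟨hyZ, hyV, hyf⟩
    rcases hN y hyV (D.zs.four y hyZ) with h | h
    · exact absurd hyf h.sep
    · exact h
  have hmem : ∀ y, dist y V = 1 → 4 ≤ (T y).ncard → y ∈ Z := by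
    intro y hy h4
    refine D.zs.mem y ?_ h4
    rw [mem_closedBall]
    have := dist_triangle y V c
    linarith
  obtain ⟨δ, hδ, hδ', hW⟩ := ringG862 C D.hm (v := 1) (by
    refine ring_rclK862 C hα0 hα1 hX hl hr hXonly hback (isCompact_flp862 D.hm V {e, g}).isClosed
      (fun y hy => hy.2.1) (fun y hy => (hFlp y hy).far) (fun y hy y' hy' hyy => ?_)
      (fun t ht hy => (hFlp _ hy).back t ht rfl) (fun y hy he hg hyY => ?_)
      fun y y' hy hy' hyy hy2 hy2' hs => ?_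
    · have h1 := (hFlp y hy).apex y' hy'.2.1 hyy
      have h2 := D.zs.four y' hy'.1
      omega
    · by_cases h4 : 4 ≤ (T y).ncard
      · rcases hN y hy h4 with h | h
        · exact h.tr he hg
        · exact absurd ⟨hmem y hy h4, hy, h.sep⟩ hyY
      · exact htr3 y hy (by omega) he hg
    · by_contra hcon
      push Not at hcon
      by_cases h4 : 4 ≤ (T y).ncard
      · rcases hN y hy h4 with h | h
        · exact h.sw hy2 y' hy' hyy hy2' hs
        · exact hcon.1 ⟨hmem y hy h4, hy, h.sep⟩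
      · have hyy' : dist y' y = 1 := by rw [dist_comm]; exact hyy
        obtain ⟨l, m, hlm, k1, k2, k3, k4⟩ := hs
        by_cases h4' : 4 ≤ (T y').ncard
        · rcases hN y' hy' h4' with h | h
          · exact h.sw hy2' y hy hyy' hy2 ⟨l, m, hlm, k3, k4, k1, k2⟩
          · exact hcon.2 ⟨hmem y' hy' h4', hy', h.sep⟩
        · exact C.noswap hlm hyy (by omega) (by omega) k1 k2 k3 k4)
  refine D.sum_four_full hV C.nd (fun i hi => ?_) hδ hδ' (eg_can ae ag) hW.frequently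
  rw [C.pal]
  exact hi

/-- **X-B (B3) with flip points.** The four-term sum at a quasi-full two-pair point with J- and
K-ends; the order-4 points of the circle are ordinary (S1), (S2), (S3), or flip points -/
theorem DSt.sum_four_quasiX (D : DSt U T Z f c R δ₀) {V : ℂ} (hV : dist V c ≤ R - 1)
    {a b p q e g : Fin 6} (hz : DPt T V a b p q) (hnd : [a, b, p, q, e, g].Nodup)
    {u0 α : ℝ} (hα0 : 0 < α) (hα1 : α ≤ 1) (harc : ∀ t ∈ Ioo (0 : ℝ) α, T (pt V (u0 + t)) = {a, b})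
    (honly : ∀ y, dist y V = 1 → T y = {a, b} → ∃ t ∈ Ioo (0 : ℝ) α, y = pt V (u0 + t))
    (hl : PEnd T e g (pt V u0) (pt V (u0 - 1)))
    (hr : PEnd T e g (pt V (u0 + α)) (pt V (u0 + α + 1)))
    (hN : ∀ y, dist y V = 1 → 4 ≤ (T y).ncard →
      Ord862 T f V a b p q e g y ∨ Flp862 T f V a b p q e g u0 α y) :
    lamT T Z f δ₀ a V e g + lamT T Z f δ₀ b V e g + lamT T Z f δ₀ p V e g +
      lamT T Z f δ₀ q V e g = 1 := by
  have h := D.df.irr
  have C := ctr_of h hz hnd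
  have hn := hnd
  simp only [List.nodup_cons, List.mem_cons, List.not_mem_nil, or_false, not_or, List.nodup_nil,
    and_true, not_false_eq_true] at hn
  obtain ⟨⟨ab, ap, aq, ae, ag⟩, ⟨bp, bq, be, bg⟩, ⟨pq, pe, pg⟩, ⟨qe, qg⟩, eg⟩ := hn
  -- the closed arc
  have hclos : closure (Ex T V {a, b}) ⊆ (fun t : ℝ => pt V (u0 + t)) '' Icc 0 α := by
    have h1 : IsClosed ((fun t : ℝ => pt V (u0 + t)) '' Icc 0 α) :=
      (isCompact_Icc.image ((continuous_pt V).comp (continuous_const_add u0))).isClosed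
    refine closure_minimal (fun y hy => ?_) h1
    obtain ⟨t, ht, hyt⟩ := honly y hy.1 (ex_self hy)
    exact ⟨t, ⟨ht.1.le, ht.2.le⟩, hyt.symm⟩
  have hclT : ∀ t ∈ Icc (0 : ℝ) α, ({a, b} : Set (Fin 6)) ⊆ T (pt V (u0 + t)) := by
    intro t ht i hi
    have h1 : IsClosed {t : ℝ | i ∈ T (pt V (u0 + t))} :=
      (h.closed i).preimage ((continuous_pt V).comp (continuous_const_add u0))
    have h2 : closure (Ioo (0 : ℝ) α) ⊆ {t : ℝ | i ∈ T (pt V (u0 + t))} :=
      closure_minimal (fun s hs => by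
        show i ∈ T (pt V (u0 + s))
        rw [harc s hs]; exact hi) h1
    rw [closure_Ioo hα0.ne] at h2
    exact h2 ht
  refine D.sum_four_flip hV C hα0 hα1 (fun t ht => ?_) hl hr (fun t ht hcl => ?_)
    (fun t ht hcl => ?_) (fun y hy h3 he hg => ?_) hN
  · rw [harc t ht]
    simp [Ne.symm ae, Ne.symm be, Ne.symm ag, Ne.symm bg]
  · obtain ⟨s, hs, hst⟩ := hclos hcl
    obtain ⟨n, hn⟩ := pt_inj460 hst
    have h1 : s = t + n * 6 := by linarith
    have b1 : (n : ℝ) * 6 < 0 := by linarith [hs.2, ht.1]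
    have b2 : -6 < (n : ℝ) * 6 := by linarith [hs.1, ht.2]
    have c1 : (n : ℝ) < 0 := by linarith
    have c2 : (-1 : ℝ) < n := by linarith
    have c3 : n < 0 := by exact_mod_cast c1
    have c4 : (-1 : ℤ) < n := by exact_mod_cast c2
    omega
  · have e1 : u0 + 3 + t = u0 + t + 3 := by ring
    rw [e1, pt_three] at hcl
    have h1 := pair_sub460 (hclT t ht)
    have h2 := pair_sub460 (sub_of_closure h hcl)
    exact h.anti hz (dist_pt V _) (h.sub _ h1.1) (h.sub _ h1.2) (h.sub _ h2.1) (h.sub _ h2.2)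
  · constructor
    · intro hcl
      have h1 := pair_sub460 (sub_of_closure h hcl)
      have := four_le h1.1 h1.2 he hg (by simp [ab, ae, ag, be, bg, eg])
      omega
    · intro hcl
      have h1 := pair_sub460 (sub_of_closure h hcl)
      have := four_le h1.1 h1.2 he hg (by simp [pq, pe, pg, qe, qg, eg])
      omega

end Vale.Agent.P032.Six
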