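import Vale.Agent.P032.H862.RemT1
import Vale.Agent.P032.H343.Par2
import Vale.Agent.P032.H695.JPar
import Vale.Agent.P032.H862.ChainT
import Vale.Agent.P032.H98.ChainE

/-!
# P032: the conclusions of the parity lemma at a chain centre with swap points and EE points

`T1p862 T z C y` : swap point: `T y` is the complement of the full pair `C` of `z`, one-pair, the pair
of the two free colours is real, near `y` and near its two apexes `S(z)` carries only free letters,
apexes of order at most three.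
`EEp862 T z C y` : a point without pair letters where only free colours come from the disc of `z`, the
points of its circle with both free colours are farther than one from `z` and its ends
(`E98.eep862` : the `E98`-neighbours are of this kind).
`JCh.parN862`, `JCh.pc862`, `JCh.pf862` : at a centre of a J-chain whose circle has besides the two
neighbours only such points with four colours.
-/

open Set Filter Topology Metric

noncomputable section

namespace Vale.Agent.P032.Six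

/-- swap point of the centre `z` with full pair `C` -/
structure T1p862 (T : ℂ → Set (Fin 6)) (z : ℂ) (C : Set (Fin 6)) (y : ℂ) : Prop where
  pal : T y = Cᶜ
  one : ¬ ∃ a b c d, DPt T y a b c d
  real : ∃ q, dist q y = 1 ∧ T q = (T z)ᶜ
  far : ∀ y', dist y' z = 1 → (y' = y ∨ dist y y' = 1) →
    y' ∉ closure {q | dist q z = 1 ∧ T q ⊆ T z}
  apex : ∀ y', dist y' z = 1 → dist y y' = 1 → (T y').ncard ≤ 3

/-- harmless point of the centre `z` with full pair `C` -/
structure EEp862 (T : ℂ → Set (Fin 6)) (z : ℂ) (C : Set (Fin 6)) (y : ℂ) : Prop where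
  away : ∀ u, dist u y = 1 → (T z)ᶜ ⊆ T u → 1 < dist u z ∧
    ∀ w, dist w z = 1 → T w = T z → 1 < dist u w
  nC : ¬ C ⊆ T y
  nA : ¬ T z \ C ⊆ T y
  inn : ∀ x, InnO T z y x → x ∉ T z

/-- the points of the circle with all colours outside `C` -/
def swp862 (T : ℂ → Set (Fin 6)) (z : ℂ) (C : Set (Fin 6)) : Set ℂ := {y | dist y z = 1 ∧ Cᶜ ⊆ T y}

theorem isCompact_swp862 {U : Fin 6 → Set ℂ} {T : ℂ → Set (Fin 6)} (h : Irr U T) (z : ℂ)
    (C : Set (Fin 6)) : IsCompact (swp862 T z C) := by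
  have h1 : swp862 T z C = sphere z 1 ∩ ⋂ i ∈ Cᶜ, {y | i ∈ T y} := by
    ext y
    simp only [swp862, mem_ofPred_eq, mem_inter_iff, mem_sphere, mem_iInter]
    rfl
  rw [h1]
  exact (isCompact_sphere z 1).inter_right (isClosed_biInter fun i _ => h.closed i)

end Vale.Agent.P032.Six

namespace Vale.Agent.P032.H862

open Vale.Agent.P032.Six Vale.Agent.P032.S5.H767 Vale.Agent.P032.H695 Vale.Agent.P032.H343

variable {U : Fin 6 → Set ℂ} {T : ℂ → Set (Fin 6)} {z : ℂ} {a b c d e f : Fin 6}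
variable {V : ℕ → ℂ} {ρ : ℕ → ℝ} {S : Set (Fin 6)} {C : ℕ → Set (Fin 6)}

/-- **parity at a chain centre for the recoloured palettes** -/
theorem _root_.Vale.Agent.P032.Six.JCh.parN862 (h : Irr U T) (J : JCh T V ρ S C) {i : ℕ}
    (hC : C (i + 1) = {a, b}) (hz : DPt T (V (i + 1)) a b c d) (hnd : [a, b, c, d, e, f].Nodup)
    (hw : ∀ q, dist q (V (i + 1)) = 1 → 4 ≤ (T q).ncard → q = V i ∨ q = V (i + 2) ∨
      T1p862 T (V (i + 1)) (C (i + 1)) q ∨ EEp862 T (V (i + 1)) (C (i + 1)) q)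
    {m : Fin 6} (hme : m ≠ e) (hmf : m ≠ f) :
    ∃ O, IsOpen O ∧ swp862 T (V (i + 1)) (C (i + 1)) ⊆ O ∧
      ParN T (V (i + 1)) e f m (swp862 T (V (i + 1)) (C (i + 1))) O := by
  have hpi := Real.pi_pos
  have Cc := ctr_of h hz hnd
  have hS : S = {a, b, c, d} := by rw [← hz.pal]; exact (J.pal (i + 1)).symm
  have hn := hnd
  simp only [List.nodup_cons, List.mem_cons, List.not_mem_nil, or_false, not_or, List.nodup_nil,
    and_true, not_false_eq_true] at hn
  obtain ⟨⟨ab, ac, ad, ae, af⟩, ⟨bc, bd, be, bf⟩, ⟨cd, ce, cf⟩, ⟨de, df⟩, ef⟩ := hn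
  -- palettes
  have hcC : c ∈ (C (i + 1))ᶜ := by rw [hC]; simp [Ne.symm ac, Ne.symm bc]
  have hdC : d ∈ (C (i + 1))ᶜ := by rw [hC]; simp [Ne.symm ad, Ne.symm bd]
  have heC : e ∈ (C (i + 1))ᶜ := by rw [hC]; simp [Ne.symm ae, Ne.symm be]
  have hfC : f ∈ (C (i + 1))ᶜ := by rw [hC]; simp [Ne.symm af, Ne.symm bf]
  have heS : e ∉ S := by rw [hS]; simp [Ne.symm ae, Ne.symm be, Ne.symm ce, Ne.symm de]
  have hfS : f ∉ S := by rw [hS]; simp [Ne.symm af, Ne.symm bf, Ne.symm cf, Ne.symm df]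
  have hpl := J.pal (i + 1)
  have h4Y : ∀ y ∈ swp862 T (V (i + 1)) (C (i + 1)), 4 ≤ (T y).ncard := fun y hy =>
    four_le (hy.2 hcC) (hy.2 hdC) (hy.2 heC) (hy.2 hfC) (by simp [cd, ce, cf, de, df, ef])
  have hT1 : ∀ y ∈ swp862 T (V (i + 1)) (C (i + 1)), T1p862 T (V (i + 1)) (C (i + 1)) y := by
    intro y hy
    rcases hw y hy.1 (h4Y y hy) with h1 | h1 | h1 | h1
    · exact absurd (J.pal i ▸ (h1 ▸ hy.2 heC : e ∈ T (V i))) heS
    · exact absurd (J.pal (i + 2) ▸ (h1 ▸ hy.2 heC : e ∈ T (V (i + 2)))) heS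
    · exact h1
    · exact absurd (fun j hj => hy.2 hj.2) h1.nA
  have hExsub : ∀ P : Set (Fin 6), P ⊆ S → Ex T (V (i + 1)) P ⊆
      {q | dist q (V (i + 1)) = 1 ∧ T q ⊆ T (V (i + 1))} := by
    intro P hP q hq
    refine ⟨hq.1, ?_⟩
    rw [ex_self hq, hpl]
    exact hP
  have habS : ({a, b} : Set (Fin 6)) ⊆ S := by
    rw [hS]
    rintro x (rfl | hx)
    · simp
    · rw [mem_singleton_iff] at hx; subst hx; simp
  have hcdS : ({c, d} : Set (Fin 6)) ⊆ S := by
    rw [hS]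
    rintro x (rfl | hx)
    · simp
    · rw [mem_singleton_iff] at hx; subst hx; simp
  -- angles
  set m0 := min (ρ i) (ρ (i + 1)) with hm
  set L := max (ρ i) (ρ (i + 1)) - min (ρ i) (ρ (i + 1)) with hL
  have hL0 : 0 ≤ L := by rw [hL]; linarith [min_le_max (a := ρ i) (b := ρ (i + 1))]
  have hL1 : L ≤ Real.pi / 3 := by
    have h1 := J.rods.le i
    rw [hL, max_sub_min_eq_abs']
    rwa [abs_sub_comm]
  have hpt : ∀ t : ℝ, pt (V (i + 1)) ((m0 + (i + 1 : ℕ) * Real.pi) / (Real.pi / 3) + t) =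
      arcPt V i (m0 + t * (Real.pi / 3)) := by
    intro t
    rw [arcPt_eq]
    congr 1
    field_simp
    ring
  have hmem : ∀ t ∈ Icc (0 : ℝ) (L / (Real.pi / 3)), m0 + t * (Real.pi / 3) ∈
      uIcc (ρ i) (ρ (i + 1)) := by
    intro t ht
    have h1 : t * (Real.pi / 3) ≤ L := by
      have := ht.2
      rwa [le_div_iff₀ (by positivity)] at this
    have h2 : 0 ≤ t * (Real.pi / 3) := mul_nonneg ht.1 (by positivity)
    show _ ∈ Icc (min (ρ i) (ρ (i + 1))) (max (ρ i) (ρ (i + 1)))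
    constructor
    · rw [← hm]; linarith
    · rw [← hm] at hL; linarith
  have habT : ∀ t ∈ Icc (0 : ℝ) (L / (Real.pi / 3)),
      ({a, b} : Set (Fin 6)) ⊆ T (arcPt V i (m0 + t * (Real.pi / 3))) := by
    intro t ht
    rcases T_end J i (hmem t ht) with h1 | h1
    · rw [h1, hC]
    · rw [h1]; exact habS
  have hanti : ∀ t ∈ Icc (0 : ℝ) (L / (Real.pi / 3)),
      c ∈ T (2 * V (i + 1) - arcPt V i (m0 + t * (Real.pi / 3))) →
      d ∈ T (2 * V (i + 1) - arcPt V i (m0 + t * (Real.pi / 3))) → False := by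
    intro t ht hc hd
    have h1 := habT t ht
    have h3 : dist (arcPt V i (m0 + t * (Real.pi / 3))) (V (i + 1)) = 1 := by
      rw [← hpt]; exact dist_pt _ _
    exact h.anti hz h3 (h.sub _ (h1 (Or.inl rfl))) (h.sub _ (h1 (Or.inr rfl)))
      (h.sub _ hc) (h.sub _ hd)
  have e1 : ∀ t : ℝ, (m0 + (i + 1 : ℕ) * Real.pi) / (Real.pi / 3) + 3 + t =
      (m0 + (i + 1 : ℕ) * Real.pi) / (Real.pi / 3) + t + 3 := fun t => by ring
  refine Ctr.par2 Cc (u0 := (m0 + (i + 1 : ℕ) * Real.pi) / (Real.pi / 3)) (α := L / (Real.pi / 3))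
    (by positivity) (by rw [div_le_one (by positivity)]; exact hL1) (fun t ht => ?_)
    (fun t ht hcl => ?_) (fun t ht hcl => ?_) (isCompact_swp862 h _ _).isClosed
    (fun y hy => hy.1) (fun y hy y' hy' hyy => ?_) (fun y hy y' hy' hyy => ?_)
    (fun t ht hy => ?_) (fun htr y y' hy hy' hyy hy2 hy2' hsw => ?_) hme hmf
  · rw [hpt]
    rcases T_end J i (hmem t ht) with h1 | h1
    · rw [h1, hC]
      constructor
      · simp [Ne.symm ae, Ne.symm be]
      · simp [Ne.symm af, Ne.symm bf]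
    · rw [h1]; exact ⟨heS, hfS⟩
  · rw [← hC] at hcl
    obtain ⟨θ, hθ, hq⟩ := closure_ex J i hcl
    rw [hpt] at hq
    unfold arcPt at hq
    have h1 : cis (m0 + t * (Real.pi / 3)) = cis θ := by
      have h2 := add_left_cancel hq
      have h3 : ((-1 : ℂ)) ^ (i + 1) ≠ 0 := pow_ne_zero _ (by norm_num)
      exact mul_left_cancel₀ h3 h2
    obtain ⟨n, hn⟩ := cis_eq h1
    have hθ' : θ ∈ Icc (min (ρ i) (ρ (i + 1))) (max (ρ i) (ρ (i + 1))) := hθ
    have b1 : L < t * (Real.pi / 3) := by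
      have := ht.1
      rwa [div_lt_iff₀ (by positivity)] at this
    have b2 : t * (Real.pi / 3) < 2 * Real.pi := by nlinarith [ht.2]
    rw [← hm] at hθ' hL
    have b3 : 0 < (n : ℝ) * (2 * Real.pi) := by linarith [hθ'.2]
    have b4 : (n : ℝ) * (2 * Real.pi) < 2 * Real.pi := by linarith [hθ'.1]
    have c1 : (0 : ℝ) < n := by
      by_contra hc
      have : (n : ℝ) * (2 * Real.pi) ≤ 0 := mul_nonpos_of_nonpos_of_nonneg (not_lt.1 hc)
        (by positivity)
      linarith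
    have c2 : (n : ℝ) < 1 := by
      by_contra hc
      have : 1 * (2 * Real.pi) ≤ (n : ℝ) * (2 * Real.pi) :=
        mul_le_mul_of_nonneg_right (not_lt.1 hc) (by positivity)
      linarith
    have c3 : (0 : ℤ) < n := by exact_mod_cast c1
    have c4 : n < (1 : ℤ) := by exact_mod_cast c2
    omega
  · rw [e1, pt_three, hpt] at hcl
    have h2 := sub_of_closure h hcl
    exact hanti t ht (h2 (Or.inl rfl)) (h2 (Or.inr rfl))
  · have h1 := (hT1 y hy).far y' hy' (hyy.imp id id)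
    exact ⟨fun h2 => h1 (closure_mono (hExsub _ habS) h2),
      fun h2 => h1 (closure_mono (hExsub _ hcdS) h2)⟩
  · have h1 := (hT1 y hy).apex y' hy'.1 hyy
    have h2 := h4Y y' hy'
    omega
  · rw [e1, pt_three, hpt] at hy
    exact hanti t ht (hy.2 hcC) (hy.2 hdC)
  · -- swaps
    have hends : ∀ w, w ∉ closure (Ex T (V (i + 1)) {a, b}) → w ≠ V i ∧ w ≠ V (i + 2) := by
      have hcont := Vale.Agent.P032.H695.continuous_arcPt V i
      have hin : ∀ θ ∈ uIcc (ρ i) (ρ (i + 1)), arcPt V i θ ∈ closure (Ex T (V (i + 1)) {a, b}) := by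
        intro θ hθ
        have h1 : θ ∈ closure (uIoo (ρ i) (ρ (i + 1))) := by
          have h2 : closure (Ioo (min (ρ i) (ρ (i + 1))) (max (ρ i) (ρ (i + 1)))) =
              Icc (min (ρ i) (ρ (i + 1))) (max (ρ i) (ρ (i + 1))) := by
            refine closure_Ioo ?_
            intro h3
            have k1 := le_max_left (ρ i) (ρ (i + 1))
            have k2 := le_max_right (ρ i) (ρ (i + 1))
            have k3 := min_le_left (ρ i) (ρ (i + 1))
            have k4 := min_le_right (ρ i) (ρ (i + 1))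
            rw [← h3] at k1 k2
            exact J.rods.ne i (le_antisymm (k2.trans k3) (k1.trans k4))
          show θ ∈ closure (Ioo (min (ρ i) (ρ (i + 1))) (max (ρ i) (ρ (i + 1))))
          rw [h2]; exact hθ
        refine (hcont.closure_preimage_subset (Ex T (V (i + 1)) {a, b}))
          (closure_mono (fun s hs => ?_) h1)
        have h4 : T (arcPt V i s) = {a, b} := by rw [← hC]; exact J.arc i s hs
        have h5 : dist (arcPt V i s) (V (i + 1)) = 1 := by
          rw [arcPt_eq]; exact dist_pt _ _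
        exact h.arc_of_eq hz.ab (hpl ▸ habS (Or.inl rfl)) (hpl ▸ habS (Or.inr rfl)) h5 h4
      have e0 : arcPt V i (ρ i) = V i := by
        have h1 := J.rods.edge i
        unfold arcPt
        rw [h1, pow_succ]; ring
      have e2 : arcPt V i (ρ (i + 1)) = V (i + 2) := (J.rods.edge (i + 1)).symm
      intro w hw'
      constructor
      · rintro rfl
        exact hw' (e0 ▸ hin _ left_mem_uIcc)
      · rintro rfl
        exact hw' (e2 ▸ hin _ right_mem_uIcc)
    -- no swap partner of a harmless point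
    have hEE : ∀ w w', dist w' (V (i + 1)) = 1 → dist w w' = 1 →
        EEp862 T (V (i + 1)) (C (i + 1)) w → ¬ Swp T (V (i + 1)) a b c d e f w w' := by
      rintro w w' hw' hww hE ⟨l, n, hln, k1, k2, k3, k4⟩
      have key : ∀ l : Fin 4, w ∈ Lt T (V (i + 1)) a b c d e f l → l = 0 ∨ l = 1 := by
        intro l hl
        have hcol := Lt_col h hl
        have hl' : l = 0 ∨ l = 1 ∨ l = 2 ∨ l = 3 := by fin_cases l <;> decide
        rcases hl' with rfl | rfl | rfl | rfl
        · exact Or.inl rfl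
        · exact Or.inr rfl
        · exfalso
          apply hE.nC
          rw [hC]; exact hcol
        · exfalso
          apply hE.nA
          rintro j ⟨hj, hj'⟩
          rw [hpl, hS] at hj
          rw [hC] at hj'
          simp only [mem_insert_iff, mem_singleton_iff, not_or] at hj hj'
          rcases hj with hj | hj | hj | hj
          · exact absurd hj hj'.1
          · exact absurd hj hj'.2
          · exact hcol (Or.inl hj)
          · exact hcol (Or.inr hj)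
      have hef : e ∈ T w' ∧ f ∈ T w' := by
        rcases key l k1 with rfl | rfl <;> rcases key n k2 with rfl | rfl
        · exact absurd rfl hln
        · exact ⟨k3.2, k4.2⟩
        · exact ⟨k4.2, k3.2⟩
        · exact absurd rfl hln
      have h1 := (hE.away w' (by rw [dist_comm]; exact hww) fun j hj => by
        rcases Cc.miss hj with rfl | rfl
        · exact hef.1
        · exact hef.2).1
      linarith
    by_contra hcon
    push Not at hcon
    have k3 : ∀ w w', dist w (V (i + 1)) = 1 → dist w' (V (i + 1)) = 1 → dist w w' = 1 →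
        w ∉ closure (Ex T (V (i + 1)) {a, b}) → w ∉ swp862 T (V (i + 1)) (C (i + 1)) →
        Swp T (V (i + 1)) a b c d e f w w' → (T w).ncard ≤ 3 := by
      intro w w' hw1 hw2 hww hwc hwY hs
      by_contra hc
      rcases hw w hw1 (by omega) with h1 | h1 | h1 | h1
      · exact (hends w hwc).1 h1
      · exact (hends w hwc).2 h1
      · exact hwY ⟨hw1, h1.pal.ge⟩
      · exact hEE w w' hw2 hww h1 hs
    obtain ⟨l, n, hln, j1, j2, j3, j4⟩ := hsw
    exact Cc.noswap hln hyy (k3 y y' hy hy' hyy hy2 hcon.1 ⟨l, n, hln, j1, j2, j3, j4⟩)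
      (k3 y' y hy' hy (by rw [dist_comm]; exact hyy) hy2' hcon.2 ⟨l, n, hln, j3, j4, j1, j2⟩)
      j1 j2 j3 j4

/-- the data for the two conclusions -/
theorem data862 (h : Irr U T) (J : JCh T V ρ S C) {i : ℕ} (hef : e ≠ f) (he : e ∉ S) (hf : f ∉ S)
    (hw : ∀ q, dist q (V (i + 1)) = 1 → 4 ≤ (T q).ncard → q = V i ∨ q = V (i + 2) ∨
      T1p862 T (V (i + 1)) (C (i + 1)) q ∨ EEp862 T (V (i + 1)) (C (i + 1)) q) :
    ∃ m O, m ≠ e ∧ m ≠ f ∧ IsOpen O ∧ swp862 T (V (i + 1)) (C (i + 1)) ⊆ O ∧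
      ParN T (V (i + 1)) e f m (swp862 T (V (i + 1)) (C (i + 1))) O ∧
      (∀ y ∈ swp862 T (V (i + 1)) (C (i + 1)), 4 ≤ (T y).ncard) ∧
      (∀ y ∈ swp862 T (V (i + 1)) (C (i + 1)), ∃ q, dist q y = 1 ∧ T q ⊆ {e, f}) ∧
      ∀ u x, dist u (V (i + 1)) = 1 → e ∈ T u → f ∈ T u → x ≠ e → x ≠ f →
        InnO T (V (i + 1)) u x → u ∉ swp862 T (V (i + 1)) (C (i + 1)) → (T u).ncard ≤ 3 := by
  obtain ⟨a, b, c, d, hC, hz⟩ := J.dpt (i + 1)
  have hpl := J.pal (i + 1)
  have hS : S = {a, b, c, d} := by rw [← hz.pal]; exact hpl.symm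
  have he' := he
  have hf' := hf
  rw [hS] at he' hf'
  simp only [mem_insert_iff, mem_singleton_iff, not_or] at he' hf'
  obtain ⟨ea, eb, ec, ed⟩ := he'
  obtain ⟨fa, fb, fc, fd⟩ := hf'
  have hnd : [a, b, c, d, e, f].Nodup := by
    have := hz.ab
    have := hz.ac
    have := hz.ad
    have := hz.bc
    have := hz.bd
    have := hz.cd
    simp only [List.nodup_cons, List.mem_cons, List.not_mem_nil, or_false, not_or, List.nodup_nil,
      and_true, not_false_eq_true]
    refine ⟨⟨?_, ?_, ?_, ?_, ?_⟩, ⟨?_, ?_, ?_, ?_⟩, ⟨?_, ?_, ?_⟩, ⟨?_, ?_⟩, ?_⟩ <;>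
      first | assumption | (exact Ne.symm (by assumption))
  have Cc := ctr_of h hz hnd
  have hScomp : (T (V (i + 1)))ᶜ ⊆ {e, f} := by
    intro j hj
    rcases Cc.miss hj with rfl | rfl
    · exact Or.inl rfl
    · exact Or.inr rfl
  have hcC : c ∈ (C (i + 1))ᶜ := by rw [hC]; simp [hz.ac.symm, hz.bc.symm]
  have hdC : d ∈ (C (i + 1))ᶜ := by rw [hC]; simp [hz.ad.symm, hz.bd.symm]
  have heC : e ∈ (C (i + 1))ᶜ := by rw [hC]; simp [ea, eb]
  have hfC : f ∈ (C (i + 1))ᶜ := by rw [hC]; simp [fa, fb]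
  have h4Y : ∀ y ∈ swp862 T (V (i + 1)) (C (i + 1)), 4 ≤ (T y).ncard := fun y hy =>
    four_le (hy.2 hcC) (hy.2 hdC) (hy.2 heC) (hy.2 hfC)
      (by simp [hz.cd, Ne.symm ec, Ne.symm fc, Ne.symm ed, Ne.symm fd, hef])
  obtain ⟨O, hO, hYO, hP⟩ := JCh.parN862 h J hC hz hnd hw (m := a) (Ne.symm ea) (Ne.symm fa)
  refine ⟨a, O, Ne.symm ea, Ne.symm fa, hO, hYO, hP, h4Y, fun y hy => ?_,
    fun u x hu heu hfu hxe hxf hin huY => ?_⟩
  · rcases hw y hy.1 (h4Y y hy) with h1 | h1 | h1 | h1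
    · exact absurd (J.pal i ▸ (h1 ▸ hy.2 heC : e ∈ T (V i))) he
    · exact absurd (J.pal (i + 2) ▸ (h1 ▸ hy.2 heC : e ∈ T (V (i + 2)))) he
    · obtain ⟨q, hq, hqT⟩ := h1.real
      exact ⟨q, hq, hqT.subset.trans hScomp⟩
    · exact absurd (fun j hj => hy.2 hj.2) h1.nA
  · by_contra hc
    rcases hw u hu (by omega) with h1 | h1 | h1 | h1
    · exact he (J.pal i ▸ (h1 ▸ heu : e ∈ T (V i)))
    · exact he (J.pal (i + 2) ▸ (h1 ▸ heu : e ∈ T (V (i + 2))))
    · exact huY ⟨hu, h1.pal.ge⟩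
    · have h2 := h1.inn x hin
      rcases hScomp h2 with h3 | h3
      · exact hxe h3
      · rw [mem_singleton_iff] at h3; exact hxf h3

/-- **the conclusion of the parity lemma at a chain centre** -/
theorem _root_.Vale.Agent.P032.Six.JCh.pc862 (h : Irr U T) (J : JCh T V ρ S C) {i : ℕ}
    (hef : e ≠ f) (he : e ∉ S) (hf : f ∉ S)
    (hw : ∀ q, dist q (V (i + 1)) = 1 → 4 ≤ (T q).ncard → q = V i ∨ q = V (i + 2) ∨
      T1p862 T (V (i + 1)) (C (i + 1)) q ∨ EEp862 T (V (i + 1)) (C (i + 1)) q) :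
    PC538 T (V (i + 1)) e f := by
  obtain ⟨m, O, hme, hmf, hO, hYO, hP, h4Y, hYr, h3⟩ := data862 h J hef he hf hw
  obtain ⟨u, x, hu, heu, hfu, hxe, hxf, hin, huY, hno⟩ :=
    h.par862 hP hme hmf (isCompact_swp862 h _ _) hO hYO h4Y hYr h.closed h.ne (fun q _ => rfl)
      (fun w hw => hw) fun w hw => hw
  have hu3 : dist u (V (i + 1)) = 1 → (T u).ncard ≤ 3 := fun h1 =>
    h3 u x h1 heu hfu hxe hxf hin huY
  refine ⟨u, x, hu, hu3, heu, hfu, hxe, hxf, hin, fun g hg hgT => ?_⟩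
  obtain ⟨k1, k2⟩ := hno g hg hgT
  have := hu3 k1
  omega

/-- **the conclusion of the parity lemma with filling at a chain centre** -/
theorem _root_.Vale.Agent.P032.Six.JCh.pf862 (h : Irr U T) (J : JCh T V ρ S C) {i : ℕ}
    (hef : e ≠ f) (he : e ∉ S) (hf : f ∉ S)
    (hw : ∀ q, dist q (V (i + 1)) = 1 → 4 ≤ (T q).ncard → q = V i ∨ q = V (i + 2) ∨
      T1p862 T (V (i + 1)) (C (i + 1)) q ∨ EEp862 T (V (i + 1)) (C (i + 1)) q) :
    PF538 T (V (i + 1)) e f := by
  obtain ⟨m, O, hme, hmf, hO, hYO, hP, h4Y, hYr, h3⟩ := data862 h J hef he hf hw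
  intro a W Z hW hzW hZ hZT hae haf
  obtain ⟨u, x, hu, heu, hfu, -, hxe, hxf, hin, huY, hout, hno⟩ :=
    h.par_fill862 hW hzW hP hme hmf (isCompact_swp862 h _ _) hO hYO h4Y hYr hZ hZT hae haf
  have hu3 : dist u (V (i + 1)) = 1 → (T u).ncard ≤ 3 := fun h1 =>
    h3 u x h1 heu hfu hxe hxf hin huY
  refine ⟨u, x, hu, hu3, heu, hfu, hxe, hxf, hin, hout, fun g hg hgT => ?_⟩
  obtain ⟨k1, k2⟩ := hno g hg hgT
  have := hu3 k1
  omega

/-- **no J-chains with swap points and harmless points** -/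
theorem _root_.Vale.Agent.P032.Six.JCh.false862 (J : JCh T V ρ S C) (h : Irr U T)
    (hmin : ∀ z, 4 ≤ (T z).ncard → ∀ s, s ⊆ T z → s ≠ T z →
      ¬ ∀ᶠ w in 𝓝 z, ∃ i ∈ s, w ∈ U i ∨ (w ∈ XX U ∧ i ∈ Pal U w))
    (h4 : ∀ z, (T z).ncard ≤ 4)
    (hF : ∀ z, (∃ a b c d, DPt T z a b c d) → Full T z) (hef : e ≠ f) (he : e ∉ S) (hf : f ∉ S)
    (hcov : ∀ i, i = e ∨ i = f ∨ i ∈ S)
    (hw : ∀ i q, dist q (V (i + 1)) = 1 → 4 ≤ (T q).ncard → q = V i ∨ q = V (i + 2) ∨
      T1p862 T (V (i + 1)) (C (i + 1)) q ∨ EEp862 T (V (i + 1)) (C (i + 1)) q)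
    (hE : ∀ R : ℝ, (range V ∩ closedBall 0 R).Finite) : False := by
  have hCS : ∀ i, C i ⊆ S := by
    intro i
    obtain ⟨a, b, c, d, hC, hz⟩ := J.dpt i
    rw [hC, ← J.pal i, hz.pal]
    rintro x (rfl | hx)
    · simp
    · rw [mem_singleton_iff] at hx; subst hx; simp
  refine J.false862a h hmin h4 hF (fun i q hq hq4 => ?_) hef he hf hcov hE
    (fun i => J.pc862 h hef he hf (i := i + 1) (hw (i + 1))) (J.pf862 h hef he hf (i := 1) (hw 1))
  rcases hw i q hq hq4 with h1 | h1 | h1 | h1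
  · left; rw [h1]; exact J.pal i
  · left; rw [h1]; exact J.pal (i + 2)
  · right; left
    refine ⟨?_, h1.one⟩
    rw [h1.pal]
    ext j
    constructor
    · intro hj
      by_cases hjS : j ∈ S
      · exact Or.inr ⟨hjS, hj⟩
      · exact Or.inl hjS
    · rintro (hj | hj)
      · exact fun h2 => hj (hCS _ h2)
      · exact hj.2
  · right; right
    intro u hu heu hfu
    refine h1.away u hu fun j hj => ?_
    rw [J.pal] at hj
    rcases hcov j with rfl | rfl | h2
    · exact heu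
    · exact hfu
    · exact absurd h2 hj

/-- **neighbours with one colour of each pair are harmless** -/
theorem _root_.Vale.Agent.P032.Six.E98.eep862 (h : Irr U T)
    (hmin : ∀ z, 4 ≤ (T z).ncard → ∀ s, s ⊆ T z → s ≠ T z →
      ¬ ∀ᶠ w in 𝓝 z, ∃ i ∈ s, w ∈ U i ∨ (w ∈ XX U ∧ i ∈ Pal U w))
    {y : ℂ} (E : E98 T z y) (hyz : dist y z = 1) (hz : Full T z) (hy : Full T y)
    (hD : DPt T z a b c d) : EEp862 T z {a, b} y := by
  obtain ⟨p, r, i, j, l, o, O⟩ := E.out h hmin (by rw [dist_comm]; exact hyz) hy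
  obtain ⟨p', r', i', j', l', o', O'⟩ := E.symm.out h hmin hyz hz
  have E' := E
  obtain ⟨a1, b1, c1, d1, e1, f1, hz1, hy1, he1, hf1⟩ := E'
  have hb : b1 ∉ T y := E98.notMem98 hz1 hy1 he1 hf1
  have hd : d1 ∉ T y := E98.notMem98' hz1 hy1 he1 hf1
  have hb1 : b1 ∈ T z := by rw [hz1.pal]; simp
  have hd1 : d1 ∈ T z := by rw [hz1.pal]; simp
  have hpair := h.pair_alt98 hmin hz1 hD
  refine ⟨fun u hu huT => ?_, fun hC => ?_, fun hA => ?_, fun x hx => ?_⟩
  · have h1 : u = p ∨ u = r := O.only h hu hy1.bd (huT he1) (huT hf1)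
      (by rw [hy1.pal]; simp) (by rw [hy1.pal]; simp) he1 hf1
    refine ⟨O.far O' h1 (Or.inl rfl), fun w hw hwT => ?_⟩
    exact O.far O' h1 (Or.inr (O'.ends w hw hwT))
  · rcases hpair with h1 | h1
    · exact hb (hC (by rw [h1]; simp))
    · exact hd (hC (by rw [h1]; simp))
  · rcases hpair with h1 | h1
    · refine hd (hA ⟨hd1, ?_⟩)
      rw [h1]
      rintro (h2 | h2)
      · exact hz1.ad h2.symm
      · exact hz1.bd (by rw [mem_singleton_iff] at h2; exact h2.symm)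
    · refine hb (hA ⟨hb1, ?_⟩)
      rw [h1]
      rintro (h2 | h2)
      · exact hz1.bc h2
      · exact hz1.bd (by rw [mem_singleton_iff] at h2; exact h2)
  · rcases O.inn hx with rfl | rfl
    · exact O.lz
    · exact O.oz

end Vale.Agent.P032.H862
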