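import Vale.Agent.P032.H862.Flip
import Vale.Agent.P032.H862.ParT1

/-!
# P032, X-B (B3): which points of the circle are ordinary or flip points

`ord_safe862` : 460's `Safe` points (J, K, K_R, EE, ...) are ordinary if not both free letters and a
whole pair of the centre are in the palette.
`flp_T1_862` : one-pair swap points (`T1p862`) are flip points; `flp_of862` : the general form.
`DSt.sum_four_links862` : the four-term sum with such points.
-/

open Set Filter Topology Metric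

noncomputable section

namespace Vale.Agent.P032.H862

open Vale.Agent.P032.Six Vale.Agent.P032.S5.H767 Vale.Agent.P032.H695 Vale.Agent.P032.Carr
open Vale.Agent.P032.H460

variable {U : Fin 6 → Set ℂ} {T : ℂ → Set (Fin 6)} {f : ℂ → Set (Fin 6)}
variable {V : ℂ} {a b p q e g : Fin 6}

/-- points with the palette of the centre are ordinary -/
theorem ord_same862 (hd : DF U T) (F : ChF T f) (C : Ctr U T V a b p q e g) {y : ℂ}
    (h4 : 4 ≤ (T y).ncard) (hT : T y = T V) : Ord862 T f V a b p q e g y := by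
  have h := C.irr
  have hn := C.nd
  simp only [List.nodup_cons, List.mem_cons, List.not_mem_nil, or_false, not_or, List.nodup_nil,
    and_true, not_false_eq_true] at hn
  obtain ⟨⟨ab, ap, aq, ae, ag⟩, ⟨bp, bq, be, bg⟩, ⟨pq, pe, pg⟩, ⟨qe, qg⟩, eg⟩ := hn
  have hey : e ∉ T y := by
    rw [hT, C.pal]; simp [Ne.symm ae, Ne.symm be, Ne.symm pe, Ne.symm qe]
  have hgy : g ∉ T y := by
    rw [hT, C.pal]; simp [Ne.symm ag, Ne.symm bg, Ne.symm pg, Ne.symm qg]
  refine ⟨fun he => absurd he hey, ?_, fun hf => ?_⟩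
  · rintro hy2 y' - - - ⟨l, m, hlm, k1, k2, -, -⟩
    have key : ∀ l : Fin 4, y ∈ Lt T V a b p q e g l → l = 3 := by
      intro l hl
      have hc := Lt_col h hl
      fin_cases l
      · exact absurd (hc rfl) hey
      · exact absurd (hc rfl) hgy
      · exact absurd hl hy2
      · rfl
    exact hlm ((key l k1).trans (key m k2).symm)
  · have h1 := (F.circle hd h4).2.1
    rw [hf] at h1
    exact hey (h1 (Or.inl rfl))

/-- two-pair points with apexes of order at most three are ordinary if neither pair is the pair of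
the free letters -/
theorem ord_dpt862 (F : ChF T f) (C : Ctr U T V a b p q e g) {y : ℂ} (hy : dist y V = 1)
    {r s t u : Fin 6} (hD : DPt T y r s t u) (h1 : ({e, g} : Set (Fin 6)) ≠ {r, s})
    (h2 : ({e, g} : Set (Fin 6)) ≠ {t, u})
    (h3 : ∀ x, dist x V = 1 → dist x y = 1 → (T x).ncard ≤ 3)
    (h4 : e ∈ T y → g ∈ T y → ¬ ({a, b} : Set (Fin 6)) ⊆ T y ∧ ¬ ({p, q} : Set (Fin 6)) ⊆ T y) :
    Ord862 T f V a b p q e g y := by
  have h := C.irr
  refine ⟨fun he hg => ⟨fun hc => (h4 he hg).1 (sub_of_closure h hc),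
    fun hc => (h4 he hg).2 (sub_of_closure h hc)⟩, fun _ y' hy' hyy _ => ?_, fun hf => ?_⟩
  · exact noswp460 C hy hD h1 h2 hy' (by rw [dist_comm]; exact hyy)
      (h3 y' hy' (by rw [dist_comm]; exact hyy))
  · rcases F.two y r s t u hD with h5 | h5
    · exact h1 (hf.symm.trans h5)
    · exact h2 (hf.symm.trans h5)

/-- 460's `Safe` points are ordinary -/
theorem ord_safe862 (hd : DF U T) (F : ChF T f) (C : Ctr U T V a b p q e g) {y : ℂ}
    (hy : dist y V = 1) (hy4 : 4 ≤ (T y).ncard) (hS : Safe T V e g y)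
    (h4 : e ∈ T y → g ∈ T y → ¬ ({a, b} : Set (Fin 6)) ⊆ T y ∧ ¬ ({p, q} : Set (Fin 6)) ⊆ T y) :
    Ord862 T f V a b p q e g y := by
  rcases hS with h1 | ⟨⟨r, s, t, u, hD, h2, h3⟩, h5⟩
  · exact ord_same862 hd F C hy4 h1
  · exact ord_dpt862 F C hy hD h2 h3 h5 h4

/-- flip points: general form -/
theorem flp_of862 (h : Irr U T) (hz : DPt T V a b p q) {u0 α : ℝ} {y : ℂ}
    (hcl : ∀ t ∈ Icc (0 : ℝ) α, ({a, b} : Set (Fin 6)) ⊆ T (pt V (u0 + t)))
    (hf : f y = {e, g}) (hpq : ({p, q} : Set (Fin 6)) ⊆ T y)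
    (hfar : ∀ y', dist y' V = 1 → (y' = y ∨ dist y y' = 1) →
      y' ∉ closure (Ex T V {a, b}) ∧ y' ∉ closure (Ex T V {p, q}))
    (h3 : ∀ y', dist y' V = 1 → dist y y' = 1 → (T y').ncard ≤ 3) :
    Flp862 T f V a b p q e g u0 α y := by
  refine ⟨hf, hfar, h3, ?_⟩
  rintro t ht rfl
  have e1 : u0 + 3 + t = u0 + t + 3 := by ring
  rw [e1, pt_three] at hpq
  have h1 := pair_sub460 (hcl t ht)
  have h2 := pair_sub460 hpq
  exact h.anti hz (dist_pt V _) (h.sub _ h1.1) (h.sub _ h1.2) (h.sub _ h2.1) (h.sub _ h2.2)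

/-- one-pair swap points are flip points -/
theorem flp_T1_862 (hd : DF U T) (F : ChF T f) (hz : DPt T V a b p q)
    (hnd : [a, b, p, q, e, g].Nodup) {u0 α : ℝ} {y : ℂ}
    (hcl : ∀ t ∈ Icc (0 : ℝ) α, ({a, b} : Set (Fin 6)) ⊆ T (pt V (u0 + t)))
    (hy : T1p862 T V {a, b} y) : Flp862 T f V a b p q e g u0 α y := by
  have h := hd.irr
  have C := ctr_of h hz hnd
  have hn := hnd
  simp only [List.nodup_cons, List.mem_cons, List.not_mem_nil, or_false, not_or, List.nodup_nil,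
    and_true, not_false_eq_true] at hn
  obtain ⟨⟨ab, ap, aq, ae, ag⟩, ⟨bp, bq, be, bg⟩, ⟨pq, pe, pg⟩, ⟨qe, qg⟩, eg⟩ := hn
  have hp : p ∈ T y := by rw [hy.pal]; simp [Ne.symm ap, Ne.symm bp]
  have hq : q ∈ T y := by rw [hy.pal]; simp [Ne.symm aq, Ne.symm bq]
  have he : e ∈ T y := by rw [hy.pal]; simp [Ne.symm ae, Ne.symm be]
  have hg : g ∈ T y := by rw [hy.pal]; simp [Ne.symm ag, Ne.symm bg]
  have h4 : 4 ≤ (T y).ncard := four_le hp hq he hg (by simp [pq, pe, pg, qe, qg, eg])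
  have hcompl : (T V)ᶜ ⊆ {e, g} := by
    intro j hj
    rcases C.miss hj with rfl | rfl
    · exact Or.inl rfl
    · exact Or.inr rfl
  have hf : f y = {e, g} := by
    rcases hd.harm_or h4 with ⟨A, hA⟩ | ⟨r, s, t, u, hD⟩
    · rw [F.harm y A hA]
      obtain ⟨w, hw, hwT⟩ := hy.real
      have h5 : T w ⊆ {e, g} := by rw [hwT]; exact hcompl
      have h6 : T w ⊆ T y := by
        intro i hi
        rcases h5 hi with rfl | hi'
        · exact he
        · rw [mem_singleton_iff] at hi'; subst hi'; exact hg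
      have h7 := (hA.h1 w hw h6).trans h5
      refine Set.eq_of_subset_of_ncard_le h7 ?_ (Set.toFinite _)
      rw [hA.cardA, Set.ncard_pair eg]
    · exact absurd ⟨r, s, t, u, hD⟩ hy.one
  have hsub : ∀ P : Set (Fin 6), P ⊆ T V → Ex T V P ⊆ {w | dist w V = 1 ∧ T w ⊆ T V} := by
    intro P hP w hw
    exact ⟨hw.1, by rw [ex_self hw]; exact hP⟩
  have s1 : ({a, b} : Set (Fin 6)) ⊆ T V := by
    rw [hz.pal]
    rintro i (rfl | hi)
    · simp
    · rw [mem_singleton_iff] at hi; subst hi; simp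
  have s2 : ({p, q} : Set (Fin 6)) ⊆ T V := by
    rw [hz.pal]
    rintro i (rfl | hi)
    · simp
    · rw [mem_singleton_iff] at hi; subst hi; simp
  refine flp_of862 h hz hcl hf ?_ (fun y' hy' hyy => ?_) hy.apex
  · rintro i (rfl | hi)
    · exact hp
    · rw [mem_singleton_iff] at hi; subst hi; exact hq
  · have h1 := hy.far y' hy' hyy
    exact ⟨fun h2 => h1 (closure_mono (hsub _ s1) h2), fun h2 => h1 (closure_mono (hsub _ s2) h2)⟩

end Vale.Agent.P032.H862

namespace Vale.Agent.P032.Six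

open Vale.Agent.P032.S5.H767 Vale.Agent.P032.Carr Vale.Agent.P032.H460 Vale.Agent.P032.H695
open Vale.Agent.P032.H862

variable {U : Fin 6 → Set ℂ} {T : ℂ → Set (Fin 6)} {f : ℂ → Set (Fin 6)} {Z : Set ℂ} {c : ℂ}
  {R δ₀ : ℝ}

/-- **X-B (B3) with J, K, K_R, EE (`Safe`) and one-pair swap points (`T1p862`)** -/
theorem DSt.sum_four_links862 (D : DSt U T Z f c R δ₀) {V : ℂ} (hV : dist V c ≤ R - 1)
    {a b p q e g : Fin 6} (hz : DPt T V a b p q) (hnd : [a, b, p, q, e, g].Nodup)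
    {u0 α : ℝ} (hα0 : 0 < α) (hα1 : α ≤ 1) (harc : ∀ t ∈ Ioo (0 : ℝ) α, T (pt V (u0 + t)) = {a, b})
    (honly : ∀ y, dist y V = 1 → T y = {a, b} → ∃ t ∈ Ioo (0 : ℝ) α, y = pt V (u0 + t))
    (hl : PEnd T e g (pt V u0) (pt V (u0 - 1)))
    (hr : PEnd T e g (pt V (u0 + α)) (pt V (u0 + α + 1)))
    (hN : ∀ y, dist y V = 1 → 4 ≤ (T y).ncard →
      (Safe T V e g y ∧ (e ∈ T y → g ∈ T y → ¬ ({a, b} : Set (Fin 6)) ⊆ T y ∧
        ¬ ({p, q} : Set (Fin 6)) ⊆ T y)) ∨ T1p862 T V {a, b} y) :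
    lamT T Z f δ₀ a V e g + lamT T Z f δ₀ b V e g + lamT T Z f δ₀ p V e g +
      lamT T Z f δ₀ q V e g = 1 := by
  have h := D.df.irr
  have C := ctr_of h hz hnd
  have hclT : ∀ t ∈ Icc (0 : ℝ) α, ({a, b} : Set (Fin 6)) ⊆ T (pt V (u0 + t)) := by
    intro t ht i hi
    have h1 : IsClosed {t : ℝ | i ∈ T (pt V (u0 + t))} :=
      (h.closed i).preimage ((continuous_pt V).comp (continuous_const_add u0))
    have h2 : closure (Ioo (0 : ℝ) α) ⊆ {t : ℝ | i ∈ T (pt V (u0 + t))} :=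
      closure_minimal (fun s hs => by
        show i ∈ T (pt V (u0 + s))
        rw [harc s hs]; exact hi) h1
    rw [closure_Ioo hα0.ne] at h2
    exact h2 ht
  refine D.sum_four_quasiX hV hz hnd hα0 hα1 harc honly hl hr fun y hy h4 => ?_
  rcases hN y hy h4 with ⟨h1, h2⟩ | h1
  · exact Or.inl (ord_safe862 D.df D.ch C hy h4 h1 h2)
  · exact Or.inr (flp_T1_862 D.df D.ch hz hnd hclT h1)

end Vale.Agent.P032.Six
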