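import Vale.Agent.P032.H961.DH

/-!
# P032: a vertex with one exact arc of a pair and an order-four point `y` off it

`coreZ862` : `V` two-pair with the pairs `{a, b}`, `{c, d}` and the free colours `e`, `f`, no point of
order `≤ 3` in the closed exact arcs has `f`, at most `y` and `y2` of order `≥ 4` on `S(V)`, at most `V`
and `y1` on `S(y)`, and every point of `S(y)` has one of the colours `e`, `a`, `b`.  Then `False`.

The plain ends of the `ab`-arcs are all in one direction (partners of order four), so there is one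
`ab`-arc, of length at most one; off the arc only `cd`, `e`, `f` with `f`, `cd` not meeting off `y`.
-/

open Set Filter Topology Metric

noncomputable section

namespace Vale.Agent.P032.H862

open Vale.Agent.P032.Six Vale.Agent.P032.S5.H767 Vale.Agent.P032.H564 Vale.Agent.P032.H961

/-! ### two steps from the middle of a path -/

section path

variable {Q : ℝ → Set (Fin 3)} {a b : ℝ}

theorem z0n862 (h : IntCov Q a b) (hm : ∀ s ∈ Ioo a b, ¬ (0 ∈ Q s ∧ 2 ∈ Q s)) {t : ℝ}
    (h1 : a < t) (h2 : t + 2 < b) (hQ : Q t ⊆ {1} ∨ Q (t + 2) ⊆ {1}) : False := by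
  obtain ⟨M, N, H⟩ := h.exHt (u := t) (v := t + 2) h1 (by linarith) h2
  have t0 : t ∈ Icc t (t + 2) := ⟨le_rfl, by linarith⟩
  have t2 : t + 2 ∈ Icc t (t + 2) := ⟨by linarith, le_rfl⟩
  have c1 := H.chain isPreconnected_Icc Subset.rfl
    (fun s hs => hm s ⟨by linarith [hs.1], by linarith [hs.2]⟩) _ t0 _ t2
  have h5 : ∀ s ∈ Icc t (t + 2), M s % 6 ≠ 5 := fun s hs => res02 fun hc =>
    hm s ⟨by linarith [hs.1], by linarith [hs.2]⟩ ⟨(H.mem s hs 0).2 hc.1, (H.mem s hs 2).2 hc.2⟩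
  have g0 := h5 _ t0
  have g2 := h5 _ t2
  have s1 := H.step t le_rfl (by linarith)
  have s2 := H.step (t + 1) (by linarith) (by linarith)
  rw [show t + 1 + 1 = t + 2 by ring] at s2
  rcases hQ with hQ | hQ
  · have r := H.r1 t0 hQ
    rcases lt_or_ge N 0 with hN | hN
    · omega
    · omega
  · have r := H.r1 t2 hQ
    rcases lt_or_ge N 0 with hN | hN
    · omega
    · omega

variable {l0 l1 l2 : Fin 3}

theorem z0_862 (h : IntCov Q a b) (h01 : l0 ≠ l1) (h12 : l1 ≠ l2) (h02 : l0 ≠ l2)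
    (hm : ∀ s ∈ Ioo a b, ¬ (l0 ∈ Q s ∧ l2 ∈ Q s)) {t : ℝ}
    (h1 : a < t) (h2 : t + 2 < b) (hQ : Q t ⊆ {l1} ∨ Q (t + 2) ⊆ {l1}) : False := by
  have hp := perm_eq h01 h12 h02
  refine z0n862 (h.comap _ (perm_surj h01 h12 h02)) (fun s hs hc => hm s hs ⟨hc.1, hc.2⟩) h1 h2 ?_
  rcases hQ with hQ | hQ
  · exact Or.inl fun i hi => hp.2.1 i (hQ hi)
  · exact Or.inr fun i hi => hp.2.1 i (hQ hi)

end path

variable {U : Fin 6 → Set ℂ} {T : ℂ → Set (Fin 6)} {V y y1 y2 : ℂ} {P : ℝ → ℂ}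
  {a b c d e f : Fin 6}

/-! ### the circle -/

/-- parameters near the parameter of a limit point -/
theorem clE862 (hC : Circ V P) {E : Set ℂ} (hE : ∀ x ∈ E, dist x V = 1) {t : ℝ}
    (ht : P t ∈ closure E) {ε : ℝ} (hε : 0 < ε) : ∃ s, |s - t| < ε ∧ P s ∈ E := by
  by_contra hcon
  push Not at hcon
  obtain ⟨δ, hδ0, hδ1, hδ2⟩ : ∃ δ : ℝ, 0 < δ ∧ δ ≤ ε ∧ δ ≤ 1 :=
    ⟨min ε 1, lt_min hε one_pos, min_le_left _ _, min_le_right _ _⟩
  have hK : IsCompact (P '' Icc (t + δ) (t + 6 - δ)) := isCompact_Icc.image hC.cont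
  have hsub : E ⊆ P '' Icc (t + δ) (t + 6 - δ) := by
    intro x hx
    obtain ⟨v, hv, hxv⟩ := hC.surj x (hE x hx) (t + 3)
    have hvE : P v ∈ E := hxv ▸ hx
    have h1 : t + δ ≤ v := by
      by_contra h1
      push Not at h1
      refine hcon v ?_ hvE
      rw [abs_lt]
      constructor <;> linarith [hv.1]
    have h2 : v ≤ t + 6 - δ := by
      by_contra h2
      push Not at h2
      refine hcon (v - 6) ?_ ?_
      · rw [abs_lt]
        constructor <;> linarith [hv.2]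
      · have h3 := hC.six (v - 6)
        rw [sub_add_cancel] at h3
        rw [← h3]
        exact hvE
    exact ⟨v, ⟨h1, h2⟩, hxv.symm⟩
  obtain ⟨v, hv, hvt⟩ := (hK.isClosed.closure_subset_iff.2 hsub) ht
  exact hC.inj t v (by linarith [hv.1]) (by linarith [hv.2]) hvt.symm

theorem openE862 (hC : Circ V P) {S : Set (Fin 6)} {t : ℝ} (ht : P t ∈ Ex T V S) :
    ∀ᶠ s in 𝓝 t, P s ∈ Ex T V S := by
  have h1 : Tendsto P (𝓝 t) (𝓝[sphere V 1] (P t)) :=
    tendsto_nhdsWithin_iff.2 ⟨hC.cont.continuousAt, Eventually.of_forall fun v => hC.dst v⟩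
  exact h1.eventually (ex_open ht)

/-- the labels off the `ab`-arcs on an interval without points of order four -/
theorem intZ862 (hP : Circ V P) (C : Ctr U T V a b c d e f) {u1 u2 : ℝ}
    (off : ∀ t ∈ Ioo u1 u2, P t ∉ closure (Ex T V {a, b}))
    (three : ∀ t ∈ Ioo u1 u2, (T (P t)).ncard ≤ 3) :
    IntCov (Qd T V a b c d e f P) u1 u2 where
  ne t ht := by
    obtain ⟨l, hl⟩ := C.cover (hP.dst t)
    have h2 : l ≠ 2 := by
      rintro rfl
      exact off t ht hl
    obtain ⟨l', hl'⟩ := mm_surj l h2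
    subst hl'
    exact ⟨l', hl⟩
  nu t ht := by
    by_contra hcon
    push Not at hcon
    have h0 : P t ∈ Lt T V a b c d e f (mm 0) := hcon 0
    have h1 : P t ∈ Lt T V a b c d e f (mm 1) := hcon 1
    have h2 : P t ∈ Lt T V a b c d e f (mm 2) := hcon 2
    rcases C.two (three t ht) h0 h1 h2 with h | h | h
    · exact absurd h (by decide)
    · exact absurd h (by decide)
    · exact absurd h (by decide)
  usc t _ := by
    have h1 : ∀ l : Fin 3, l ∉ Qd T V a b c d e f P t → ∀ᶠ s in 𝓝 t, l ∉ Qd T V a b c d e f P s :=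
      fun l hl => ((Lt_closed C.irr (mm l)).preimage hP.cont).isOpen_compl.mem_nhds hl
    have h2 : ∀ᶠ s in 𝓝 t, ∀ l : Fin 3, l ∉ Qd T V a b c d e f P t →
        l ∉ Qd T V a b c d e f P s := by
      rw [eventually_all]
      intro l
      by_cases hl : l ∈ Qd T V a b c d e f P t
      · exact Eventually.of_forall fun s k => absurd hl k
      · filter_upwards [h1 l hl] with s hs _
        exact hs
    filter_upwards [h2] with s hs l hl
    by_contra hcon
    exact hs l hcon hl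
  inc t h1 h2 := fun hs => inc_aux C (hP.dst t) (hP.dst (t + 1)) (hP.one t)
    (three t ⟨h1, by linarith⟩) (three (t + 1) ⟨by linarith, h2⟩)
    (off t ⟨h1, by linarith⟩) fun l hl => hs hl
  inc' t h1 h2 := fun hs => inc_aux C (hP.dst (t + 1)) (hP.dst t)
    (by rw [dist_comm]; exact hP.one t) (three (t + 1) ⟨by linarith, h2⟩)
    (three t ⟨h1, by linarith⟩) (off (t + 1) ⟨by linarith, h2⟩) fun l hl => hs hl

/-- **the core** -/
theorem coreZ862 (h : Irr U T) (hV : DPt T V a b c d) (hnd : [a, b, c, d, e, f].Nodup)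
    (hA : ∀ p ∈ closure (Ex T V {a, b}), (T p).ncard ≤ 3 → f ∉ T p)
    (hC : ∀ p ∈ closure (Ex T V {c, d}), (T p).ncard ≤ 3 → f ∉ T p)
    (hy : dist y V = 1) (hy4 : 4 ≤ (T y).ncard) (hyA : y ∉ closure (Ex T V {a, b}))
    (n3V : ∀ p, dist p V = 1 → 4 ≤ (T p).ncard → p = y ∨ p = y2)
    (n3y : ∀ q, dist q y = 1 → 4 ≤ (T q).ncard → q = V ∨ q = y1)
    (hcov : ∀ q, dist q y = 1 → e ∈ T q ∨ a ∈ T q ∨ b ∈ T q) : False := by
  have hn := hnd
  simp only [List.nodup_cons, List.mem_cons, List.not_mem_nil, or_false, not_or, List.nodup_nil,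
    and_true, not_false_eq_true] at hn
  obtain ⟨⟨ab, ac, ad, ae, af⟩, ⟨bc, bd, be, bf⟩, ⟨cd, ce, cf⟩, ⟨de, df⟩, ef⟩ := hn
  have C := ctr_of_dpt h hV hnd
  have heV : e ∉ T V := by
    rw [hV.pal]
    simp [Ne.symm ae, Ne.symm be, Ne.symm ce, Ne.symm de]
  obtain ⟨θ, -, hθ⟩ := exists_pt hy 0
  obtain ⟨P, hPd⟩ : ∃ P : ℝ → ℂ, P = fun u => pt V (θ + 1 * u) := ⟨_, rfl⟩
  have hP : Circ V P := by rw [hPd]; exact circ_pt V θ (Or.inl rfl)
  have hP0 : P 0 = y := by
    rw [hPd, hθ]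
    simp
  have hP6 : P 6 = y := by
    have := hP.six 0
    rwa [zero_add, hP0] at this
  -- the closed set of parameters
  have hcl : IsClosed {t : ℝ | P t ∈ closure (Ex T V {a, b})} := isClosed_closure.preimage hP.cont
  have h0 : P 0 ∉ closure (Ex T V {a, b}) := by rw [hP0]; exact hyA
  have h6 : P 6 ∉ closure (Ex T V {a, b}) := by rw [hP6]; exact hyA
  have hne : ({t : ℝ | P t ∈ closure (Ex T V {a, b})} ∩ Icc 0 6).Nonempty := by
    obtain ⟨p, hp⟩ := hV.arc1
    obtain ⟨v, hv, hpv⟩ := hP.surj p hp.1 3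
    refine ⟨v, ?_, ?_⟩
    · show P v ∈ closure (Ex T V {a, b})
      rw [← hpv]
      exact subset_closure ⟨hp.1, hp.2⟩
    · constructor <;> linarith [hv.1, hv.2]
  have hcp : IsCompact ({t : ℝ | P t ∈ closure (Ex T V {a, b})} ∩ Icc 0 6) :=
    isCompact_Icc.inter_left hcl
  obtain ⟨s, hs, hsl⟩ := hcp.exists_isLeast hne
  obtain ⟨r, hr, hrg⟩ := hcp.exists_isGreatest hne
  have hsS : P s ∈ closure (Ex T V {a, b}) := hs.1
  have hrS : P r ∈ closure (Ex T V {a, b}) := hr.1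
  have hs0 : 0 < s := lt_of_le_of_ne hs.2.1 (by rintro rfl; exact h0 hsS)
  have hr6 : r < 6 := lt_of_le_of_ne hr.2.2 (by rintro rfl; exact h6 hrS)
  have hsr : s ≤ r := hsl hr
  -- below `s` and beyond `r`
  have below : ∀ t ∈ Ico 0 s, P t ∉ closure (Ex T V {a, b}) := by
    intro t ht hc
    have := hsl (show t ∈ _ ∩ Icc (0 : ℝ) 6 from ⟨hc, ht.1, by linarith [ht.2]⟩)
    linarith [ht.2]
  have beyond : ∀ t ∈ Ioc r 6, P t ∉ closure (Ex T V {a, b}) := by
    intro t ht hc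
    have := hrg (show t ∈ _ ∩ Icc (0 : ℝ) 6 from ⟨hc, by linarith [ht.1], ht.2⟩)
    linarith [ht.1]
  -- boundary points
  have bd : ∀ t ∈ Ioo (0 : ℝ) 6, P t ∈ closure (Ex T V {a, b}) →
      (∃ᶠ u in 𝓝 t, P u ∉ closure (Ex T V {a, b})) →
      P t = y2 ∨ ((T (P t)).ncard ≤ 3 ∧ e ∈ T (P t)) := by
    intro t ht htS hfr
    by_cases h4 : 4 ≤ (T (P t)).ncard
    · rcases n3V _ (hP.dst t) h4 with h5 | h5
      · exact absurd (hP0.trans h5.symm) (hP.inj 0 t ht.1 (by linarith [ht.2]))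
      · exact Or.inl h5
    · right
      have h3 : (T (P t)).ncard ≤ 3 := by omega
      refine ⟨h3, ?_⟩
      by_contra he
      have hft := hA _ htS h3
      have hcd : P t ∈ closure (Ex T V {c, d}) := by
        by_contra hcon
        have h5 : ∀ᶠ u in 𝓝 t, P u ∉ closure (Ex T V {c, d}) :=
          (isClosed_closure.preimage hP.cont).isOpen_compl.mem_nhds hcon
        obtain ⟨u, h6, h7, h8⟩ := (hfr.and_eventually
          (h5.and (hP.cont.continuousAt.eventually (h.nhd (P t))))).exists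
        obtain ⟨l, hl⟩ := C.cover (hP.dst u)
        have h9 := Lt_col h hl
        fin_cases l
        · exact he (h8 (h9 rfl))
        · exact hft (h8 (h9 rfl))
        · exact h6 hl
        · exact h7 hl
      exact C.noAC h3 (show P t ∈ Lt T V a b c d e f 2 from htS)
        (show P t ∈ Lt T V a b c d e f 3 from hcd)
  have pl : ∀ t, P t ∈ closure (Ex T V {a, b}) → (T (P t)).ncard ≤ 3 → e ∈ T (P t) →
      P t + y - V = y1 ∧ 4 ≤ (T y1).ncard := by
    intro t htS h3 he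
    obtain ⟨h4, h5⟩ := meet4 h hV.swap hy hy4 heV hcov htS he h3
    rcases n3y _ (by rw [dist_partner']; exact hP.dst t) h4 with h6 | h6
    · exact absurd h6 h5
    · exact ⟨h6, h6 ▸ h4⟩
  have uniq : ∀ x x', x < x' → x' < x + 6 → P x ∈ closure (Ex T V {a, b}) →
      P x' ∈ closure (Ex T V {a, b}) →
      ¬ (((T (P x)).ncard ≤ 3 ∧ e ∈ T (P x)) ∧ ((T (P x')).ncard ≤ 3 ∧ e ∈ T (P x'))) := by
    rintro x x' h1 h2 k1 k2 ⟨⟨k3, k4⟩, ⟨k5, k6⟩⟩
    have e1 := (pl x k1 k3 k4).1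
    have e2 := (pl x' k2 k5 k6).1
    exact hP.inj x x' h1 h2 (by linear_combination e1 - e2)
  have uniq2 : ∀ x x', x < x' → x' < x + 6 → ¬ (P x = y2 ∧ P x' = y2) := by
    rintro x x' h1 h2 ⟨k1, k2⟩
    exact hP.inj x x' h1 h2 (k1.trans k2.symm)
  have hfrs : ∃ᶠ u in 𝓝 s, P u ∉ closure (Ex T V {a, b}) := by
    have h7 : ∀ᶠ u in 𝓝[<] s, P u ∉ closure (Ex T V {a, b}) := by
      filter_upwards [Ioo_mem_nhdsLT hs0] with u hu
      exact below u ⟨hu.1.le, hu.2⟩
    exact h7.frequently.filter_mono nhdsWithin_le_nhds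
  have hfrr : ∃ᶠ u in 𝓝 r, P u ∉ closure (Ex T V {a, b}) := by
    have h7 : ∀ᶠ u in 𝓝[>] r, P u ∉ closure (Ex T V {a, b}) := by
      filter_upwards [Ioo_mem_nhdsGT hr6] with u hu
      exact beyond u ⟨hu.1, hu.2.le⟩
    exact h7.frequently.filter_mono nhdsWithin_le_nhds
  have bs := bd s ⟨hs0, by linarith⟩ hsS hfrs
  have br := bd r ⟨by linarith, hr6⟩ hrS hfrr
  -- exact points to the right of `s`
  have right : ∀ η > 0, ∃ t, s < t ∧ t < s + η ∧ P t ∈ closure (Ex T V {a, b}) := by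
    intro η hη
    have hη' : 0 < min η (min s (6 - s)) := lt_min hη (lt_min hs0 (by linarith))
    obtain ⟨t, ht, htE⟩ := clE862 hP (E := Ex T V {a, b}) (fun x hx => hx.1) hsS hη'
    have m1 : min η (min s (6 - s)) ≤ η := min_le_left _ _
    have m2 : min η (min s (6 - s)) ≤ s := (min_le_right _ _).trans (min_le_left _ _)
    have m3 : min η (min s (6 - s)) ≤ 6 - s := (min_le_right _ _).trans (min_le_right _ _)
    rw [abs_lt] at ht
    have htS := subset_closure htE
    have h7 : s ≤ t := hsl (show t ∈ _ ∩ Icc (0 : ℝ) 6 from ⟨htS, by linarith, by linarith⟩)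
    refine ⟨t, lt_of_le_of_ne h7 ?_, by linarith, htS⟩
    rintro rfl
    obtain ⟨u, h8, h9⟩ := (hfrs.and_eventually (openE862 hP htE)).exists
    exact h8 (subset_closure h9)
  have hsr' : s < r := by
    obtain ⟨t, k1, k2, k3⟩ := right (6 - s) (by linarith)
    have := hrg (show t ∈ _ ∩ Icc (0 : ℝ) 6 from ⟨k3, by linarith, by linarith⟩)
    linarith
  -- the arc is connected
  have fill : ∀ t ∈ Ioo s r, P t ∈ closure (Ex T V {a, b}) := by
    intro t ht
    by_contra hcon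
    have hcp2 : IsCompact ({t : ℝ | P t ∈ closure (Ex T V {a, b})} ∩ Icc s t) :=
      isCompact_Icc.inter_left hcl
    obtain ⟨s', hs', hg'⟩ := hcp2.exists_isGreatest ⟨s, hsS, le_rfl, ht.1.le⟩
    have hs't : s' < t := lt_of_le_of_ne hs'.2.2 (by rintro rfl; exact hcon hs'.1)
    obtain ⟨t', k1, k2, k3⟩ := right (t - s) (by linarith [ht.1])
    have hss' : s < s' := by
      have := hg' (show t' ∈ _ ∩ Icc s t from ⟨k3, k1.le, by linarith⟩)
      linarith
    have hfr' : ∃ᶠ u in 𝓝 s', P u ∉ closure (Ex T V {a, b}) := by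
      have h7 : ∀ᶠ u in 𝓝[>] s', P u ∉ closure (Ex T V {a, b}) := by
        filter_upwards [Ioo_mem_nhdsGT hs't] with u hu hc
        have := hg' (show u ∈ _ ∩ Icc s t from ⟨hc, by linarith [hu.1], hu.2.le⟩)
        linarith [hu.1]
      exact h7.frequently.filter_mono nhdsWithin_le_nhds
    have bs' := bd s' ⟨by linarith, by linarith [ht.2]⟩ hs'.1 hfr'
    rcases bs with k4 | k4 <;> rcases bs' with k5 | k5
    · exact uniq2 s s' hss' (by linarith [ht.1, ht.2]) ⟨k4, k5⟩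
    · rcases br with k6 | k6
      · exact uniq2 s r hsr' (by linarith [ht.1, ht.2]) ⟨k4, k6⟩
      · exact uniq s' r (by linarith [ht.2]) (by linarith [ht.1, ht.2]) hs'.1 hrS ⟨k5, k6⟩
    · rcases br with k6 | k6
      · exact uniq2 s' r (by linarith [ht.2]) (by linarith [ht.1, ht.2]) ⟨k5, k6⟩
      · exact uniq s r hsr' (by linarith [ht.1, ht.2]) hsS hrS ⟨k4, k6⟩
    · exact uniq s s' hss' (by linarith [ht.1, ht.2]) hsS hs'.1 ⟨k4, k5⟩
  -- points inside the arc
  have inner : ∀ t ∈ Ioo s r, (T (P t)).ncard ≤ 3 ∧ e ∉ T (P t) := by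
    intro t ht
    have h3 : (T (P t)).ncard ≤ 3 := by
      by_contra hcon
      rcases n3V _ (hP.dst t) (by omega) with h7 | h7
      · exact hP.inj 0 t (by linarith [ht.1]) (by linarith [ht.2]) (hP0.trans h7.symm)
      · rcases bs with k4 | k4
        · exact uniq2 s t ht.1 (by linarith [ht.2]) ⟨k4, h7⟩
        · rcases br with k6 | k6
          · exact uniq2 t r ht.2 (by linarith [ht.1]) ⟨h7, k6⟩
          · exact uniq s r hsr' (by linarith) hsS hrS ⟨k4, k6⟩
    refine ⟨h3, fun he => ?_⟩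
    rcases bs with k4 | k4
    · rcases br with k6 | k6
      · exact uniq2 s r hsr' (by linarith) ⟨k4, k6⟩
      · exact uniq t r ht.2 (by linarith [ht.1]) (fill t ht) hrS ⟨⟨h3, he⟩, k6⟩
    · exact uniq s t ht.1 (by linarith [ht.2]) hsS (fill t ht) ⟨k4, ⟨h3, he⟩⟩
  -- the length
  have len : r - s ≤ 1 := by
    by_contra hcon
    push Not at hcon
    have ht1 : s + (r - s - 1) / 2 ∈ Ioo s r := ⟨by linarith, by linarith⟩
    have ht2 : s + (r - s - 1) / 2 + 1 ∈ Ioo s r := ⟨by linarith, by linarith⟩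
    obtain ⟨k1, k2⟩ := inner _ ht1
    have k3 := fill _ ht1
    refine C.int (l := 2) (hP.dst (s + (r - s - 1) / 2)) (fun m hm => ?_)
      (hP.dst (s + (r - s - 1) / 2 + 1)) (hP.one _) (fill _ ht2)
    have h9 := Lt_col h hm
    fin_cases m
    · exact absurd (h9 rfl) k2
    · exact absurd (h9 rfl) (hA _ k3 k1)
    · rfl
    · exact (C.noAC k1 (show _ ∈ Lt T V a b c d e f 2 from k3) hm).elim
  -- the two intervals
  have three1 : ∀ t ∈ Ioo r 6, (T (P t)).ncard ≤ 3 := by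
    intro t ht
    by_contra hcon
    rcases n3V _ (hP.dst t) (by omega) with h7 | h7
    · exact hP.inj 0 t (by linarith [ht.1]) (by linarith [ht.2]) (hP0.trans h7.symm)
    · rcases br with k6 | k6
      · exact uniq2 r t ht.1 (by linarith [ht.2]) ⟨k6, h7⟩
      · rcases bs with k4 | k4
        · exact uniq2 s t (by linarith [ht.1]) (by linarith [ht.2]) ⟨k4, h7⟩
        · exact uniq s r hsr' (by linarith) hsS hrS ⟨k4, k6⟩
  have three2 : ∀ t ∈ Ioo (0 : ℝ) s, (T (P t)).ncard ≤ 3 := by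
    intro t ht
    by_contra hcon
    rcases n3V _ (hP.dst t) (by omega) with h7 | h7
    · exact hP.inj 0 t ht.1 (by linarith [ht.2]) (hP0.trans h7.symm)
    · rcases bs with k4 | k4
      · exact uniq2 t s ht.2 (by linarith [ht.1]) ⟨h7, k4⟩
      · rcases br with k6 | k6
        · exact uniq2 t r (by linarith [ht.2]) (by linarith [ht.1]) ⟨h7, k6⟩
        · exact uniq s r hsr' (by linarith) hsS hrS ⟨k4, k6⟩
  have I1 : IntCov (Qd T V a b c d e f P) r 6 :=
    intZ862 hP C (fun t ht => beyond t ⟨ht.1, ht.2.le⟩) three1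
  have I2 : IntCov (Qd T V a b c d e f P) 0 s :=
    intZ862 hP C (fun t ht => below t ⟨ht.1.le, ht.2⟩) three2
  have m1 : ∀ t ∈ Ioo r 6, ¬ (1 ∈ Qd T V a b c d e f P t ∧ 2 ∈ Qd T V a b c d e f P t) :=
    fun t ht hc => hC _ hc.2 (three1 t ht) ((qd1 hP).1 hc.1)
  have m2 : ∀ t ∈ Ioo (0 : ℝ) s, ¬ (1 ∈ Qd T V a b c d e f P t ∧ 2 ∈ Qd T V a b c d e f P t) :=
    fun t ht hc => hC _ hc.2 (three2 t ht) ((qd1 hP).1 hc.1)
  have hr3 : 3 ≤ r := by
    by_contra hcon
    exact H564.a4 I1 (l0 := 1) (l1 := 0) (l2 := 2) (by decide) (by decide) (by decide) (c := r) m1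
      le_rfl (by linarith)
  have hs3 : s ≤ 3 := by
    by_contra hcon
    exact H564.a4 I2 (l0 := 1) (l1 := 0) (l2 := 2) (by decide) (by decide) (by decide) (c := 0) m2
      le_rfl (by linarith)
  -- near the plain end
  have near : ∀ x, P x ∈ closure (Ex T V {a, b}) → (T (P x)).ncard ≤ 3 → e ∈ T (P x) →
      ∀ᶠ t in 𝓝 x, Qd T V a b c d e f P t ⊆ {0} := by
    intro x hx h3 he
    filter_upwards [hP.cont.continuousAt.eventually (h.nhd (P x))] with t ht l hl
    have hab := sub_of_closure h hx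
    fin_cases l
    · rfl
    · exact absurd (ht ((qd1 hP).1 hl)) (hA _ hx h3)
    · exfalso
      have h7 : c ∈ T (P t) := sub_of_closure h (qd2.1 hl) (Or.inl rfl)
      have h8 := four_le (hab (Or.inl rfl)) (hab (Or.inr rfl)) (ht h7) he
        (by simp [ab, ac, ae, bc, be, ce])
      omega
  rcases br with k6 | k6
  · -- `P r = y2`, plain at `s`
    rcases bs with k4 | k4
    · exact uniq2 s r hsr' (by linarith) ⟨k4, k6⟩
    have hs2 : s ≤ 2 := by
      by_contra hcon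
      push Not at hcon
      have h7 : ∀ᶠ t in 𝓝[<] s, Qd T V a b c d e f P t ⊆ {0} :=
        (near s hsS k4.1 k4.2).filter_mono nhdsWithin_le_nhds
      obtain ⟨t, ht, ht2⟩ := (h7.and (Ioo_mem_nhdsLT hcon)).exists
      refine z0_862 I2 (l0 := 1) (l1 := 0) (l2 := 2) (by decide) (by decide) (by decide) m2
        (t := t - 2) (by linarith [ht2.1]) (by linarith [ht2.2]) (Or.inr ?_)
      rw [sub_add_cancel]
      exact ht
    have e1 : r = 3 := by linarith
    have e2 : s = 2 := by linarith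
    obtain ⟨e3, e4⟩ := pl s hsS k4.1 k4.2
    have e5 := hP.sum 0
    rw [zero_add, zero_add] at e5
    have e6 : y1 = P 1 := by
      rw [← e3, e2]
      linear_combination e5 - hP0
    rcases n3V y1 (by rw [e6]; exact hP.dst 1) e4 with k7 | k7
    · exact hP.inj 0 1 (by norm_num) (by norm_num) (by rw [hP0, ← e6]; exact k7.symm)
    · exact hP.inj 1 3 (by norm_num) (by norm_num) (by rw [← e6, ← e1, k6]; exact k7)
  · -- plain at `r`
    rcases bs with k4 | k4
    swap
    · exact uniq s r hsr' (by linarith) hsS hrS ⟨k4, k6⟩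
    have hr4 : 4 ≤ r := by
      by_contra hcon
      push Not at hcon
      have h7 : ∀ᶠ t in 𝓝[>] r, Qd T V a b c d e f P t ⊆ {0} :=
        (near r hrS k6.1 k6.2).filter_mono nhdsWithin_le_nhds
      obtain ⟨t, ht, ht2⟩ := (h7.and (Ioo_mem_nhdsGT hcon)).exists
      exact z0_862 I1 (l0 := 1) (l1 := 0) (l2 := 2) (by decide) (by decide) (by decide) m1
        (t := t) ht2.1 (by linarith [ht2.2]) (Or.inl ht)
    have e1 : r = 4 := by linarith
    have e2 : s = 3 := by linarith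
    obtain ⟨e3, e4⟩ := pl r hrS k6.1 k6.2
    have e5 := hP.sum 4
    norm_num at e5
    have e6 : y1 = P 5 := by
      rw [← e3, e1]
      linear_combination e5 - hP6
    rcases n3V y1 (by rw [e6]; exact hP.dst 5) e4 with k7 | k7
    · exact hP.inj 5 6 (by norm_num) (by norm_num) (by rw [hP6, ← e6]; exact k7)
    · exact hP.inj 3 5 (by norm_num) (by norm_num) (by rw [← e6, ← e2, k4]; exact k7.symm)

end Vale.Agent.P032.H862
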