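import Vale.Agent.P032.H862.OrdH
import Vale.Agent.P032.H460.Link
import Vale.Agent.P032.H460.KApex

/-!
# P032: the K-apex rule at harmless points

`z` a two-pair point with the pairs `{a, b}`, `{c, d}`, `v ∈ S(z)` a two-pair point with the pairs
`{a, c}`, `{b, e}` (a K-link), the exact `ab`-arc of `S(z)` leaves `v` in the direction `τ`.

* `kapexH_pre862` : a harmless common point `x` of `S(z)`, `S(v)` without the sixth colour `f` has
  `T x = {b, c, d, e}` and the arc pair `{b, c}`.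
* `kapexH862` : the apex on the other side (`x = hb z v (-τ) (π / 3)`) has the colour `f`.
-/

open Set Filter Topology Metric

noncomputable section

namespace Vale.Agent.P032.H862

open Vale.Agent.P032.Six Vale.Agent.P032.S5.H767 Vale.Agent.P032.H695 Vale.Agent.P032.Carr
open Vale.Agent.P032.H460

variable {U : Fin 6 → Set ℂ} {T : ℂ → Set (Fin 6)}
variable {z v x : ℂ} {a b c d e f : Fin 6} {A : Set (Fin 6)}

/-! ### geometry -/

theorem sg_rot862 (hv : dist v z = 1) (α β : ℝ) :
    sg (z + (v - z) * cis α) z (z + (v - z) * cis β) = Real.sin (β - α) := by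
  have h1 := ip_sq (n := v - z) (by rw [← dist_eq_norm]; exact hv)
  rw [Real.sin_sub]
  unfold sg cr
  simp only [Complex.sub_re, Complex.sub_im, Complex.add_re, Complex.add_im, Complex.mul_re,
    Complex.mul_im, cis_re, cis_im]
  simp only [Complex.sub_re, Complex.sub_im] at h1
  linear_combination (Real.sin β * Real.cos α - Real.cos β * Real.sin α) * h1

theorem hb_pt862 {u : ℝ} (s t : ℝ) : hb z (pt z u) s t = pt z (u + s * t * 3 / Real.pi) := by
  have hpi := Real.pi_pos
  rw [← rot_pt]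
  unfold hb rot
  congr 3
  field_simp

/-- points of the circle sixty degrees apart -/
theorem dist_hb60 (hv : dist v z = 1) {s : ℝ} (hs : s = 1 ∨ s = -1) (t : ℝ) :
    dist (hb z v s t) (hb z v s (Real.pi / 3 + t)) = 1 := by
  have hpi := Real.pi_pos
  obtain ⟨u, hu⟩ := Vale.Agent.P032.H343.exists_pt343 hv
  rw [hu, hb_pt862, hb_pt862]
  have e1 : u + s * (Real.pi / 3 + t) * 3 / Real.pi = u + s * t * 3 / Real.pi + s := by
    field_simp
    ring
  rw [e1]
  rcases hs with rfl | rfl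
  · exact dist_pt_one _ _
  · rw [dist_comm]
    have := dist_pt_one z (u + -1 * t * 3 / Real.pi + -1)
    rwa [show u + -1 * t * 3 / Real.pi + -1 + 1 = u + -1 * t * 3 / Real.pi by ring] at this

/-- the side of the first colour -/
theorem sideA862 (h : Irr U T) {y z g : ℂ} {a b : Fin 6} (hg : Arc T z g {a, b})
    (hs : Sd U z g a b) {ρ : ℝ} (hf : ∃ᶠ t : ℝ in 𝓝[>] 0, a ∈ T (hb y z ρ t)) :
    ρ * sg y z g ≤ 0 := by
  by_contra hcon
  push Not at hcon
  obtain ⟨t, h1, h2⟩ := (hf.and_eventually ((h.germ_sd (z := y) hg hs).2 ρ hcon)).exists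
  exact h2 (h.sub _ h1)

/-- the side of the second colour -/
theorem sideB862 (h : Irr U T) {y z g : ℂ} {a b : Fin 6} (hg : Arc T z g {a, b})
    (hs : Sd U z g a b) {ρ : ℝ} (hf : ∃ᶠ t : ℝ in 𝓝[>] 0, b ∈ T (hb y z ρ t)) :
    0 ≤ ρ * sg y z g := by
  by_contra hcon
  push Not at hcon
  obtain ⟨t, h1, h2⟩ := (hf.and_eventually ((h.germ_sd (z := y) hg hs).1 ρ hcon)).exists
  exact h2 (h.sub _ h1)

/-! ### all positions -/

/-- a harmless apex of a K-link without the sixth colour -/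
theorem kapexH_pre862 (h : Irr U T) (hz : DPt T z a b c d) (hv : DPt T v a c b e)
    (hnd : [a, b, c, d, e, f].Nodup) (hvz : dist v z = 1) (hxz : dist x z = 1)
    (hxv : dist x v = 1) (hA : Six.Harm T x A) (hf : f ∉ T x) :
    T x = {b, c, d, e} ∧ A = {b, c} := by
  have hn := hnd
  simp only [List.nodup_cons, List.mem_cons, List.not_mem_nil, or_false, not_or, List.nodup_nil,
    and_true, not_false_eq_true] at hn
  obtain ⟨⟨ab, ac, ad, ae, af⟩, ⟨bc, bd, be, bf⟩, ⟨cd, ce, cf⟩, ⟨de, df⟩, ef⟩ := hn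
  have hzv : dist z v = 1 := by rw [dist_comm]; exact hvz
  have hzx : dist z x = 1 := by rw [dist_comm]; exact hxz
  have hvx : dist v x = 1 := by rw [dist_comm]; exact hxv
  have Cz := ctr_of h hz hnd
  have hnd' : [a, c, b, e, d, f].Nodup := by
    simp only [List.nodup_cons, List.mem_cons, List.not_mem_nil, or_false, not_or, List.nodup_nil,
      and_true, not_false_eq_true]
    exact ⟨⟨ac, ab, ae, ad, af⟩, ⟨Ne.symm bc, ce, cd, cf⟩, ⟨be, bd, bf⟩, ⟨Ne.symm de, ef⟩, df⟩
  have Cv := ctr_of h hv hnd'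
  have za : a ∈ T z := by rw [hz.pal]; simp
  have zb : b ∈ T z := by rw [hz.pal]; simp
  have zc : c ∈ T z := by rw [hz.pal]; simp
  have zd : d ∈ T z := by rw [hz.pal]; simp
  have ze : e ∉ T z := by rw [hz.pal]; simp [Ne.symm ae, Ne.symm be, Ne.symm ce, Ne.symm de]
  have zf : f ∉ T z := by rw [hz.pal]; simp [Ne.symm af, Ne.symm bf, Ne.symm cf, Ne.symm df]
  have va : a ∈ T v := by rw [hv.pal]; simp
  have vb : b ∈ T v := by rw [hv.pal]; simp
  have vc : c ∈ T v := by rw [hv.pal]; simp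
  have ve : e ∈ T v := by rw [hv.pal]; simp
  have vd : d ∉ T v := by rw [hv.pal]; simp [Ne.symm ad, Ne.symm bd, Ne.symm cd, de]
  have vf : f ∉ T v := by rw [hv.pal]; simp [Ne.symm af, Ne.symm bf, Ne.symm cf, Ne.symm ef]
  -- the missing colour
  have hc2 : (T x)ᶜ.ncard = 2 := by
    have := Set.ncard_add_ncard_compl (T x)
    rw [hA.card, Nat.card_eq_fintype_card, Fintype.card_fin] at this
    omega
  obtain ⟨o, hof, hoc⟩ : ∃ o, o ≠ f ∧ (T x)ᶜ = {o, f} := by
    obtain ⟨p, q, hpq, hc⟩ := Set.ncard_eq_two.1 hc2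
    have h1 : f ∈ (T x)ᶜ := hf
    rw [hc] at h1
    rcases h1 with h1 | h1
    · exact ⟨q, by rw [h1]; exact hpq.symm, by rw [hc, Set.pair_comm, h1]⟩
    · rw [mem_singleton_iff] at h1
      exact ⟨p, by rw [h1]; exact hpq, by rw [hc, h1]⟩
  have mem : ∀ i, i ∈ T x ↔ i ≠ o ∧ i ≠ f := by
    intro i
    have h1 : i ∈ (T x)ᶜ ↔ i ∈ ({o, f} : Set (Fin 6)) := by rw [hoc]
    simp only [mem_compl_iff, mem_insert_iff, mem_singleton_iff] at h1
    tauto
  have nz : ∀ᶠ w in 𝓝[sphere x 1] z, T w ⊆ T z ∧ dist w x = 1 := by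
    filter_upwards [mem_nhdsWithin_of_mem_nhds (h.nhd z), self_mem_nhdsWithin] with w h1 h2
    exact ⟨h1, mem_sphere.1 h2⟩
  have nv : ∀ᶠ w in 𝓝[sphere x 1] v, T w ⊆ T v ∧ dist w x = 1 := by
    filter_upwards [mem_nhdsWithin_of_mem_nhds (h.nhd v), self_mem_nhdsWithin] with w h1 h2
    exact ⟨h1, mem_sphere.1 h2⟩
  have hcard : ∀ j : Fin 6, ¬ A ⊆ {j} := by
    intro j hj
    have h3 := Set.ncard_le_ncard hj (Set.toFinite _)
    rw [hA.cardA, Set.ncard_singleton] at h3
    omega
  have ho := Cz.all o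
  -- `o ∈ {a, b, c}`
  have dA : o ∈ T z → d ∉ A := by
    intro hoz hd
    refine apex460 h (v := z) (z := x) (p := v) hzx hvx hvz (nv.mono fun w hw => ?_) hoz
    by_contra how
    have h1 : T w ⊆ T x := fun i hi => (mem i).2 ⟨fun h2 => how (h2 ▸ hi), fun h2 =>
      vf (hw.1 (h2 ▸ hi))⟩
    exact vd (hw.1 (hA.h1 w hw.2 h1 hd))
  have eA : o ∈ T v → e ∉ A := by
    intro hov he
    refine apex460 h (v := v) (z := x) (p := z) hvx hzx hzv (nz.mono fun w hw => ?_) hov
    by_contra how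
    have h1 : T w ⊆ T x := fun i hi => (mem i).2 ⟨fun h2 => how (h2 ▸ hi), fun h2 =>
      zf (hw.1 (h2 ▸ hi))⟩
    exact ze (hw.1 (hA.h1 w hw.2 h1 he))
  have cases : ∀ i ∈ A, i ≠ d → i ≠ e → i = a ∨ i = b ∨ i = c := by
    intro i hi h1 h2
    rcases Cz.all i with h3 | h3 | h3 | h3 | h3 | h3
    · exact Or.inl h3
    · exact Or.inr (Or.inl h3)
    · exact Or.inr (Or.inr h3)
    · exact absurd h3 h1
    · exact absurd h3 h2
    · exact absurd h3 ((mem i).1 (hA.sub hi)).2
  have no : o ∉ A := fun h1 => ((mem o).1 (hA.sub h1)).1 rfl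
  rcases ho with rfl | rfl | rfl | rfl | rfl | rfl
  · -- `o = a`
    have h1 := dA za
    have h2 := eA va
    refine ⟨?_, ?_⟩
    · ext i
      rw [mem i]
      simp only [mem_insert_iff, mem_singleton_iff]
      constructor
      · rintro ⟨h3, h4⟩
        rcases Cz.all i with h5 | h5 | h5 | h5 | h5 | h5
        · exact absurd h5 h3
        · exact Or.inl h5
        · exact Or.inr (Or.inl h5)
        · exact Or.inr (Or.inr (Or.inl h5))
        · exact Or.inr (Or.inr (Or.inr h5))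
        · exact absurd h5 h4
      · rintro (rfl | rfl | rfl | rfl)
        · exact ⟨Ne.symm ab, bf⟩
        · exact ⟨Ne.symm ac, cf⟩
        · exact ⟨Ne.symm ad, df⟩
        · exact ⟨Ne.symm ae, ef⟩
    · refine Set.eq_of_subset_of_ncard_le ?_ (by rw [hA.cardA, Set.ncard_pair bc]) (Set.toFinite _)
      intro i hi
      rcases cases i hi (fun h3 => h1 (h3 ▸ hi)) (fun h3 => h2 (h3 ▸ hi)) with h3 | h3 | h3
      · exact absurd (h3 ▸ hi) no
      · exact Or.inl h3
      · exact Or.inr h3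
  · -- `o = b`
    exfalso
    have h1 := dA zb
    have h2 := eA vb
    have h3 : A = {a, c} := by
      refine Set.eq_of_subset_of_ncard_le ?_ (by rw [hA.cardA, Set.ncard_pair ac]) (Set.toFinite _)
      intro i hi
      rcases cases i hi (fun h3 => h1 (h3 ▸ hi)) (fun h3 => h2 (h3 ▸ hi)) with h3 | h3 | h3
      · exact Or.inl h3
      · exact absurd (h3 ▸ hi) no
      · exact Or.inr h3
    refine harm_ne862 h hA (P := {a, c}) (z := v) (by rw [Set.ncard_pair ac]; omega) ?_ h3
    by_contra hcl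
    refine apex460 h (t := d) hzv hxv hxz ?_ zd
    filter_upwards [mem_nhdsWithin_of_mem_nhds (h.nhd x), self_mem_nhdsWithin,
      mem_nhdsWithin_of_mem_nhds (isClosed_closure.isOpen_compl.mem_nhds hcl)] with q h4 h5 h6
    obtain ⟨l, hl⟩ := Cv.cover (mem_sphere.1 h5)
    have h7 := Lt_col h hl
    fin_cases l
    · exact h7 rfl
    · exact absurd (h4 (h7 rfl)) hf
    · exact absurd hl h6
    · exact absurd rfl ((mem _).1 (h4 (h7 (Or.inl rfl)))).1
  · -- `o = c`
    exfalso
    have h1 := dA zc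
    have h2 := eA vc
    have h3 : A = {a, b} := by
      refine Set.eq_of_subset_of_ncard_le ?_ (by rw [hA.cardA, Set.ncard_pair ab]) (Set.toFinite _)
      intro i hi
      rcases cases i hi (fun h3 => h1 (h3 ▸ hi)) (fun h3 => h2 (h3 ▸ hi)) with h3 | h3 | h3
      · exact Or.inl h3
      · exact Or.inr h3
      · exact absurd (h3 ▸ hi) no
    refine harm_ne862 h hA (P := {a, b}) (z := z) (by rw [Set.ncard_pair ab]; omega) ?_ h3
    by_contra hcl
    refine apex460 h (t := e) hvz hxz hxv ?_ ve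
    filter_upwards [mem_nhdsWithin_of_mem_nhds (h.nhd x), self_mem_nhdsWithin,
      mem_nhdsWithin_of_mem_nhds (isClosed_closure.isOpen_compl.mem_nhds hcl)] with q h4 h5 h6
    obtain ⟨l, hl⟩ := Cz.cover (mem_sphere.1 h5)
    have h7 := Lt_col h hl
    fin_cases l
    · exact h7 rfl
    · exact absurd (h4 (h7 rfl)) hf
    · exact absurd hl h6
    · exact absurd rfl ((mem _).1 (h4 (h7 (Or.inl rfl)))).1
  · -- `o = d`
    exfalso
    have hsub : T v ⊆ T x := fun i hi => (mem i).2 ⟨fun h2 => vd (h2 ▸ hi), fun h2 => vf (h2 ▸ hi)⟩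
    have h1 : ∀ i ∈ A, i ∉ T z := by
      intro i hi hiz
      exact apex460 h (v := z) (z := x) (p := v) hzx hvx hvz
        (nv.mono fun w hw => hA.h1 w hw.2 (hw.1.trans hsub) hi) hiz
    refine hcard e fun i hi => ?_
    rcases Cz.miss (h1 i hi) with h2 | h2
    · exact h2
    · exact absurd h2 ((mem i).1 (hA.sub hi)).2
  · -- `o = e`
    exfalso
    have hsub : T z ⊆ T x := fun i hi => (mem i).2 ⟨fun h2 => ze (h2 ▸ hi), fun h2 => zf (h2 ▸ hi)⟩
    have h1 : ∀ i ∈ A, i ∉ T v := by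
      intro i hi hiz
      exact apex460 h (v := v) (z := x) (p := z) hvx hzx hzv
        (nz.mono fun w hw => hA.h1 w hw.2 (hw.1.trans hsub) hi) hiz
    refine hcard d fun i hi => ?_
    rcases Cv.miss (h1 i hi) with h2 | h2
    · exact h2
    · exact absurd h2 ((mem i).1 (hA.sub hi)).2
  · exact absurd rfl hof

/-! ### the apex away from the exact arc -/

/-- **the K-apex rule at harmless points** -/
theorem kapexH862 (h : Irr U T) (hz : DPt T z a b c d) (hv : DPt T v a c b e)
    (hnd : [a, b, c, d, e, f].Nodup) (hvz : dist v z = 1) {τ : ℝ} (hτ : τ = 1 ∨ τ = -1)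
    (t1 : ∃ᶠ t : ℝ in 𝓝[>] 0, T (hb z v τ t) = {a, b}) (hx : x = hb z v (-τ) (Real.pi / 3))
    (hA : Six.Harm T x A) : f ∈ T x := by
  by_contra hf
  have hpi := Real.pi_pos
  have hpi4 := Real.pi_le_four
  have hn := hnd
  simp only [List.nodup_cons, List.mem_cons, List.not_mem_nil, or_false, not_or, List.nodup_nil,
    and_true, not_false_eq_true] at hn
  obtain ⟨⟨ab, ac, ad, ae, af⟩, ⟨bc, bd, be, bf⟩, ⟨cd, ce, cf⟩, ⟨de, df⟩, ef⟩ := hn
  have hτn : (-τ = 1 ∨ -τ = -1) := by
    rcases hτ with rfl | rfl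
    · right; rfl
    · left; norm_num
  have hττ1 : τ * τ = 1 := by rcases hτ with rfl | rfl <;> norm_num
  have hxz : dist x z = 1 := by rw [hx]; exact dist_hb hvz _ _
  have hxv : dist x v = 1 := by
    have h1 := dist_hb60 hvz hτn 0
    have h2 : hb z v (-τ) 0 = v := by simp [hb, cis]
    rw [h2, add_zero, ← hx, dist_comm] at h1
    exact h1
  have hzv : dist z v = 1 := by rw [dist_comm]; exact hvz
  have hzx : dist z x = 1 := by rw [dist_comm]; exact hxz
  have hvx : dist v x = 1 := by rw [dist_comm]; exact hxv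
  obtain ⟨hTx, hAbc⟩ := kapexH_pre862 h hz hv hnd hvz hxz hxv hA hf
  have Cz := ctr_of h hz hnd
  have za : a ∈ T z := by rw [hz.pal]; simp
  have zb : b ∈ T z := by rw [hz.pal]; simp
  have va : a ∈ T v := by rw [hv.pal]; simp
  have xa : a ∉ T x := by rw [hTx]; simp [ab, ac, ad, ae]
  obtain ⟨τ', σ, hτ', hσ, k1, k2, k3, -, k5⟩ := h.link460 hz hv hvz
  have hττ : τ' = τ := by
    by_contra hne
    have h1 : -τ' = τ := by
      rcases hτ with rfl | rfl <;> rcases hτ' with rfl | rfl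
      · exact absurd rfl hne
      · norm_num
      · norm_num
      · exact absurd rfl hne
    rw [h1] at k2
    obtain ⟨t, e1, e2⟩ := (t1.and_eventually k2).exists
    have h2 : a ∈ ({c, e} : Set (Fin 6)) := e2 (by rw [e1]; simp)
    rcases h2 with h2 | h2
    · exact ac h2
    · exact ae h2
  rw [hττ] at k1 k2 k5
  -- (i)
  obtain ⟨ρ, hρ, hρ1⟩ : ∃ ρ : ℝ, (ρ = 1 ∨ ρ = -1) ∧
      ∃ᶠ t : ℝ in 𝓝[>] 0, b ∈ T (hb x z ρ t) ∧ c ∈ T (hb x z ρ t) := by
    by_contra hcon
    have key : ∀ ρ : ℝ, (ρ = 1 ∨ ρ = -1) → ∀ᶠ t : ℝ in 𝓝[>] 0, a ∈ T (hb x z ρ t) := by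
      intro ρ hρ
      have h1 : ¬ ∃ᶠ t : ℝ in 𝓝[>] 0, b ∈ T (hb x z ρ t) ∧ c ∈ T (hb x z ρ t) :=
        fun h2 => hcon ⟨ρ, hρ, h2⟩
      rw [not_frequently] at h1
      filter_upwards [h1, (tendsto_hb x z ρ).eventually (h.nhd z)] with t h2 h3
      by_contra h4
      have h5 : T (hb x z ρ t) ⊆ T x := by
        intro i hi
        have h6 := h3 hi
        rw [hz.pal] at h6
        rw [hTx]
        rcases h6 with rfl | rfl | rfl | h6
        · exact absurd hi h4
        · simp
        · simp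
        · rw [mem_singleton_iff] at h6
          rw [h6]; simp
      have h6 := hA.h1 _ (dist_hb hzx ρ t) h5
      rw [hAbc] at h6
      exact h2 ⟨h6 (Or.inl rfl), h6 (Or.inr rfl)⟩
    have h1 := hb_sphere460 (P := fun w => a ∈ T w) hzx (key 1 (Or.inl rfl)) (key (-1) (Or.inr rfl))
    refine apex460 h (v := v) (z := x) (p := z) (t := a) hvx hzx hzv ?_ va
    rw [eventually_nhdsWithin_iff]
    filter_upwards [h1] with w h2 h3
    by_cases h4 : w = z
    · rw [h4]; exact za
    · exact h2 (mem_sphere.1 h3) h4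
  have hρb : ∃ᶠ t : ℝ in 𝓝[>] 0, b ∈ T (hb x z ρ t) := hρ1.mono fun t ht => ht.1
  have hρc : ∃ᶠ t : ℝ in 𝓝[>] 0, c ∈ T (hb x z ρ t) := hρ1.mono fun t ht => ht.2
  have small : ∀ᶠ t : ℝ in 𝓝[>] 0, 0 < t ∧ t < Real.pi / 6 := by
    filter_upwards [self_mem_nhdsWithin, mem_nhdsWithin_of_mem_nhds
      (Iio_mem_nhds (show (0 : ℝ) < Real.pi / 6 by positivity))] with t h1 h2
    exact ⟨h1, h2⟩
  have hx' : x = z + (v - z) * cis (-τ * (Real.pi / 3)) := hx
  -- (ii)
  have sgx : ∀ t : ℝ, sg x z (hb z v τ t) = τ * Real.sin (t + Real.pi / 3) := by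
    intro t
    rw [hx', hb, sg_rot862 hvz, ← sin_sign460 hτ]
    congr 1
    ring
  have hρτ : (Sd U z v a b → 0 ≤ ρ * τ) ∧ (Sd U z v b a → ρ * τ ≤ 0) := by
    constructor
    · intro hs
      obtain ⟨t, e1, e2, e3, e4⟩ := (k1.and (((tendsto_hb z v τ).eventually
        hs.eventually460).and small)).exists
      have hg : Arc T z (hb z v τ t) {a, b} := h.arc_of_eq ab za zb (dist_hb hvz τ t) e1
      have h1 := sideB862 h hg e2 hρb
      rw [sgx t, ← mul_assoc] at h1
      have h2 := Real.sin_pos_of_pos_of_lt_pi (x := t + Real.pi / 3) (by linarith) (by linarith)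
      exact nonneg_of_mul_nonneg_left h1 h2
    · intro hs
      obtain ⟨t, e1, e2, e3, e4⟩ := (k1.and (((tendsto_hb z v τ).eventually
        hs.eventually460).and small)).exists
      have hg : Arc T z (hb z v τ t) {b, a} := by
        rw [Set.pair_comm]
        exact h.arc_of_eq ab za zb (dist_hb hvz τ t) e1
      have h1 := sideA862 h hg e2 hρb
      rw [sgx t, ← mul_assoc] at h1
      have h2 := Real.sin_pos_of_pos_of_lt_pi (x := t + Real.pi / 3) (by linarith) (by linarith)
      by_contra h3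
      push Not at h3
      have := mul_pos h3 h2
      linarith
  -- (iii)
  have hex : ∀ ε : ℝ, 0 < ε → ε < Real.pi / 3 →
      ¬ Arc T z (hb z v (-τ) (Real.pi / 3 + ε)) {c, d} := by
    intro ε h0 h1 hp
    have s1 : sg v z (hb z v (-τ) (Real.pi / 3 + ε)) = -(τ * Real.sin (Real.pi / 3 + ε)) := by
      rw [sg_hb460 hvz, sin_sign460 hτn]
      ring
    have s2 : sg x z (hb z v (-τ) (Real.pi / 3 + ε)) = -(τ * Real.sin ε) := by
      rw [hx', hb, sg_rot862 hvz, ← sin_sign460 hτ, ← Real.sin_neg]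
      congr 1
      ring
    have p1 := Real.sin_pos_of_pos_of_lt_pi (x := Real.pi / 3 + ε) (by linarith) (by linarith)
    have p2 := Real.sin_pos_of_pos_of_lt_pi (x := ε) (by linarith) (by linarith)
    have hσc : ∃ᶠ t : ℝ in 𝓝[>] 0, c ∈ T (hb v z σ t) :=
      (k3.mono fun t ht => by rw [ht]; simp : ∀ᶠ t : ℝ in 𝓝[>] 0, c ∈ T (hb v z σ t)).frequently
    rcases h.sides hz.swap hp.1 with hs | hs
    · have r1 := sideA862 h hp hs hσc
      have r2 := sideA862 h hp hs hρc
      rw [s1] at r1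
      rw [s2] at r2
      have q1 : 0 ≤ σ * τ := by
        by_contra h3
        push Not at h3
        nlinarith [mul_neg_of_neg_of_pos h3 p1]
      have q2 : 0 ≤ ρ * τ := by
        by_contra h3
        push Not at h3
        nlinarith [mul_neg_of_neg_of_pos h3 p2]
      rcases k5 with ⟨h3, h4, -⟩ | ⟨h3, h4, -⟩
      · rw [h3] at q1
        nlinarith
      · have h5 := hρτ.2 h4
        have h6 : ρ * τ = 0 := le_antisymm h5 q2
        rcases hρ with rfl | rfl <;> rcases hτ with rfl | rfl <;> norm_num at h6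
    · have hp' : Arc T z (hb z v (-τ) (Real.pi / 3 + ε)) {d, c} := by rw [Set.pair_comm]; exact hp
      have r1 := sideB862 h hp' hs hσc
      have r2 := sideB862 h hp' hs hρc
      rw [s1] at r1
      rw [s2] at r2
      have q1 : σ * τ ≤ 0 := by
        by_contra h3
        push Not at h3
        nlinarith [mul_pos h3 p1]
      have q2 : ρ * τ ≤ 0 := by
        by_contra h3
        push Not at h3
        nlinarith [mul_pos h3 p2]
      rcases k5 with ⟨h3, h4, -⟩ | ⟨h3, h4, -⟩
      · have h5 := hρτ.1 h4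
        have h6 : ρ * τ = 0 := le_antisymm q2 h5
        rcases hρ with rfl | rfl <;> rcases hτ with rfl | rfl <;> norm_num at h6
      · rw [h3] at q1
        nlinarith
  -- (iv)
  have nx : ∀ᶠ t : ℝ in 𝓝[>] 0, T (hb z v (-τ) (Real.pi / 3 + t)) ⊆ T x := by
    have hcont : Continuous fun t : ℝ => hb z v (-τ) (Real.pi / 3 + t) := by
      unfold hb
      exact continuous_const.add (continuous_const.mul (continuous_cis.comp
        (continuous_const.mul (continuous_const.add continuous_id))))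
    have h1 := hcont.tendsto 0
    rw [add_zero, ← hx] at h1
    exact (h1.mono_left nhdsWithin_le_nhds).eventually (h.nhd x)
  obtain ⟨t, ⟨g1, g2⟩, g3, g4⟩ := ((k2.and nx).and small).exists
  have hyz := dist_hb hvz (-τ) t
  have hyz' := dist_hb hvz (-τ) (Real.pi / 3 + t)
  have hyy := dist_hb60 hvz hτn t
  have only : ∀ m, hb z v (-τ) t ∈ Lt T z a b c d e f m → m = 0 := by
    intro m hm
    have h1 := (Lt_col h hm).trans g1
    fin_cases m
    · rfl
    · exfalso
      have h2 : f ∈ ({c, e} : Set (Fin 6)) := h1 rfl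
      rcases h2 with h2 | h2
      · exact cf h2.symm
      · exact ef h2.symm
    · exfalso
      have h2 : a ∈ ({c, e} : Set (Fin 6)) := h1 (Or.inl rfl)
      rcases h2 with h2 | h2
      · exact ac h2
      · exact ae h2
    · exfalso
      have h2 : d ∈ ({c, e} : Set (Fin 6)) := h1 (Or.inr rfl)
      rcases h2 with h2 | h2
      · exact cd h2.symm
      · exact de h2
  refine Cz.int hyz only hyz' hyy ?_
  obtain ⟨l, hl⟩ := Cz.cover hyz'
  have h1 := (Lt_col h hl).trans g2
  fin_cases l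
  · exact hl
  · exact absurd (h1 rfl) hf
  · exact absurd (h1 (Or.inl rfl)) xa
  · exfalso
    have hcl : hb z v (-τ) (Real.pi / 3 + t) ∈ closure (Ex T z {c, d}) := hl
    obtain ⟨p, hp, hpd⟩ := Metric.mem_closure_iff.1 hcl (t / 4) (by linarith)
    obtain ⟨r, hr, hr'⟩ := exists_rot hyz' hp.1
    have hrt : |r| < 3 / 8 * t := by linarith
    have e1 : p = hb z v (-τ) (Real.pi / 3 + (t - τ * r * (Real.pi / 3))) := by
      rw [← hr]
      unfold rot hb
      rw [add_sub_cancel_left, mul_assoc, ← cis_add460]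
      congr 3
      linear_combination (-(r * (Real.pi / 3))) * hττ1
    have h3 : |τ * r * (Real.pi / 3)| < t / 2 := by
      rw [abs_mul, abs_mul, show |τ| = 1 by rcases hτ with rfl | rfl <;> simp, one_mul,
        abs_of_pos (show (0 : ℝ) < Real.pi / 3 by positivity)]
      have h4 : |r| * (Real.pi / 3) ≤ |r| * (4 / 3) :=
        mul_le_mul_of_nonneg_left (by linarith) (abs_nonneg _)
      linarith
    rw [abs_lt] at h3
    refine hex (t - τ * r * (Real.pi / 3)) (by linarith [h3.2]) (by linarith [h3.1]) ?_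
    rw [← e1]
    exact ⟨hp.1, hp.2⟩

end Vale.Agent.P032.H862
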