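import Vale.Agent.P032.H862.Flip

/-!
# P032, X-B (B3): harmless points of the circle are ordinary

`noswp_harm862` : `y` harmless, `y, y'` on `S(z)` at distance one, none of them with both free
letters of `z`: no swap.
`ord_harm862` : so `y` is an ordinary point (`Ord862`).
-/

open Set Filter Topology Metric

noncomputable section

namespace Vale.Agent.P032.H862

open Vale.Agent.P032.Six Vale.Agent.P032.S5.H767 Vale.Agent.P032.H695 Vale.Agent.P032.Carr
open Vale.Agent.P032.H460

variable {U : Fin 6 → Set ℂ} {T : ℂ → Set (Fin 6)} {f : ℂ → Set (Fin 6)}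
variable {z y y' : ℂ} {a b c d e g : Fin 6} {A : Set (Fin 6)}

/-- near a harmless point only points of order four have both colours of the arc pair -/
theorem harm_near862 (h : Irr U T) (hA : Six.Harm T y A) :
    ∀ᶠ w in 𝓝 y, A ⊆ T w → 4 ≤ (T w).ncard := by
  obtain ⟨p, hp, hJ⟩ := hA.arc
  have hpA : T p = A := hJ.self_of_nhdsWithin hp
  filter_upwards [h.no_layer hp] with w hw hAw
  exact hw (by rw [hpA]; exact hAw)

/-- a point whose closed exact `P`-arc reaches `y` : the arc pair of `y` is not `P` -/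
theorem harm_ne862 (h : Irr U T) (hA : Six.Harm T y A) {P : Set (Fin 6)} (hP : P.ncard ≤ 3)
    (hy : y ∈ closure (Ex T z P)) : A ≠ P := by
  rintro rfl
  obtain ⟨w, hw1, hw2⟩ := ((mem_closure_iff_frequently.1 hy).and_eventually
    (harm_near862 h hA)).exists
  have h1 := ex_self hw1
  have h2 := hw2 h1.ge
  rw [h1] at h2
  omega

/-- **no swap at a harmless point** -/
theorem noswp_harm862 (C : Ctr U T z a b c d e g) (hA : Six.Harm T y A)
    (n1 : ¬ (e ∈ T y ∧ g ∈ T y)) (n2 : ¬ (e ∈ T y' ∧ g ∈ T y')) (h4 : (T y').ncard ≤ 4)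
    (hy : dist y z = 1) (hy' : dist y' z = 1) (hyy : dist y y' = 1) (hy2 : y ∉ closure (Ex T z {a, b})) :
    ¬ Swp T z a b c d e g y y' := by
  have h := C.irr
  have hn := C.nd
  simp only [List.nodup_cons, List.mem_cons, List.not_mem_nil, or_false, not_or, List.nodup_nil,
    and_true, not_false_eq_true] at hn
  obtain ⟨⟨ab, ac, ad, ae, ag⟩, ⟨bc, bd, be, bg⟩, ⟨cd, ce, cg⟩, ⟨de, dg⟩, eg⟩ := hn
  have hyy' : dist y' y = 1 := by rw [dist_comm]; exact hyy
  have hzy : dist z y = 1 := by rw [dist_comm]; exact hy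
  have hzy' : dist z y' = 1 := by rw [dist_comm]; exact hy'
  have hez : e ∉ T z := by rw [C.pal]; simp [Ne.symm ae, Ne.symm be, Ne.symm ce, Ne.symm de]
  have hgz : g ∉ T z := by rw [C.pal]; simp [Ne.symm ag, Ne.symm bg, Ne.symm cg, Ne.symm dg]
  -- the main step
  have key : ∀ t t' : Fin 6, ((t = e ∧ t' = g) ∨ (t = g ∧ t' = e)) → t ∈ T y → t ∈ T y' →
      y ∈ closure (Ex T z {c, d}) → ({c, d} : Set (Fin 6)) ⊆ T y' → False := by
    intro t t' htt hty hty' hcl hcd'
    have hcd : ({c, d} : Set (Fin 6)) ⊆ T y := sub_of_closure h hcl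
    have ht'y : t' ∉ T y := by
      rcases htt with ⟨rfl, rfl⟩ | ⟨rfl, rfl⟩
      · exact fun h1 => n1 ⟨hty, h1⟩
      · exact fun h1 => n1 ⟨h1, hty⟩
    have ht'y' : t' ∉ T y' := by
      rcases htt with ⟨rfl, rfl⟩ | ⟨rfl, rfl⟩
      · exact fun h1 => n2 ⟨hty', h1⟩
      · exact fun h1 => n2 ⟨h1, hty'⟩
    have htz : t ∉ T z := by rcases htt with ⟨rfl, rfl⟩ | ⟨rfl, rfl⟩ <;> assumption
    have ht'z : t' ∉ T z := by rcases htt with ⟨rfl, rfl⟩ | ⟨rfl, rfl⟩ <;> assumption
    have hmiss : ∀ i, i ∉ T z → i = t ∨ i = t' := by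
      intro i hi
      rcases htt with ⟨rfl, rfl⟩ | ⟨rfl, rfl⟩
      · exact C.miss hi
      · exact (C.miss hi).symm
    -- (0)
    have hA0 : A ≠ {c, d} := harm_ne862 h hA (by rw [Set.ncard_pair cd]; omega) hcl
    -- near `y'` on the circle of `y`
    have near' : ∀ᶠ w in 𝓝[sphere y 1] y', T w ⊆ T y' ∧ dist w y = 1 := by
      filter_upwards [mem_nhdsWithin_of_mem_nhds (h.nhd y'), self_mem_nhdsWithin] with w h1 h2
      exact ⟨h1, mem_sphere.1 h2⟩
    have near : ∀ᶠ w in 𝓝[sphere y 1] z, T w ⊆ T z ∧ dist w y = 1 := by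
      filter_upwards [mem_nhdsWithin_of_mem_nhds (h.nhd z), self_mem_nhdsWithin] with w h1 h2
      exact ⟨h1, mem_sphere.1 h2⟩
    by_cases hsub : T y' ⊆ T y
    · -- (1)
      have h1 : ∀ i ∈ A, i = t ∨ i = t' := by
        intro i hi
        by_contra hcon
        refine apex460 h (v := z) (z := y) (p := y') hzy hyy' hy' (near'.mono fun w hw =>
          hA.h1 w hw.2 (hw.1.trans hsub) hi) ?_
        by_contra hiz
        exact hcon (hmiss i hiz)
      have h2 : A ⊆ {t} := by
        intro i hi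
        rcases h1 i hi with rfl | rfl
        · rfl
        · exact absurd (hA.sub hi) ht'y
      have h3 := Set.ncard_le_ncard h2 (Set.toFinite _)
      rw [hA.cardA, Set.ncard_singleton] at h3
      omega
    · -- (2)
      obtain ⟨x, hxy', hxy⟩ := Set.not_subset.1 hsub
      have hxt' : x ≠ t' := fun h1 => ht'y' (h1 ▸ hxy')
      have hxt : x ≠ t := fun h1 => hxy (h1 ▸ hty)
      have hxz : x ∈ T z := by
        by_contra h1
        rcases hmiss x h1 with h2 | h2
        · exact hxt h2
        · exact hxt' h2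
      have hcomp : ∀ j, j ∉ T y → j = x ∨ j = t' := by
        have h1 : (T y)ᶜ.ncard = 2 := by
          have := Set.ncard_add_ncard_compl (T y)
          rw [hA.card, Nat.card_eq_fintype_card, Fintype.card_fin] at this
          omega
        have h2 : ({x, t'} : Set (Fin 6)) = (T y)ᶜ := by
          refine Set.eq_of_subset_of_ncard_le ?_ ?_ (Set.toFinite _)
          · rintro i (rfl | hi)
            · exact hxy
            · rw [mem_singleton_iff] at hi; subst hi; exact ht'y
          · rw [h1, Set.ncard_pair hxt']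
        intro j hj
        have h3 : j ∈ ({x, t'} : Set (Fin 6)) := by rw [h2]; exact hj
        exact h3
      have hTw : ∀ w, dist w y = 1 → ¬ A ⊆ T w → t' ∉ T w → x ∈ T w := by
        intro w hw hAw htw
        have h1 : ¬ T w ⊆ T y := fun h2 => hAw (hA.h1 w hw h2)
        obtain ⟨j, hj, hjy⟩ := Set.not_subset.1 h1
        rcases hcomp j hjy with rfl | rfl
        · exact hj
        · exact absurd hj htw
      by_cases hAy' : A ⊆ T y'
      · -- `t ∈ A`
        have htA : t ∈ A := by
          by_contra htA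
          have h1 : A ⊆ {c, d} := by
            intro i hi
            have h2 := hAy' hi
            have h4 : i ≠ t := fun h5 => htA (h5 ▸ hi)
            have h5 : i ≠ x := fun h6 => hxy (h6 ▸ hA.sub hi)
            by_contra h7
            have hci : i ≠ c := fun h8 => h7 (h8 ▸ Or.inl rfl)
            have hdi : i ≠ d := fun h8 => h7 (h8 ▸ Or.inr rfl)
            have hcy : c ∈ T y := hcd (Or.inl rfl)
            have hdy : d ∈ T y := hcd (Or.inr rfl)
            have hct : c ≠ t := by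
              rcases htt with ⟨rfl, -⟩ | ⟨rfl, -⟩ <;> assumption
            have hdt : d ≠ t := by
              rcases htt with ⟨rfl, -⟩ | ⟨rfl, -⟩ <;> assumption
            have hxc : c ≠ x := fun h8 => hxy (h8 ▸ hcy)
            have hxd : d ≠ x := fun h8 => hxy (h8 ▸ hdy)
            have h8 : ({c, d, t, x, i} : Set (Fin 6)) ⊆ T y' := by
              rintro j (rfl | rfl | rfl | rfl | hj)
              · exact hcd' (Or.inl rfl)
              · exact hcd' (Or.inr rfl)
              · exact hty'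
              · exact hxy'
              · rw [mem_singleton_iff] at hj; subst hj; exact h2
            have h9 := Set.ncard_le_ncard h8 (Set.toFinite _)
            have h10 : ({c, d, t, x, i} : Set (Fin 6)).ncard = 5 := by
              rw [Set.ncard_insert_of_notMem (by
                simp only [mem_insert_iff, mem_singleton_iff, not_or]
                exact ⟨cd, hct, hxc, Ne.symm hci⟩), Set.ncard_insert_of_notMem (by
                simp only [mem_insert_iff, mem_singleton_iff, not_or]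
                exact ⟨hdt, hxd, Ne.symm hdi⟩), Set.ncard_insert_of_notMem (by
                simp only [mem_insert_iff, mem_singleton_iff, not_or]
                exact ⟨Ne.symm hxt, Ne.symm h4⟩), Set.ncard_pair (Ne.symm h5)]
            omega
          refine hA0 (Set.eq_of_subset_of_ncard_le h1 ?_ (Set.toFinite _))
          rw [hA.cardA, Set.ncard_pair cd]
        refine apex460 h (v := y') (z := y) (p := z) hyy' hzy hzy' (near.mono fun w hw => ?_) hxy'
        exact hTw w hw.2 (fun h1 => htz (hw.1 (h1 htA))) fun h1 => ht'z (hw.1 h1)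
      · obtain ⟨i, hi, hiy'⟩ := Set.not_subset.1 hAy'
        refine apex460 h (v := z) (z := y) (p := y') hzy hyy' hy' (near'.mono fun w hw => ?_) hxz
        exact hTw w hw.2 (fun h1 => hiy' (hw.1 (h1 hi))) fun h1 => ht'y' (hw.1 h1)
  rintro ⟨l, m, hlm, k1, k2, k3, k4⟩
  -- the two letters
  have fin : ∀ l m : Fin 4, l < m → y ∈ Lt T z a b c d e g l → y ∈ Lt T z a b c d e g m →
      y' ∈ Lt T z a b c d e g l → y' ∈ Lt T z a b c d e g m → False := by
    intro l m hlm k1 k2 k3 k4
    have c1 := Lt_col h k1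
    have c2 := Lt_col h k2
    have c3 := Lt_col h k3
    have c4 := Lt_col h k4
    have : (l = 0 ∧ m = 1) ∨ (l = 0 ∧ m = 2) ∨ (l = 0 ∧ m = 3) ∨ (l = 1 ∧ m = 2) ∨
        (l = 1 ∧ m = 3) ∨ (l = 2 ∧ m = 3) := by
      revert hlm; clear k1 k2 k3 k4 c1 c2 c3 c4; revert l m; decide
    rcases this with ⟨rfl, rfl⟩ | ⟨rfl, rfl⟩ | ⟨rfl, rfl⟩ | ⟨rfl, rfl⟩ | ⟨rfl, rfl⟩ | ⟨rfl, rfl⟩
    · exact n1 ⟨c1 rfl, c2 rfl⟩
    · exact hy2 k2
    · exact key e g (Or.inl ⟨rfl, rfl⟩) (c1 rfl) (c3 rfl) k2 c4
    · exact hy2 k2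
    · exact key g e (Or.inr ⟨rfl, rfl⟩) (c1 rfl) (c3 rfl) k2 c4
    · exact hy2 k1
  rcases lt_or_gt_of_ne hlm with h4 | h4
  · exact fin l m h4 k1 k2 k3 k4
  · exact fin m l h4 k2 k1 k4 k3

/-- **harmless points without both free letters are ordinary**; the neighbours have at most four
colours and not both free letters -/
theorem ord_harm862 (C : Ctr U T z a b c d e g) (F : ChF T f) (hA : Six.Harm T y A)
    (n1 : ¬ (e ∈ T y ∧ g ∈ T y)) (hy : dist y z = 1)
    (n2 : ∀ y', dist y' z = 1 → dist y y' = 1 → (T y').ncard ≤ 4 ∧ ¬ (e ∈ T y' ∧ g ∈ T y')) :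
    Ord862 T f z a b c d e g y := by
  have hn := C.nd
  simp only [List.nodup_cons, List.mem_cons, List.not_mem_nil, or_false, not_or, List.nodup_nil,
    and_true, not_false_eq_true] at hn
  obtain ⟨⟨ab, ac, ad, ae, ag⟩, ⟨bc, bd, be, bg⟩, ⟨cd, ce, cg⟩, ⟨de, dg⟩, eg⟩ := hn
  refine ⟨fun he hg => absurd ⟨he, hg⟩ n1, fun hy2 y' hy' hyy _ => ?_, fun hf => n1 ?_⟩
  · exact noswp_harm862 C hA n1 (n2 y' hy' hyy).2 (n2 y' hy' hyy).1 hy hy' hyy hy2
  · have h1 : A = {e, g} := (F.harm y A hA).symm.trans hf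
    have h2 := hA.sub
    rw [h1] at h2
    exact ⟨h2 (Or.inl rfl), h2 (Or.inr rfl)⟩

end Vale.Agent.P032.H862
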