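import Vale.Agent.P032.H715.Remov
import Vale.Agent.P032.S5.Clopen
import Vale.Agent.P032.S5.H483.IrrZ

/-!
# P032: the parity lemma with recoloured swap points

`exists_nhd_td862` : a compact subset of a closed totally disconnected set has arbitrarily small
neighbourhoods whose frontier does not meet the totally disconnected set.
`ParN T z e f m Y O` : parity at `z` for the covers `recol715 T N m`, `Y ⊆ N`, `closure N ⊆ O`.
`Irr.par862`, `Irr.par_fill862` : the parity lemmas `par715`, `par_fill715` with swap points `Y`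
(points with four colours where the pair `{e, f}` is real), without any condition on the orders of
the points of the circle: if a palette on `S(u)` is inside `{e, f}` then `u` is on `S(z)` and has at
least four colours.
-/

open Set Filter Topology Metric

noncomputable section

namespace Vale.Agent.P032.Six

/-- **small neighbourhoods with frontier outside a totally disconnected set** -/
theorem exists_nhd_td862 {X Y O : Set ℂ} (hX : IsClosed X) (htd : IsTotallyDisconnected X)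
    (hY : IsCompact Y) (hYX : Y ⊆ X) (hO : IsOpen O) (hYO : Y ⊆ O) :
    ∃ N, IsOpen N ∧ Y ⊆ N ∧ closure N ⊆ O ∧ ∀ x ∈ frontier N, x ∉ X := by
  rcases Y.eq_empty_or_nonempty with rfl | hne
  · exact ⟨∅, isOpen_empty, empty_subset _, by simp, by simp⟩
  -- a large closed ball
  obtain ⟨R, hR⟩ := hY.isBounded.subset_closedBall (0 : ℂ)
  set K : Set ℂ := closedBall 0 (R + 1) ∩ X with hK
  have hKc : IsCompact K := (isCompact_closedBall 0 (R + 1)).inter_right hX
  have : CompactSpace K := isCompact_iff_compactSpace.1 hKc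
  have : TotallyDisconnectedSpace K :=
    totallyDisconnectedSpace_subtype_iff.2 fun C hC hC' => htd C (hC.trans inter_subset_right) hC'
  set B : Set ℂ := O ∩ ball 0 (R + 1) with hB
  have hBo : IsOpen B := hO.inter isOpen_ball
  have hYB : Y ⊆ B := fun y hy => ⟨hYO hy, mem_ball.2 (by
    have := mem_closedBall.1 (hR hy); linarith)⟩
  have hYK : Y ⊆ K := fun y hy => ⟨ball_subset_closedBall (hYB hy).2, hYX hy⟩
  obtain ⟨V, hV, hYV, hVd⟩ := Vale.Agent.P032.S5.exists_clopen_closed (C := K)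
    (X := Subtype.val ⁻¹' Y) (Y := Subtype.val ⁻¹' Bᶜ)
    (hY.isClosed.preimage continuous_subtype_val)
    (hBo.isClosed_compl.preimage continuous_subtype_val) (by
      intro x hx y hy hxy
      rw [totallyDisconnectedSpace_iff_connectedComponent_singleton.1 inferInstance x] at hxy
      have h1 : y = x := hxy
      subst h1
      exact hy (hYB hx))
  -- the two compact parts
  set C : Set ℂ := Subtype.val '' V with hC
  set D : Set ℂ := Subtype.val '' (Vᶜ : Set K) with hD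
  have hCc : IsCompact C := hV.isClosed.isCompact.image continuous_subtype_val
  have hDc : IsCompact D := hV.compl.isClosed.isCompact.image continuous_subtype_val
  have hYC : Y ⊆ C := fun y hy => ⟨⟨y, hYK hy⟩, hYV (show (⟨y, hYK hy⟩ : K).val ∈ Y from hy), rfl⟩
  have hCB : C ⊆ B := by
    rintro _ ⟨x, hx, rfl⟩
    by_contra hcon
    exact Set.disjoint_left.1 hVd hx hcon
  have hKCD : ∀ x ∈ K, x ∈ C ∨ x ∈ D := by
    intro x hx
    by_cases h1 : (⟨x, hx⟩ : K) ∈ V
    · exact Or.inl ⟨_, h1, rfl⟩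
    · exact Or.inr ⟨_, h1, rfl⟩
  have hCD : Disjoint C D := by
    rw [Set.disjoint_left]
    rintro _ ⟨x, hx, rfl⟩ ⟨y, hy, hyx⟩
    exact hy (Subtype.ext hyx ▸ hx)
  have hCO : C ⊆ B ∩ Dᶜ := fun x hx => ⟨hCB hx, fun h1 => Set.disjoint_left.1 hCD hx h1⟩
  obtain ⟨N, hNo, hCN, hN⟩ := hCc.exists_isOpen_closure_subset
    ((hBo.inter hDc.isClosed.isOpen_compl).mem_nhdsSet.2 hCO)
  refine ⟨N, hNo, hYC.trans hCN, fun x hx => (hN hx).1.1, fun x hx hxX => ?_⟩
  rw [hNo.frontier_eq] at hx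
  have h1 := hN hx.1
  rcases hKCD x ⟨ball_subset_closedBall h1.1.2, hxX⟩ with h2 | h2
  · exact hx.2 (hCN h2)
  · exact h1.2 h2

/-- parity at `z` for the covers recoloured near `Y` -/
def ParN {k : ℕ} (T : ℂ → Set (Fin k)) (z : ℂ) (e f m : Fin k) (Y O : Set ℂ) : Prop :=
  ∀ N, IsOpen N → Y ⊆ N → closure N ⊆ O → Par (recol715 T N m) z e f

/-- recolouring does not change the points away from the closure -/
theorem recol_off862 {k : ℕ} (T : ℂ → Set (Fin k)) {N : Set ℂ} {m : Fin k} {w : ℂ}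
    (hw : w ∉ closure N) : recol715 T N m w = T w := by
  ext i
  constructor
  · rintro (⟨-, hc⟩ | ⟨hi, -⟩)
    · exact absurd hc hw
    · exact hi
  · exact fun hi => Or.inr ⟨hi, fun hc => hw (subset_closure hc)⟩

/-- recolouring depends only on the cover at the point -/
theorem recol_congr862 {k : ℕ} {T T' : ℂ → Set (Fin k)} {N : Set ℂ} {m : Fin k} {w : ℂ}
    (hw : T' w = T w) : recol715 T' N m w = recol715 T N m w := by
  unfold recol715
  rw [hw]

variable {U : Fin 6 → Set ℂ} {T : ℂ → Set (Fin 6)}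

/-- **the parity lemma with recoloured swap points** -/
theorem Irr.par862 (h : Irr U T) {z : ℂ} {e f m : Fin 6} {Y O : Set ℂ} (hP : ParN T z e f m Y O)
    (hme : m ≠ e) (hmf : m ≠ f) (hY : IsCompact Y) (hO : IsOpen O) (hYO : Y ⊆ O)
    (hY4 : ∀ y ∈ Y, 4 ≤ (T y).ncard) (hYr : ∀ y ∈ Y, ∃ q, dist q y = 1 ∧ T q ⊆ {e, f})
    {T' : ℂ → Set (Fin 6)} (hcl : ∀ i, IsClosed {x | i ∈ T' x}) (hne : ∀ x, (T' x).Nonempty)
    (hag : ∀ q, dist q z = 1 → T' q = T q) (hTe : ∀ w, e ∈ T' w → e ∈ T w)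
    (hTf : ∀ w, f ∈ T' w → f ∈ T w) :
    ∃ u x, dist u z ≤ 1 ∧ e ∈ T' u ∧ f ∈ T' u ∧ x ≠ e ∧ x ≠ f ∧ InnO T' z u x ∧ u ∉ Y ∧
      ∀ g, dist g u = 1 → T g ⊆ {e, f} → dist u z = 1 ∧ 4 ≤ (T u).ncard := by
  -- near `Y` the points with `e`, `f` have four colours
  have h1 : ∀ y ∈ Y, ∀ᶠ w in 𝓝 y, e ∈ T w → f ∈ T w → 4 ≤ (T w).ncard := by
    intro y hy
    obtain ⟨q, hq, hqT⟩ := hYr y hy
    filter_upwards [h.no_layer hq] with w hw he hf
    refine hw fun i hi => ?_
    rcases hqT hi with rfl | h2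
    · exact he
    · rw [mem_singleton_iff] at h2; subst h2; exact hf
  set O1 : Set ℂ := interior {w | e ∈ T w → f ∈ T w → 4 ≤ (T w).ncard} with hO1
  have hYO1 : Y ⊆ O ∩ O1 := fun y hy => ⟨hYO hy, mem_interior_iff_mem_nhds.2 (h1 y hy)⟩
  obtain ⟨N, hNo, hYN, hNO, hNf⟩ := exists_nhd_td862 (h.isClosed_le_card 4) h.td hY
    (fun y hy => hY4 y hy) (hO.inter isOpen_interior) hYO1
  have hNf' : ∀ w, w ∉ N → w ∈ closure N → e ∈ T w → f ∈ T w → False := by
    intro w hw hwc he hf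
    have h2 : w ∈ {w | e ∈ T w → f ∈ T w → 4 ≤ (T w).ncard} := interior_subset (hNO hwc).2
    refine hNf w ?_ (h2 he hf)
    rw [hNo.frontier_eq]
    exact ⟨hwc, hw⟩
  -- the doubly recoloured cover
  obtain ⟨u, x, h2, h3, h4, h5, h6, h7, h8⟩ :=
    (hP N hNo hYN fun w hw => (hNO hw).1).core715 (T' := recol715 T' N m)
      (recol_closed715 hcl hNo m) (recol_ne715 hne N m) fun q hq => recol_congr862 (hag q hq)
  have he : e ∈ T' u ∧ u ∉ N := by
    rcases h3 with ⟨h9, -⟩ | h9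
    · exact absurd h9.symm hme
    · exact h9
  have hf : f ∈ T' u := by
    rcases h4 with ⟨h9, -⟩ | h9
    · exact absurd h9.symm hmf
    · exact h9.1
  have huc : u ∉ closure N := fun hc => hNf' u he.2 hc (hTe u he.1) (hTf u hf)
  have hInn : InnO T' z u x := by
    unfold InnO at h7 ⊢
    rw [mem_closure_iff_frequently] at h7 ⊢
    have hev : ∀ᶠ y in 𝓝 u, y ∉ closure N := isClosed_closure.isOpen_compl.mem_nhds huc
    refine (h7.and_eventually hev).mono fun y hy => ?_
    obtain ⟨⟨hy1, hy2⟩, hy3⟩ := hy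
    rw [recol_off862 T' hy3] at hy2
    exact ⟨hy1, hy2⟩
  refine ⟨u, x, h2, he.1, hf, h5, h6, hInn, fun hu => huc (subset_closure (hYN hu)),
    fun g hg hgT => ?_⟩
  have heT := hTe u he.1
  have hfT := hTf u hf
  rcases h2.lt_or_eq with h9 | h9
  · exfalso
    obtain ⟨g2, e1, e2, e3⟩ := h.two_pts715 heT hfT hg hgT
    obtain ⟨M, n1, n2, n3, n4⟩ := h.rem715 hg e1 e2 hgT e3 (r := 1 - dist u z) (by linarith)
    obtain ⟨w, hw, hw1, hw2⟩ := h8 M n1 n2 (n3.trans fun w hw => by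
      rw [mem_ball] at hw ⊢
      have := dist_triangle w u z
      linarith)
    have k1 : e ∈ T' w := by
      rcases hw1 with ⟨h10, -⟩ | h10
      · exact absurd h10.symm hme
      · exact h10.1
    have k2 : f ∈ T' w := by
      rcases hw2 with ⟨h10, -⟩ | h10
      · exact absurd h10.symm hmf
      · exact h10.1
    exact n4 w hw ⟨hTe w k1, hTf w k2⟩
  · refine ⟨h9, ?_⟩
    by_contra hcon
    refine h.not_sub hg (by omega) fun i hi => ?_
    rcases hgT hi with rfl | h10
    · exact heT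
    · rw [mem_singleton_iff] at h10; subst h10; exact hfT

/-- **parity and filling with recoloured swap points** -/
theorem Irr.par_fill862 (h : Irr U T) {a e f m : Fin 6} {z : ℂ} {Y O W Z : Set ℂ} (hW : W.Finite)
    (hzW : z ∈ W) (hP : ParN T z e f m Y O) (hme : m ≠ e) (hmf : m ≠ f) (hY : IsCompact Y)
    (hO : IsOpen O) (hYO : Y ⊆ O) (hY4 : ∀ y ∈ Y, 4 ≤ (T y).ncard)
    (hYr : ∀ y ∈ Y, ∃ q, dist q y = 1 ∧ T q ⊆ {e, f})
    (hZ : ∀ z, (∀ w ∈ W, dist z w ≤ 1) → (∃ w ∈ W, dist z w = 1) → z ∈ Z)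
    (hZT : ∀ y ∈ Z, a ∈ T y ∧ e ∉ T y) (hae : a ≠ e) (haf : a ≠ f) :
    ∃ u x, dist u z ≤ 1 ∧ e ∈ T u ∧ f ∈ T u ∧ x ∈ T u ∧ x ≠ e ∧ x ≠ f ∧ InnO T z u x ∧ u ∉ Y ∧
      (∃ w ∈ W, 1 < dist u w) ∧
      ∀ g, dist g u = 1 → T g ⊆ {e, f} → dist u z = 1 ∧ 4 ≤ (T u).ncard := by
  have hQ : IsOpen (lens802 W) := isOpen_lens802 hW
  obtain ⟨u, x, h1, h2, h3, h4, h5, h6, huY, hno⟩ := h.par862 hP hme hmf hY hO hYO hY4 hYr
    (T' := recol715 T (lens802 W) a) (recol_closed715 h.closed hQ a) (recol_ne715 h.ne _ a)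
    (fun q hq => by
      have hqQ : q ∉ lens802 W := fun hcon => by
        have := hcon z hzW
        linarith
      ext i
      constructor
      · rintro (⟨rfl, hc⟩ | ⟨hi, -⟩)
        · exact (hZT q (hZ q (closure_lens802 hc) ⟨z, hzW, hq⟩)).1
        · exact hi
      · intro hi
        exact Or.inr ⟨hi, hqQ⟩)
    (fun w hw => by
      rcases hw with ⟨h7, -⟩ | h7
      · exact absurd h7.symm hae
      · exact h7.1)
    (fun w hw => by
      rcases hw with ⟨h7, -⟩ | h7
      · exact absurd h7.symm haf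
      · exact h7.1)
  have he : e ∈ T u ∧ u ∉ lens802 W := by
    rcases h2 with ⟨h7, -⟩ | h7
    · exact absurd h7.symm hae
    · exact h7
  have hf : f ∈ T u := by
    rcases h3 with ⟨h7, -⟩ | h7
    · exact absurd h7.symm haf
    · exact h7.1
  have hout : ∃ w ∈ W, 1 < dist u w := by
    by_contra hcon
    push Not at hcon
    have h7 : ∃ w ∈ W, dist u w = 1 := by
      by_contra hcon2
      push Not at hcon2
      exact he.2 fun w hw => lt_of_le_of_ne (hcon w hw) (hcon2 w hw)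
    exact (hZT u (hZ u hcon h7)).2 he.1
  have huc : u ∉ closure (lens802 W) := by
    intro hcon
    obtain ⟨w, hw, hw1⟩ := hout
    have := closure_lens802 hcon w hw
    linarith
  have hInn : InnO T z u x := by
    unfold InnO at h6 ⊢
    rw [mem_closure_iff_frequently] at h6 ⊢
    have hev : ∀ᶠ y in 𝓝 u, y ∉ closure (lens802 W) :=
      isClosed_closure.isOpen_compl.mem_nhds huc
    refine (h6.and_eventually hev).mono fun y hy => ?_
    obtain ⟨⟨hy1, hy2⟩, hy3⟩ := hy
    rw [recol_off862 T hy3] at hy2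
    exact ⟨hy1, hy2⟩
  refine ⟨u, x, h1, he.1, hf, ?_, h4, h5, hInn, huY, hout, hno⟩
  exact closure_minimal (s := {w | dist w z < 1 ∧ x ∈ T w}) (t := {w | x ∈ T w})
    (fun y hy => hy.2) (h.closed x) hInn

end Vale.Agent.P032.Six
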