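import Vale.Agent.P032.H460.RingF
import Vale.Agent.P032.H343.Par2

/-!
# P032, X-B (B3): the ring of a quasi-full centre with swap points

`ring_rclK862` : the winding form `H460.ring_q3K` for the cover recoloured with the label `2` in small
neighbourhoods of a closed set `Y` of swap points (only free letters near the point and near its
two apexes, apexes not in `Y`, no point of `Y` over the arc).
-/

open Set Filter Topology Metric

noncomputable section

namespace Vale.Agent.P032.H862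

open Vale.Agent.P032.Six Vale.Agent.P032.S5.H767 Vale.Agent.P032.H695 Vale.Agent.P032.H343
open Vale.Agent.P032.H460
open Vale.Agent.P032.H180 hiding pt pt_six dist_pt continuous_pt

variable {U : Fin 6 → Set ℂ} {T : ℂ → Set (Fin 6)} {z : ℂ} {a b c d e f : Fin 6}

/-- the recoloured cover -/
def RQ862 (T : ℂ → Set (Fin 6)) (z : ℂ) (a b c d e f : Fin 6) (N : Set ℂ) (w : ℂ) : Set (Fin 3) :=
  {l | (l = 2 ∧ w ∈ closure (N ∩ sphere z 1)) ∨ (l ∈ Q3 T z a b c d e f w ∧ w ∉ N)}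

/-- **The winding form at a quasi-full centre with swap points** -/
theorem ring_rclK862 (C : Ctr U T z a b c d e f) {u0 α : ℝ} (hα0 : 0 < α) (hα1 : α ≤ 1)
    (hX : ∀ t ∈ Ioo (0 : ℝ) α, e ∉ T (pt z (u0 + t)) ∧ f ∉ T (pt z (u0 + t)))
    (hl : PEnd T e f (pt z u0) (pt z (u0 - 1)))
    (hr : PEnd T e f (pt z (u0 + α)) (pt z (u0 + α + 1)))
    (hXonly : ∀ t ∈ Ioo α (6 : ℝ), pt z (u0 + t) ∉ closure (Ex T z {a, b}))
    (hback : ∀ t ∈ Icc (0 : ℝ) α, pt z (u0 + 3 + t) ∉ closure (Ex T z {c, d}))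
    {Y : Set ℂ} (hYc : IsClosed Y) (hYz : ∀ y ∈ Y, dist y z = 1)
    (hY : ∀ y ∈ Y, ∀ y', dist y' z = 1 → (y' = y ∨ dist y y' = 1) →
      y' ∉ closure (Ex T z {a, b}) ∧ y' ∉ closure (Ex T z {c, d}))
    (hYY : ∀ y ∈ Y, ∀ y' ∈ Y, dist y y' ≠ 1)
    (hYb : ∀ t ∈ Icc (0 : ℝ) α, pt z (u0 + 3 + t) ∉ Y)
    (htr : ∀ q, dist q z = 1 → e ∈ T q → f ∈ T q → q ∉ Y → q ∉ closure (Ex T z {a, b}) ∧
        q ∉ closure (Ex T z {c, d}))
    (hsw : ∀ y y', dist y z = 1 → dist y' z = 1 → dist y y' = 1 → y ∉ closure (Ex T z {a, b}) →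
        y' ∉ closure (Ex T z {a, b}) → Swp T z a b c d e f y y' → y ∈ Y ∨ y' ∈ Y) :
    ∃ O, IsOpen O ∧ Y ⊆ O ∧ ∀ N, IsOpen N → Y ⊆ N → closure N ⊆ O →
      ∃ δ > 0, ∀ (n : ℕ) (s : ℕ → ℝ) (lab : ℕ → Fin 3), s n = s 0 + 6 →
        (∀ k < n, |s k - s (k + 1)| < δ) →
        (∀ k ≤ n, lab k ∈ RQ862 T z a b c d e f N (pt z (s k))) → lab n = lab 0 →
        ∑ k ∈ Finset.range n, f2 (lab k) (lab (k + 1)) = 1 := by
  have hpi := Real.pi_pos
  -- the closed sets to be avoided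
  set F1 : Set ℂ := closure (Ex T z {a, b}) ∪ closure (Ex T z {c, d}) with hF1
  have hF1c : IsClosed F1 := isClosed_closure.union isClosed_closure
  set B : Set ℂ := (fun t : ℝ => pt z (u0 + 3 + t)) '' Icc (0 : ℝ) α ∪
    {pt z (u0 - 1), pt z (u0 + α + 1)} with hB0
  have hBc : IsClosed B :=
    (isCompact_Icc.image ((continuous_pt z).comp (continuous_const_add (u0 + 3)))).isClosed.union
      (Set.toFinite _).isClosed
  have hYcomp : IsCompact Y := by
    refine (isCompact_sphere z 1).of_isClosed_subset hYc fun y hy => ?_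
    exact hYz y hy
  have hnbz : ∀ s : ℝ, ∀ w, dist w z = 1 → dist (nb z s w) z = 1 := by
    intro s w hw
    obtain ⟨t, rfl⟩ := exists_pt343 hw
    rw [nb_pt]; exact dist_pt _ _
  have hnb1 : ∀ w, dist w z = 1 → dist w (nb z 1 w) = 1 := by
    intro w hw
    obtain ⟨t, rfl⟩ := exists_pt343 hw
    rw [nb_pt]; exact dist_pt_one _ _
  have hnb2 : ∀ w, dist w z = 1 → dist w (nb z (-1) w) = 1 := by
    intro w hw
    obtain ⟨t, rfl⟩ := exists_pt343 hw
    rw [nb_pt, dist_comm]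
    have := dist_pt_one z (t + -1)
    rwa [neg_add_cancel_right] at this
  -- the closed arc
  have hArc : ∀ t ∈ Icc (0 : ℝ) α, pt z (u0 + t) ∈ F1 := by
    intro t ht
    have h1 : IsClosed {t : ℝ | pt z (u0 + t) ∈ F1} :=
      hF1c.preimage ((continuous_pt z).comp (continuous_const_add u0))
    have h2 : closure (Ioo (0 : ℝ) α) ⊆ {t : ℝ | pt z (u0 + t) ∈ F1} :=
      closure_minimal (fun s hs => by
        show pt z (u0 + s) ∈ F1
        obtain ⟨l, hl⟩ := C.cover (dist_pt z (u0 + s))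
        have h3 := Lt_col C.irr hl
        have h4 := hX s hs
        fin_cases l
        · exact absurd (h3 rfl) h4.1
        · exact absurd (h3 rfl) h4.2
        · exact Or.inl hl
        · exact Or.inr hl) h1
    rw [closure_Ioo hα0.ne] at h2
    exact h2 ht
  set W : Set ℂ := F1ᶜ ∩ (nb z 1 ⁻¹' F1ᶜ) ∩ (nb z (-1) ⁻¹' F1ᶜ) ∩ Bᶜ with hW
  have hWo : IsOpen W := by
    refine ((hF1c.isOpen_compl.inter ?_).inter ?_).inter hBc.isOpen_compl
    · exact hF1c.isOpen_compl.preimage (continuous_nb z 1)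
    · exact hF1c.isOpen_compl.preimage (continuous_nb z (-1))
  have hYF : ∀ y ∈ Y, ∀ y', dist y' z = 1 → (y' = y ∨ dist y y' = 1) → y' ∉ F1 := by
    intro y hy y' hy' h1 h2
    rcases h2 with h2 | h2
    · exact (hY y hy y' hy' h1).1 h2
    · exact (hY y hy y' hy' h1).2 h2
  have hYW : Y ⊆ W := by
    intro y hy
    have hyz := hYz y hy
    refine ⟨⟨⟨hYF y hy y hyz (Or.inl rfl), ?_⟩, ?_⟩, ?_⟩
    · exact hYF y hy _ (hnbz 1 y hyz) (Or.inr (hnb1 y hyz))
    · exact hYF y hy _ (hnbz _ y hyz) (Or.inr (hnb2 y hyz))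
    · rintro (⟨t, ht, rfl⟩ | rfl | h)
      · exact hYb t ht hy
      · refine hYF _ hy (pt z u0) (dist_pt _ _) (Or.inr ?_) ?_
        · have := dist_pt_one z (u0 - 1)
          rwa [sub_add_cancel] at this
        · have := hArc 0 ⟨le_rfl, hα0.le⟩
          rwa [add_zero] at this
      · rw [mem_singleton_iff] at h
        subst h
        refine hYF _ hy (pt z (u0 + α)) (dist_pt _ _) (Or.inr ?_) (hArc α ⟨hα0.le, le_rfl⟩)
        rw [dist_comm]
        exact dist_pt_one z (u0 + α)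
  -- the neighbourhood
  have hYn : Disjoint Y (nb z 1 ⁻¹' Y) := by
    rw [Set.disjoint_left]
    intro y hy hy'
    exact hYY y hy _ hy' (hnb1 y (hYz y hy))
  obtain ⟨G, hG, hGY, hGn⟩ : ∃ G : Set ℂ, IsOpen G ∧ Y ⊆ G ∧
      ∀ w ∈ closure G, nb z 1 w ∉ closure G := by
    obtain ⟨δ2, hδ2, hd2⟩ := hYn.exists_cthickenings hYcomp
      (hYc.preimage (continuous_nb z 1))
    have k0 : ∀ w w', dist (nb z 1 w) (nb z 1 w') = dist w w' := by
      intro w w'
      unfold nb
      rw [dist_add_left, dist_eq_norm, ← sub_mul, norm_mul, norm_cis, mul_one, dist_eq_norm]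
      congr 1; ring
    refine ⟨thickening δ2 Y, isOpen_thickening, self_subset_thickening hδ2 _, fun w hw hw' => ?_⟩
    have k1 : w ∈ cthickening δ2 Y := closure_thickening_subset_cthickening δ2 Y hw
    have k2 : nb z 1 w ∈ cthickening δ2 Y := closure_thickening_subset_cthickening δ2 Y hw'
    refine Set.disjoint_left.1 hd2 k1 ?_
    rcases Y.eq_empty_or_nonempty with hemp | hne
    · rw [hemp, cthickening_empty] at k1
      exact absurd k1 (notMem_empty _)
    obtain ⟨v, hv, hvd⟩ := hYcomp.exists_infDist_eq_dist hne (nb z 1 w)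
    have k3 : dist (nb z 1 w) v ≤ δ2 := by
      rw [← hvd]
      rw [cthickening, mem_ofPred_eq] at k2
      exact ENNReal.toReal_le_of_le_ofReal hδ2.le k2
    -- `v = nb z 1 v'`
    have k4 : nb z 1 (nb z (-1) v) = v := by
      obtain ⟨t, rfl⟩ := exists_pt343 (hYz v hv)
      rw [nb_pt, nb_pt, neg_add_cancel_right]
    refine mem_cthickening_of_dist_le w (nb z (-1) v) δ2 _ ?_ ?_
    · show nb z 1 (nb z (-1) v) ∈ Y
      rw [k4]; exact hv
    · rw [← k0, k4]; exact k3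
  refine ⟨W ∩ G, hWo.inter hG, fun y hy => ⟨hYW hy, hGY hy⟩, fun N hNo hYN hclNO => ?_⟩
  have hclN : closure N ⊆ W := hclNO.trans inter_subset_left
  have hclG : closure N ⊆ closure G := (hclNO.trans inter_subset_right).trans subset_closure
  have hn := C.nd
  simp only [List.nodup_cons, List.mem_cons, List.not_mem_nil, or_false, not_or, List.nodup_nil,
    and_true, not_false_eq_true] at hn
  obtain ⟨⟨ab, ac, ad, ae, af⟩, ⟨bc, bd, be, bf⟩, ⟨cd, ce, cf⟩, ⟨de, df⟩, ef⟩ := hn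
  -- no triple point
  have hntr : ∀ q, dist q z = 1 → ¬ ∀ l, l ∈ Q3 T z a b c d e f q := by
    intro q hq hall
    by_cases hqY : q ∈ Y
    · rcases Q3_two.1 (hall 2) with h | h
      · exact (hY q hqY q hq (Or.inl rfl)).1 h
      · exact (hY q hqY q hq (Or.inl rfl)).2 h
    · have h1 := htr q hq (Q3_zero.1 (hall 0)).2 (Q3_one.1 (hall 1)).2 hqY
      rcases Q3_two.1 (hall 2) with h2 | h2
      · exact h1.1 h2
      · exact h1.2 h2
  have h01 : ∀ q ∈ closure N, dist q z = 1 → q ∉ N → ¬ (0 ∈ Q3 T z a b c d e f q ∧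
      1 ∈ Q3 T z a b c d e f q) := by
    rintro q hq hqz hqN ⟨k0, k1⟩
    have kW := hclN hq
    have c1 : q ∉ closure (Ex T z {a, b}) := fun h => kW.1.1.1 (Or.inl h)
    have c2 : nb z 1 q ∉ closure (Ex T z {a, b}) := fun h => kW.1.1.2 (Or.inl h)
    have c3 : nb z 1 q ∉ closure (Ex T z {c, d}) := fun h => kW.1.1.2 (Or.inr h)
    have hs : Swp T z a b c d e f q (nb z 1 q) := by
      by_contra hs
      have hs' : ¬ Swp T z a b c d e f (nb z 1 q) q := by
        rintro ⟨l, n, hln, j1, j2, j3, j4⟩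
        exact hs ⟨l, n, hln, j3, j4, j1, j2⟩
      refine not_sub C (hnbz 1 q hqz) hqz (by rw [dist_comm]; exact hnb1 q hqz) c2 c1 hs' ?_
      intro l hl
      have hl' : l = 0 ∨ l = 1 ∨ l = 2 := by fin_cases l <;> simp
      rcases hl' with rfl | rfl | rfl
      · exact k0
      · exact k1
      · rcases Q3_two.1 hl with h | h
        · exact absurd h c2
        · exact absurd h c3
    rcases hsw q _ hqz (hnbz 1 q hqz) (hnb1 q hqz) c1 c2 hs with h | h
    · exact hqN (hYN h)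
    · exact hGn q (hclG hq) (hclG (subset_closure (hYN h)))
  have hper6 : ∀ t : ℝ, pt z (u0 - 3 + (t + 6)) = pt z (u0 - 3 + t) := by
    intro t
    have h1 : u0 - 3 + (t + 6) = u0 - 3 + t + 6 := by ring
    rw [h1, pt_six]
  have hcont : Continuous fun t : ℝ => pt z (u0 - 3 + t) :=
    (continuous_pt z).comp (continuous_const_add (u0 - 3))
  have hcov0 : Cov fun t => Q3 T z a b c d e f (pt z (u0 - 3 + t)) := by
    refine ⟨fun t => ?_, fun t => ?_, fun t => ?_, fun t => ?_⟩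
    · simp only [hper6]
    · obtain ⟨l, hl⟩ := C.cover (dist_pt z (u0 - 3 + t))
      exact ⟨mg l, Q3_mg hl⟩
    · by_contra hcon
      push Not at hcon
      exact hntr _ (dist_pt z _) hcon
    · have h1 : Tendsto (fun s : ℝ => pt z (u0 - 3 + s)) (𝓝 t) (𝓝 (pt z (u0 - 3 + t))) :=
        hcont.tendsto t
      have h3 : ∀ l, ∀ᶠ y in 𝓝 (pt z (u0 - 3 + t)), l ∈ Q3 T z a b c d e f y →
          l ∈ Q3 T z a b c d e f (pt z (u0 - 3 + t)) := by
        intro l
        by_cases hl : l ∈ Q3 T z a b c d e f (pt z (u0 - 3 + t))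
        · exact Eventually.of_forall fun _ _ => hl
        · filter_upwards [(Q3_closed C.irr l).isOpen_compl.mem_nhds hl] with y hy hy'
          exact absurd hy' hy
      filter_upwards [h1.eventually (eventually_all.2 h3)] with y hy l hl
      exact hy l hl
  set K0 : Set ℝ := {t | pt z (u0 - 3 + t) ∈ closure (N ∩ sphere z 1)} with hK0
  set N0 : Set ℝ := {t | pt z (u0 - 3 + t) ∈ N} with hN0
  have hKN : ∀ t ∈ K0, pt z (u0 - 3 + t) ∈ closure N := fun t ht =>
    closure_mono inter_subset_left ht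
  have hNK0 : N0 ⊆ K0 := fun t ht => subset_closure ⟨ht, dist_pt z _⟩
  have hcov : Cov (rcl (fun t => Q3 T z a b c d e f (pt z (u0 - 3 + t))) K0 N0) := by
    refine Cov.rcl hcov0 (isClosed_closure.preimage hcont) (hNo.preimage hcont) hNK0 (fun t => ?_)
      (fun t => ?_) fun t ht htN => h01 _ (hKN t ht) (dist_pt z _) htN
    · show pt z (u0 - 3 + (t + 6)) ∈ closure (N ∩ sphere z 1) ↔
        pt z (u0 - 3 + t) ∈ closure (N ∩ sphere z 1)
      rw [hper6]
    · show pt z (u0 - 3 + (t + 6)) ∈ N ↔ pt z (u0 - 3 + t) ∈ N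
      rw [hper6]
  have hnb' : ∀ t : ℝ, nb z 1 (pt z (u0 - 3 + t)) = pt z (u0 - 3 + (t + 1)) := by
    intro t; rw [nb_pt]; congr 1; ring
  have hnb'' : ∀ t : ℝ, nb z (-1) (pt z (u0 - 3 + (t + 1))) = pt z (u0 - 3 + t) := by
    intro t; rw [nb_pt]; congr 1; ring
  -- the ends
  have kend : ∀ (t t' : ℝ), PEnd T e f (pt z (u0 - 3 + t)) (pt z (u0 - 3 + t')) →
      pt z (u0 - 3 + t') ∈ B →
      KEnd (rcl (fun t => Q3 T z a b c d e f (pt z (u0 - 3 + t))) K0 N0) t t' := by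
    intro t t' hp hB'
    have hN' : t' ∉ N0 := fun h => (hclN (subset_closure h)).2 hB'
    rcases hp with ⟨h1, h2⟩ | ⟨h1, h2⟩ | ⟨h1, h2⟩
    · left
      rintro l (⟨rfl, -⟩ | ⟨hl, -⟩)
      · rfl
      · rcases hl with ⟨rfl, h⟩ | ⟨rfl, h⟩ | ⟨rfl, h⟩
        · exact absurd h.2 h1
        · exact absurd h.2 h2
        · rfl
    · right; left
      refine ⟨?_, Or.inr ⟨Q3_one.2 ⟨dist_pt z _, h2⟩, hN'⟩⟩
      rintro (⟨h, -⟩ | ⟨h, -⟩)
      · exact absurd h (by decide)
      · exact h1 (Q3_one.1 h).2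
    · right; right
      refine ⟨?_, Or.inr ⟨Q3_zero.2 ⟨dist_pt z _, h2⟩, hN'⟩⟩
      rintro (⟨h, -⟩ | ⟨h, -⟩)
      · exact absurd h (by decide)
      · exact h1 (Q3_zero.1 h).2
  have kl : KEnd (rcl (fun t => Q3 T z a b c d e f (pt z (u0 - 3 + t))) K0 N0) 3 2 := by
    refine kend 3 2 ?_ ?_
    · rw [show u0 - 3 + 3 = u0 by ring, show u0 - 3 + 2 = u0 - 1 by ring]
      exact hl
    · rw [show u0 - 3 + 2 = u0 - 1 by ring]
      exact Or.inr (Or.inl rfl)
  have kr : KEnd (rcl (fun t => Q3 T z a b c d e f (pt z (u0 - 3 + t))) K0 N0)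
      (3 + α) (4 + α) := by
    refine kend (3 + α) (4 + α) ?_ ?_
    · rw [show u0 - 3 + (3 + α) = u0 + α by ring, show u0 - 3 + (4 + α) = u0 + α + 1 by ring]
      exact hr
    · rw [show u0 - 3 + (4 + α) = u0 + α + 1 by ring]
      exact Or.inr (Or.inr rfl)
  obtain ⟨δ, hδ, hring⟩ := ring_allK hcov (α := α) hα0 hα1 (fun t ht => by
    have h1 := hX (t - 3) ⟨by linarith [ht.1], by linarith [ht.2]⟩
    have h3 : u0 + (t - 3) = u0 - 3 + t := by ring
    rw [h3] at h1
    rintro l (⟨rfl, -⟩ | ⟨hl, -⟩)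
    · rfl
    rcases hl with ⟨rfl, h⟩ | ⟨rfl, h⟩ | ⟨rfl, h⟩
    · exact absurd h.2 h1.1
    · exact absurd h.2 h1.2
    · rfl) kl kr (fun t ht h => by
    have h3' : u0 + 3 + (t - 6) = u0 - 3 + t := by ring
    rcases h with ⟨-, h⟩ | ⟨h, -⟩
    · refine (hclN (hKN t h)).2 (Or.inl ⟨t - 6, ⟨by linarith [ht.1], by linarith [ht.2]⟩, ?_⟩)
      simp only [h3']
    rcases Q3_two.1 h with h | h
    · have h3 : u0 + (t - 3) = u0 - 3 + t := by ring
      have h4 := hXonly (t - 3) ⟨by linarith [ht.1], by linarith [ht.2]⟩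
      rw [h3] at h4
      exact h4 h
    · have h4 := hback (t - 6) ⟨by linarith [ht.1], by linarith [ht.2]⟩
      rw [h3'] at h4
      exact h4 h)
    (fun t ht => by
    have h3 : u0 + (t - 3) = u0 - 3 + t := by ring
    have h3' : u0 + (t - 2) = u0 - 3 + (t + 1) := by ring
    have h4 := hXonly (t - 3) ⟨by linarith [ht.1], by linarith [ht.2]⟩
    have h4' := hXonly (t - 2) ⟨by linarith [ht.1], by linarith [ht.2]⟩
    rw [h3] at h4
    rw [h3'] at h4'
    have h5 : dist (pt z (u0 - 3 + t)) (pt z (u0 - 3 + (t + 1))) = 1 := by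
      have := dist_pt_one z (u0 - 3 + t)
      rwa [add_assoc] at this
    refine rcl_inc hcov0.ne hNK0 (fun hK => ?_) (fun hK => ?_) fun htN htN1 => ?_
    · have kW := hclN (hKN t hK)
      have k1 : pt z (u0 - 3 + (t + 1)) ∉ F1 := by
        rw [← hnb']; exact kW.1.1.2
      refine ⟨fun h => k1 (Q3_two.1 h), fun h => ?_⟩
      refine hGn _ (hclG (hKN t hK)) ?_
      rw [hnb']
      exact hclG (hKN _ h)
    · have kW := hclN (hKN _ hK)
      have k1 : pt z (u0 - 3 + t) ∉ F1 := by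
        rw [← hnb'']; exact kW.1.2
      refine ⟨fun h => k1 (Q3_two.1 h), fun h => ?_⟩
      refine hGn _ (hclG (hKN t h)) ?_
      rw [hnb']
      exact hclG (hKN _ hK)
    · have h6 : ¬ Swp T z a b c d e f (pt z (u0 - 3 + t)) (pt z (u0 - 3 + (t + 1))) := by
        intro hs
        rcases hsw _ _ (dist_pt z _) (dist_pt z _) h5 h4 h4' hs with h | h
        · exact htN (hYN h)
        · exact htN1 (hYN h)
      have h6' : ¬ Swp T z a b c d e f (pt z (u0 - 3 + (t + 1))) (pt z (u0 - 3 + t)) := by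
        rintro ⟨l, n, hln, k1, k2, k3, k4⟩
        exact h6 ⟨l, n, hln, k3, k4, k1, k2⟩
      exact ⟨not_sub C (dist_pt z _) (dist_pt z _) h5 h4 h4' h6,
        not_sub C (dist_pt z _) (dist_pt z _) (by rw [dist_comm]; exact h5) h4' h4 h6'⟩)
  refine ⟨δ, hδ, fun n s lab hs hst hlab hn => ?_⟩
  refine hring n (fun k => s k - (u0 - 3)) lab (by rw [hs]; ring) (fun k hk => ?_)
    (fun k hk => ?_) hn
  · rw [show s k - (u0 - 3) - (s (k + 1) - (u0 - 3)) = s k - s (k + 1) by ring]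
    exact hst k hk
  · have h1 : pt z (s k) = pt z (u0 - 3 + (s k - (u0 - 3))) := by
      rw [show u0 - 3 + (s k - (u0 - 3)) = s k by ring]
    have h2 := hlab k hk
    rw [h1] at h2
    exact h2

end Vale.Agent.P032.H862
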