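import Vale.Agent.P032.H460.SumV

/-!
# P032, X-B (B3) with invisible points: the four-term sum at a centre

As `H460.sum_four460`, but exceptional points `z` on the circle may have both free colours `e, g`, if
not both are outside the separated pair `f z`.  The ring labels `Ref862` : the apex of `z` off the
colours of the centre where possible near `z`, else `e` or `g` if possible.
-/

open Set Filter Topology Metric Complex

noncomputable section

namespace Vale.Agent.P032.H862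

open Vale.Agent.P032.S5 Vale.Agent.P032.Carr Vale.Agent.P032.H460

variable {K : ℂ → Set (Fin 6)} {Z : Set ℂ} {f : ℂ → Set (Fin 6)} {δ δ₀ : ℝ} {x : ℂ}

/-- the reference labels on the circle -/
structure Ref862 (K : ℂ → Set (Fin 6)) (Z : Set ℂ) (f : ℂ → Set (Fin 6)) (δ : ℝ) (A : Set (Fin 6))
    (e g : Fin 6) (x : ℂ) (b : ℂ → Fin 6) : Prop where
  mem : ∀ y, dist y x = 1 → b y ∈ apx K Z δ (hp K f A) y
  near : ∀ y, dist y x = 1 → (∃ z ∈ Z, dist y z ≤ δ) → ∃ z ∈ Z, dist y z ≤ δ ∧ b y = hp K f A z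
  far : ∀ y, dist y x = 1 → (∀ z ∈ Z, δ < dist y z) →
    b y ∈ K y ∧ (b y = e ↔ e ∈ K y) ∧ (b y = g ↔ e ∉ K y ∧ g ∈ K y)

theorem exists_ref862 (H : Hm K Z f δ₀) (A : Set (Fin 6)) {e g : Fin 6} (heg : e ≠ g) (δ : ℝ) :
    ∃ b : ℂ → Fin 6, Ref862 K Z f δ A e g x b := by
  have key : ∀ y, dist y x = 1 → ∃ t : Fin 6, (t ∈ apx K Z δ (hp K f A) y) ∧
      ((∃ z ∈ Z, dist y z ≤ δ) → ∃ z ∈ Z, dist y z ≤ δ ∧ t = hp K f A z) ∧
      ((∀ z ∈ Z, δ < dist y z) →
        t ∈ K y ∧ (t = e ↔ e ∈ K y) ∧ (t = g ↔ e ∉ K y ∧ g ∈ K y)) := by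
    intro y hy
    by_cases hn : ∃ z ∈ Z, dist y z ≤ δ
    · obtain ⟨z, hz, hyz⟩ := hn
      exact ⟨hp K f A z, Or.inr ⟨z, hz, hyz, rfl⟩, fun _ => ⟨z, hz, hyz, rfl⟩,
        fun h => absurd hyz (not_le.2 (h z hz))⟩
    · have hn' := hn
      push Not at hn'
      rw [apx_far hn']
      by_cases h1 : e ∈ K y
      · exact ⟨e, h1, fun h => absurd h hn, fun _ => ⟨h1, ⟨fun _ => h1, fun _ => rfl⟩,
          ⟨fun h => absurd h heg, fun h => absurd h1 h.1⟩⟩⟩
      · by_cases h2 : g ∈ K y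
        · exact ⟨g, h2, fun h => absurd h hn, fun _ => ⟨h2,
            ⟨fun h => absurd h.symm heg, fun h => absurd h h1⟩, ⟨fun _ => ⟨h1, h2⟩, fun _ => rfl⟩⟩⟩
        · obtain ⟨t, ht⟩ := H.ne y
          exact ⟨t, ht, fun h => absurd h hn, fun _ => ⟨ht,
            ⟨fun h => h ▸ ht, fun h => absurd h h1⟩,
            ⟨fun h => absurd (h ▸ ht) h2, fun h => absurd h.2 h2⟩⟩⟩
  choose! b hb using key
  exact ⟨b, fun y hy => (hb y hy).1, fun y hy => (hb y hy).2.1, fun y hy => (hb y hy).2.2⟩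

theorem hp_eq862 (H : Hm K Z f δ₀) {A : Set (Fin 6)} {z z' : ℂ} (hz : z ∈ Z) (hz' : z' ∈ Z)
    (hd : dist z' z ≤ δ₀) : hp K f A z' = hp K f A z := by
  obtain ⟨e1, e2⟩ := H.const z hz z' hz' hd
  unfold hp
  rw [e1, e2]

/-- near an exceptional point: the apex label, or a far point -/
theorem Ref862.alt (H : Hm K Z f δ₀) {A : Set (Fin 6)} {e g : Fin 6} {b : ℂ → Fin 6}
    (hb : Ref862 K Z f δ A e g x b) (hδ' : δ ≤ δ₀ / 4) {y z : ℂ} (hy : dist y x = 1) (hz : z ∈ Z)
    (hyz : dist y z ≤ 3 * δ₀ / 4) :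
    ((∃ z' ∈ Z, dist y z' ≤ δ) ∧ b y = hp K f A z) ∨ ∀ z' ∈ Z, δ < dist y z' := by
  by_cases hn : ∃ z ∈ Z, dist y z ≤ δ
  · left
    refine ⟨hn, ?_⟩
    obtain ⟨z', hz', hyz', e1⟩ := hb.near y hy hn
    rw [e1]
    exact hp_eq862 H hz hz' (by
      have := dist_triangle_left z' z y
      linarith)
  · right
    push Not at hn
    exact hn

theorem rsel_alt862 (H : Hm K Z f δ₀) {i e g : Fin 6} {b : ℂ → Fin 6}
    (hb : RSel K Z f δ i e g x b) (hδ' : δ ≤ δ₀ / 4) {y z : ℂ} (hy : dist y x = 1) (hz : z ∈ Z)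
    (hyz : dist y z ≤ 3 * δ₀ / 4) :
    ((∃ z' ∈ Z, dist y z' ≤ δ) ∧ b y = hp K f {i} z) ∨ ∀ z' ∈ Z, δ < dist y z' := by
  by_cases hn : ∃ z ∈ Z, dist y z ≤ δ
  · left
    refine ⟨hn, ?_⟩
    obtain ⟨z', hz', hyz', e1⟩ := hb.near y hy hn
    rw [e1]
    exact hp_eq862 H hz hz' (by
      have := dist_triangle_left z' z y
      linarith)
  · right
    push Not at hn
    exact hn

theorem Ref862.memK (H : Hm K Z f δ₀) {A : Set (Fin 6)} {e g : Fin 6} {b : ℂ → Fin 6}
    (hb : Ref862 K Z f δ A e g x b) (hδ' : δ ≤ δ₀ / 4) {y z : ℂ} (hy : dist y x = 1) (hz : z ∈ Z)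
    (hyz : dist y z ≤ 3 * δ₀ / 4) : b y ∈ K z := by
  have hδ₀ := H.pos
  rcases hb.alt H hδ' hy hz hyz with ⟨-, h1⟩ | h1
  · rw [h1]; exact (H.apex hz A).1
  · exact H.sub z hz y (by linarith) (hb.far y hy h1).1

/-- comparison of the labelings for a colour `i` and for the reference -/
theorem cmp862 (H : Hm K Z f δ₀) (hr : Rg K Z x) (hδ : 0 < δ) (hδ' : δ ≤ δ₀ / 4)
    {i e g : Fin 6} {A : Set (Fin 6)} (hie : i ≠ e) (hig : i ≠ g) (hiA : i ∈ A) (heA : e ∉ A)
    (hgA : g ∉ A)
    (hnz : ∀ z ∈ Z, (∃ y, dist y x = 1 ∧ dist y z ≤ δ) →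
      ¬ (e ∈ K z \ f z ∧ g ∈ K z \ f z))
    {b b' c c' : ℂ → Fin 6} (hb : RSel K Z f δ i e g x b) (hb' : Ref862 K Z f δ A e g x b')
    (hc : ∀ p, c p ∈ apx K Z δ (hp K f {i}) p) (hc' : ∀ p, c' p ∈ apx K Z δ (hp K f A) p) :
    ∀ᶠ j : ℕ in atTop, Ch (sl x c b j) (2 ^ j) (6 * 2 ^ j) {i, e, g} =
      Ch (sl x c' b' j) (2 ^ j) (6 * 2 ^ j) {i, e, g} := by
  classical
  have hδ₀ := H.pos
  have hU := nice_union H hr hδ (show δ ≤ δ₀ / 2 by linarith) {i} A
  obtain ⟨η, hη, hL⟩ := exists_leb hU.usc hU.three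
  filter_upwards [(tendsto_order.1 tendsto_mesh).2 _
    (lt_min hη (show 0 < δ₀ / 2 by linarith))] with j hj
  have hjη : (3 : ℝ) / 2 ^ j < η := hj.trans_le (min_le_left _ _)
  have hjδ : (3 : ℝ) / 2 ^ j < δ₀ / 2 := hj.trans_le (min_le_right _ _)
  have hlb : Lb (apx K Z δ (hp K f {i})) x 1 j (sl x c b j) :=
    sl_Lb (fun p _ => hc p) (fun p hp => (hb.mem p hp).1) one_pos j
  have hlb' : Lb (apx K Z δ (hp K f A)) x 1 j (sl x c' b' j) :=
    sl_Lb (fun p _ => hc' p) (fun p hp => hb'.mem p hp) one_pos j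
  refine Ch_eq (sl x c' b' j) (sl x c b j) (2 ^ j) (6 * 2 ^ j) hlb'.per hlb.per hlb'.cen hlb.cen
    (fun i₀ hi₀ k hk => ?_) (fun k hk => ?_)
  · obtain ⟨M, hM, hMw⟩ := hL (pt x j i₀ k) (pt_mem hi₀.le k)
    refine ⟨M, Or.inl hM, fun i₁ k₁ h1 h2 => ?_⟩
    have hi1 : i₁ ≤ 2 ^ j := by omega
    have hd := dist_cell x hi1 h1 h2
    exact ⟨hMw _ (hd.trans_lt hjη) _ (Or.inr (sl_mem hc' (fun p hp => hb'.mem p hp) j i₁ k₁)),
      hMw _ (hd.trans_lt hjη) _ (Or.inl (sl_mem hc (fun p hp => (hb.mem p hp).1) j i₁ k₁))⟩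
  · have e0 := pt_ring x j k
    have e1 := pt_ring x j (k + 1)
    have hd : dist (pt x j (2 ^ j) (k + 1)) (pt x j (2 ^ j) k) ≤ 3 / 2 ^ j :=
      dist_cell x le_rfl (Or.inl rfl) (Or.inr rfl)
    rw [sl_ring, sl_ring, sl_ring, sl_ring]
    have m0 := (hb.mem _ e0).2
    have m1 := (hb.mem _ e1).2
    by_cases hn : (∃ z ∈ Z, dist (pt x j (2 ^ j) k) z ≤ δ) ∨
        ∃ z ∈ Z, dist (pt x j (2 ^ j) (k + 1)) z ≤ δ
    · obtain ⟨z, hz, h1, h2, hnear⟩ : ∃ z ∈ Z, dist (pt x j (2 ^ j) k) z ≤ 3 * δ₀ / 4 ∧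
          dist (pt x j (2 ^ j) (k + 1)) z ≤ 3 * δ₀ / 4 ∧
          ∃ y, dist y x = 1 ∧ dist y z ≤ δ := by
        rcases hn with ⟨z, hz, hyz⟩ | ⟨z, hz, hyz⟩
        · refine ⟨z, hz, by linarith, ?_, _, e0, hyz⟩
          have := dist_triangle (pt x j (2 ^ j) (k + 1)) (pt x j (2 ^ j) k) z
          linarith
        · refine ⟨z, hz, ?_, by linarith, _, e1, hyz⟩
          have := dist_triangle_left (pt x j (2 ^ j) k) z (pt x j (2 ^ j) (k + 1))
          linarith
      by_cases h4 : e ∈ K z ∧ g ∈ K z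
      · -- both free colours: the four labels
        refine ⟨{b' (pt x j (2 ^ j) k), b' (pt x j (2 ^ j) (k + 1)), b (pt x j (2 ^ j) k),
          b (pt x j (2 ^ j) (k + 1))}, fun hs => ?_, by simp, by simp, by simp, by simp⟩
        have hI := hs (show i ∈ ({i, e, g} : Finset (Fin 6)) by simp)
        have hE := hs (show e ∈ ({i, e, g} : Finset (Fin 6)) by simp)
        have hG := hs (show g ∈ ({i, e, g} : Finset (Fin 6)) by simp)
        simp only [Finset.mem_insert, Finset.mem_singleton] at hI hE hG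
        have hapi := H.apex hz {i}
        have hapA := H.apex hz A
        have hnf := hnz z hz hnear
        -- what a ring point near `z` shows
        have sh : ∀ y, dist y x = 1 → dist y z ≤ 3 * δ₀ / 4 →
            ((∃ z' ∈ Z, dist y z' ≤ δ) ∧ b y = hp K f {i} z ∧ b' y = hp K f A z) ∨
            (¬ (∃ z' ∈ Z, dist y z' ≤ δ) ∧ (b y = e ↔ e ∈ K y) ∧ (b' y = e ↔ e ∈ K y) ∧
              (b y = g ↔ e ∉ K y ∧ g ∈ K y) ∧ (b' y = g ↔ e ∉ K y ∧ g ∈ K y)) := by
          intro y hy hyz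
          by_cases hn' : ∃ z' ∈ Z, dist y z' ≤ δ
          · left
            rcases rsel_alt862 H hb hδ' hy hz hyz with ⟨-, k1⟩ | k1
            · rcases hb'.alt H hδ' hy hz hyz with ⟨-, k2⟩ | k2
              · exact ⟨hn', k1, k2⟩
              · obtain ⟨z', hz', k3⟩ := hn'
                exact absurd k3 (not_le.2 (k2 z' hz'))
            · obtain ⟨z', hz', k3⟩ := hn'
              exact absurd k3 (not_le.2 (k1 z' hz'))
          · right
            have hn2 := hn'
            push Not at hn2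
            obtain ⟨-, p0, q0⟩ := hb.far _ hy hn2
            obtain ⟨-, p0', q0'⟩ := hb'.far _ hy hn2
            exact ⟨hn', p0, p0', q0, q0'⟩
        have s0 := sh _ e0 h1
        have s1 := sh _ e1 h2
        by_cases hef : e ∈ f z
        · by_cases hgf : g ∈ f z
          · -- both in the separated pair: a ball label is neither
            have nb : ∀ y, b y = hp K f {i} z → b y ≠ e ∧ b y ≠ g := fun y hy =>
              ⟨fun h => hapi.2 (by rw [← hy, h]; exact hef),
                fun h => hapi.2 (by rw [← hy, h]; exact hgf)⟩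
            have nb' : ∀ y, b' y = hp K f A z → b' y ≠ e ∧ b' y ≠ g := fun y hy =>
              ⟨fun h => hapA.2 (by rw [← hy, h]; exact hef),
                fun h => hapA.2 (by rw [← hy, h]; exact hgf)⟩
            rcases s0 with ⟨-, k1, k2⟩ | ⟨k0, k1, k2, k3, k4⟩ <;>
              rcases s1 with ⟨-, l1, l2⟩ | ⟨l0, l1, l2, l3, l4⟩
            · rcases hE with h | h | h | h
              · exact (nb' _ k2).1 h.symm
              · exact (nb' _ l2).1 h.symm
              · exact (nb _ k1).1 h.symm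
              · exact (nb _ l1).1 h.symm
            · have hE' : e ∈ K (pt x j (2 ^ j) (k + 1)) := by
                rcases hE with h | h | h | h
                · exact absurd h.symm (nb' _ k2).1
                · exact l2.1 h.symm
                · exact absurd h.symm (nb _ k1).1
                · exact l1.1 h.symm
              have hG' : e ∉ K (pt x j (2 ^ j) (k + 1)) := by
                rcases hG with h | h | h | h
                · exact absurd h.symm (nb' _ k2).2
                · exact (l4.1 h.symm).1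
                · exact absurd h.symm (nb _ k1).2
                · exact (l3.1 h.symm).1
              exact hG' hE'
            · have hE' : e ∈ K (pt x j (2 ^ j) k) := by
                rcases hE with h | h | h | h
                · exact k2.1 h.symm
                · exact absurd h.symm (nb' _ l2).1
                · exact k1.1 h.symm
                · exact absurd h.symm (nb _ l1).1
              have hG' : e ∉ K (pt x j (2 ^ j) k) := by
                rcases hG with h | h | h | h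
                · exact (k4.1 h.symm).1
                · exact absurd h.symm (nb' _ l2).2
                · exact (k3.1 h.symm).1
                · exact absurd h.symm (nb _ l1).2
              exact hG' hE'
            · rcases hn with hn | hn
              · exact k0 hn
              · exact l0 hn
          · -- `e` separated, `g` an apex
            have hA0 : hp K f A z ∉ A := pick_avoid ⟨g, h4.2, hgf, hgA⟩
            have nb : ∀ y, b y = hp K f {i} z → b y ≠ e := fun y hy h =>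
              hapi.2 (by rw [← hy, h]; exact hef)
            have nb' : ∀ y, b' y = hp K f A z → b' y ≠ e ∧ b' y ≠ i := fun y hy =>
              ⟨fun h => hapA.2 (by rw [← hy, h]; exact hef),
                fun h => hA0 (by rw [← hy, h]; exact hiA)⟩
            rcases s0 with ⟨-, k1, k2⟩ | ⟨k0, k1, k2, k3, k4⟩ <;>
              rcases s1 with ⟨-, l1, l2⟩ | ⟨l0, l1, l2, l3, l4⟩
            · rcases hE with h | h | h | h
              · exact (nb' _ k2).1 h.symm
              · exact (nb' _ l2).1 h.symm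
              · exact nb _ k1 h.symm
              · exact nb _ l1 h.symm
            · have hE' : e ∈ K (pt x j (2 ^ j) (k + 1)) := by
                rcases hE with h | h | h | h
                · exact absurd h.symm (nb' _ k2).1
                · exact l2.1 h.symm
                · exact absurd h.symm (nb _ k1)
                · exact l1.1 h.symm
              rcases hI with h | h | h | h
              · exact (nb' _ k2).2 h.symm
              · exact hie (h.trans (l2.2 hE'))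
              · exact m0 h.symm
              · exact m1 h.symm
            · have hE' : e ∈ K (pt x j (2 ^ j) k) := by
                rcases hE with h | h | h | h
                · exact k2.1 h.symm
                · exact absurd h.symm (nb' _ l2).1
                · exact k1.1 h.symm
                · exact absurd h.symm (nb _ l1)
              rcases hI with h | h | h | h
              · exact hie (h.trans (k2.2 hE'))
              · exact (nb' _ l2).2 h.symm
              · exact m0 h.symm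
              · exact m1 h.symm
            · rcases hn with hn | hn
              · exact k0 hn
              · exact l0 hn
        · -- `e` an apex, `g` separated
          have hgf : g ∈ f z := by
            by_contra hgf
            exact hnf ⟨⟨h4.1, hef⟩, ⟨h4.2, hgf⟩⟩
          have hA0 : hp K f A z ∉ A := pick_avoid ⟨e, h4.1, hef, heA⟩
          have nb : ∀ y, b y = hp K f {i} z → b y ≠ g := fun y hy h =>
            hapi.2 (by rw [← hy, h]; exact hgf)
          have nb' : ∀ y, b' y = hp K f A z → b' y ≠ g ∧ b' y ≠ i := fun y hy =>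
            ⟨fun h => hapA.2 (by rw [← hy, h]; exact hgf),
              fun h => hA0 (by rw [← hy, h]; exact hiA)⟩
          rcases s0 with ⟨-, k1, k2⟩ | ⟨k0, k1, k2, k3, k4⟩ <;>
            rcases s1 with ⟨-, l1, l2⟩ | ⟨l0, l1, l2, l3, l4⟩
          · rcases hG with h | h | h | h
            · exact (nb' _ k2).1 h.symm
            · exact (nb' _ l2).1 h.symm
            · exact nb _ k1 h.symm
            · exact nb _ l1 h.symm
          · have hG' : e ∉ K (pt x j (2 ^ j) (k + 1)) ∧ g ∈ K (pt x j (2 ^ j) (k + 1)) := by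
              rcases hG with h | h | h | h
              · exact absurd h.symm (nb' _ k2).1
              · exact l4.1 h.symm
              · exact absurd h.symm (nb _ k1)
              · exact l3.1 h.symm
            rcases hI with h | h | h | h
            · exact (nb' _ k2).2 h.symm
            · exact hig (h.trans (l4.2 hG'))
            · exact m0 h.symm
            · exact m1 h.symm
          · have hG' : e ∉ K (pt x j (2 ^ j) k) ∧ g ∈ K (pt x j (2 ^ j) k) := by
              rcases hG with h | h | h | h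
              · exact k4.1 h.symm
              · exact absurd h.symm (nb' _ l2).1
              · exact k3.1 h.symm
              · exact absurd h.symm (nb _ l1)
            rcases hI with h | h | h | h
            · exact hig (h.trans (k4.2 hG'))
            · exact (nb' _ l2).2 h.symm
            · exact m0 h.symm
            · exact m1 h.symm
          · rcases hn with hn | hn
            · exact k0 hn
            · exact l0 hn
      · refine ⟨(K z).toFinset, fun hs => h4 ⟨?_, ?_⟩, ?_, ?_, ?_, ?_⟩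
        · exact Set.mem_toFinset.1 (hs (by simp))
        · exact Set.mem_toFinset.1 (hs (by simp))
        · exact Set.mem_toFinset.2 (hb'.memK H hδ' e0 hz h1)
        · exact Set.mem_toFinset.2 (hb'.memK H hδ' e1 hz h2)
        · exact Set.mem_toFinset.2 (hb.memK H hδ' e0 hz h1)
        · exact Set.mem_toFinset.2 (hb.memK H hδ' e1 hz h2)
    · push Not at hn
      obtain ⟨hn0, hn1⟩ := hn
      obtain ⟨-, p0, q0⟩ := hb.far _ e0 hn0
      obtain ⟨-, p1, q1⟩ := hb.far _ e1 hn1
      obtain ⟨-, p0', q0'⟩ := hb'.far _ e0 hn0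
      obtain ⟨-, p1', q1'⟩ := hb'.far _ e1 hn1
      refine ⟨{b' (pt x j (2 ^ j) k), b' (pt x j (2 ^ j) (k + 1)), b (pt x j (2 ^ j) k),
        b (pt x j (2 ^ j) (k + 1))}, fun hs => ?_, by simp, by simp, by simp, by simp⟩
      have hi := hs (show i ∈ ({i, e, g} : Finset (Fin 6)) by simp)
      have he := hs (show e ∈ ({i, e, g} : Finset (Fin 6)) by simp)
      have hg := hs (show g ∈ ({i, e, g} : Finset (Fin 6)) by simp)
      simp only [Finset.mem_insert, Finset.mem_singleton] at hi he hg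
      have hE : e ∈ K (pt x j (2 ^ j) k) ∨ e ∈ K (pt x j (2 ^ j) (k + 1)) := by
        rcases he with h | h | h | h
        · exact Or.inl (p0'.1 h.symm)
        · exact Or.inr (p1'.1 h.symm)
        · exact Or.inl (p0.1 h.symm)
        · exact Or.inr (p1.1 h.symm)
      have hG : (e ∉ K (pt x j (2 ^ j) k) ∧ g ∈ K (pt x j (2 ^ j) k)) ∨
          (e ∉ K (pt x j (2 ^ j) (k + 1)) ∧ g ∈ K (pt x j (2 ^ j) (k + 1))) := by
        rcases hg with h | h | h | h
        · exact Or.inl (q0'.1 h.symm)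
        · exact Or.inr (q1'.1 h.symm)
        · exact Or.inl (q0.1 h.symm)
        · exact Or.inr (q1.1 h.symm)
      have hI : b' (pt x j (2 ^ j) k) = i ∨ b' (pt x j (2 ^ j) (k + 1)) = i := by
        rcases hi with h | h | h | h
        · exact Or.inl h.symm
        · exact Or.inr h.symm
        · exact absurd h.symm m0
        · exact absurd h.symm m1
      rcases hE with hE | hE
      · rcases hG with hG | hG
        · exact hG.1 hE
        · rcases hI with hI | hI
          · exact hie (hI.symm.trans (p0'.2 hE))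
          · exact hig (hI.symm.trans (q1'.2 hG))
      · rcases hG with hG | hG
        · rcases hI with hI | hI
          · exact hig (hI.symm.trans (q0'.2 hG))
          · exact hie (hI.symm.trans (p1'.2 hE))
        · exact hG.1 hE

/-- **The four-term sum at a centre**, with the reference labels: exceptional points of the circle may
have both free colours, if not both are outside the separated pair -/
theorem sum_four862 (H : Hm K Z f δ₀) (hr : Rg K Z x) {a b p q e g : Fin 6}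
    (hnd : [a, b, p, q, e, g].Nodup) (hav : ∀ i ∈ ({a, b, p, q} : Set (Fin 6)), Av K x i)
    (hz : ∀ z ∈ Z, dist z x = 1 → ¬ (e ∈ K z \ f z ∧ g ∈ K z \ f z)) {v : ZMod 2}
    (hW : ∃ δ₂ > 0, ∀ δ, 0 < δ → δ ≤ δ₂ → ∀ r : ℂ → Fin 6, Ref862 K Z f δ {a, b, p, q} e g x r →
      ∃ᶠ j : ℕ in atTop, ∑ k ∈ Finset.range (6 * 2 ^ j),
        eps (r (pt x j (2 ^ j) k)) (r (pt x j (2 ^ j) (k + 1))) {e, g} = v) :
    lamH K Z f δ₀ a x {a, e, g} + lamH K Z f δ₀ b x {b, e, g} + lamH K Z f δ₀ p x {p, e, g} +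
      lamH K Z f δ₀ q x {q, e, g} = v := by
  classical
  have hnd' := hnd
  simp only [List.nodup_cons, List.mem_cons, List.not_mem_nil, or_false, not_or] at hnd'
  obtain ⟨⟨hab, hap, haq, hae, hag⟩, ⟨hbp, hbq, hbe, hbg⟩, ⟨hpq, hpe, hpg⟩, ⟨hqe, hqg⟩, heg, -⟩ :=
    hnd'
  have hδ₀ := H.pos
  obtain ⟨δ₁, hδ₁, hδ₁', hd⟩ := H.scale (x := x)
    (P := fun S F => ¬ (e ∈ S \ F ∧ g ∈ S \ F)) hz
  obtain ⟨δ₂, hδ₂, hW⟩ := hW
  obtain ⟨δ, hδ, hδe, hδf, hδg⟩ : ∃ δ > 0, δ ≤ δ₀ / 4 ∧ δ ≤ δ₁ ∧ δ ≤ δ₂ :=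
    ⟨min (min δ₁ δ₂) (δ₀ / 4), lt_min (lt_min hδ₁ hδ₂) (by linarith), min_le_right _ _,
      (min_le_left _ _).trans (min_le_left _ _), (min_le_left _ _).trans (min_le_right _ _)⟩
  have hδ2 : δ ≤ δ₀ / 2 := by linarith
  have hnz : ∀ z ∈ Z, (∃ y, dist y x = 1 ∧ dist y z ≤ δ) →
      ¬ (e ∈ K z \ f z ∧ g ∈ K z \ f z) :=
    fun z hz ⟨y, hy, hyz⟩ => hd z hz ⟨y, hy, hyz.trans hδf⟩
  have hva := hav a (by simp)
  have hvb := hav b (by simp)
  have hvp := hav p (by simp)
  have hvq := hav q (by simp)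
  obtain ⟨ra, hra⟩ := exists_rsel H hae hag heg hva δ
  obtain ⟨rb, hrb⟩ := exists_rsel H hbe hbg heg hvb δ
  obtain ⟨rp, hrp⟩ := exists_rsel H hpe hpg heg hvp δ
  obtain ⟨rq, hrq⟩ := exists_rsel H hqe hqg heg hvq δ
  obtain ⟨r, hr0⟩ := exists_ref862 (x := x) H {a, b, p, q} heg δ
  have hW := hW δ hδ hδg r hr0
  have heA : e ∉ ({a, b, p, q} : Set (Fin 6)) := by
    simp only [Set.mem_insert_iff, Set.mem_singleton_iff, not_or]
    exact ⟨Ne.symm hae, Ne.symm hbe, Ne.symm hpe, Ne.symm hqe⟩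
  have hgA : g ∉ ({a, b, p, q} : Set (Fin 6)) := by
    simp only [Set.mem_insert_iff, Set.mem_singleton_iff, not_or]
    exact ⟨Ne.symm hag, Ne.symm hbg, Ne.symm hpg, Ne.symm hqg⟩
  have hsel : ∀ A : Set (Fin 6), ∃ c : ℂ → Fin 6, ∀ y, c y ∈ apx K Z δ (hp K f A) y :=
    fun A => by
      choose c hc using (H.nice hr hδ hδ2 A).ne
      exact ⟨c, hc⟩
  obtain ⟨ca, hca⟩ := hsel {a}
  obtain ⟨cb, hcb⟩ := hsel {b}
  obtain ⟨cp, hcp⟩ := hsel {p}
  obtain ⟨cq, hcq⟩ := hsel {q}
  obtain ⟨c, hc⟩ := hsel {a, b, p, q}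
  -- the values
  have hval : ∀ (i : Fin 6) (c r : ℂ → Fin 6), Av K x i → RSel K Z f δ i e g x r →
      (∀ y, c y ∈ apx K Z δ (hp K f {i}) y) → ∀ᶠ j : ℕ in atTop,
        Ch (sl x c r j) (2 ^ j) (6 * 2 ^ j) {i, e, g} = lamH K Z f δ₀ i x {i, e, g} := by
    intro i c r hi hri hci
    have hA : Av (apx K Z δ (hp K f {i})) x i := H.av hi δ
    obtain ⟨ε, hε, hs⟩ := lamS_spec (H.nice hr hδ hδ2 {i}) hA
      (show i ∈ ({i, e, g} : Finset (Fin 6)) by simp)
    filter_upwards [(tendsto_order.1 tendsto_mesh).2 _ hε] with j hj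
    rw [← H.lam_eq hr hi hδ hδ2 hA (show i ∈ ({i, e, g} : Finset (Fin 6)) by simp)]
    refine hs j hj _ (sl_Lb (fun p _ => hci p) (fun p hp => (hri.mem p hp).1) hε j) fun k _ => ?_
    rw [sl_ring]
    exact (hri.mem _ (pt_ring x j k)).2
  obtain ⟨j, hjW, ⟨hVa, hVb, hVp, hVq, hCa, hCb, hCp, hCq⟩⟩ :=
    (hW.and_eventually
      ((hval a ca ra hva hra hca).and ((hval b cb rb hvb hrb hcb).and
      ((hval p cp rp hvp hrp hcp).and ((hval q cq rq hvq hrq hcq).and
      ((cmp862 H hr hδ hδe hae hag (by simp) heA hgA hnz hra hr0 hca hc).and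
      ((cmp862 H hr hδ hδe hbe hbg (by simp) heA hgA hnz hrb hr0 hcb hc).and
      ((cmp862 H hr hδ hδe hpe hpg (by simp) heA hgA hnz hrp hr0 hcp hc).and
        (cmp862 H hr hδ hδe hqe hqg (by simp) heA hgA hnz hrq hr0 hcq hc))))))))).exists
  have hlb : Lb (apx K Z δ (hp K f {a, b, p, q})) x 1 j (sl x c r j) :=
    sl_Lb (fun p _ => hc p) (fun p hp => hr0.mem p hp) one_pos j
  have e1 := bd_Ch (sl x c r j) (2 ^ j) (6 * 2 ^ j) hlb.per hlb.cen (Finset.card_pair heg)
  have e2 : ∑ k ∈ Finset.range (6 * 2 ^ j), eps (sl x c r j (2 ^ j) k)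
      (sl x c r j (2 ^ j) (k + 1)) {e, g} = v := by
    rw [← hjW]
    refine Finset.sum_congr rfl fun k _ => ?_
    rw [sl_ring, sl_ring]
  rw [e2] at e1
  unfold bd at e1
  rw [setlem a b p e g q (by
      simp only [List.nodup_cons, List.mem_cons, List.not_mem_nil, or_false, not_or,
        List.nodup_nil, and_true, not_false_eq_true]
      tauto), Finset.sum_insert (by
      simp only [Finset.mem_insert, Finset.mem_singleton]; tauto), Finset.sum_insert (by
      simp only [Finset.mem_insert, Finset.mem_singleton]; tauto), Finset.sum_insert (by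
      simp only [Finset.mem_singleton]; tauto), Finset.sum_singleton] at e1
  rw [← hVa, ← hVb, ← hVp, ← hVq, hCa, hCb, hCp, hCq, ← e1]
  ring

/-- the same for `lamT` -/
theorem sum_four_T862 (H : Hm K Z f δ₀) (hr : Rg K Z x) {a b p q e g : Fin 6}
    (hnd : [a, b, p, q, e, g].Nodup) (hav : ∀ i ∈ ({a, b, p, q} : Set (Fin 6)), Av K x i)
    (hz : ∀ z ∈ Z, dist z x = 1 → ¬ (e ∈ K z \ f z ∧ g ∈ K z \ f z)) {v : ZMod 2}
    (hW : ∃ δ₂ > 0, ∀ δ, 0 < δ → δ ≤ δ₂ → ∀ r : ℂ → Fin 6, Ref862 K Z f δ {a, b, p, q} e g x r →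
      ∃ᶠ j : ℕ in atTop, ∑ k ∈ Finset.range (6 * 2 ^ j),
        eps (r (pt x j (2 ^ j) k)) (r (pt x j (2 ^ j) (k + 1))) {e, g} = v) :
    lamT K Z f δ₀ a x e g + lamT K Z f δ₀ b x e g + lamT K Z f δ₀ p x e g +
      lamT K Z f δ₀ q x e g = v := by
  have hnd' := hnd
  simp only [List.nodup_cons, List.mem_cons, List.not_mem_nil, or_false, not_or] at hnd'
  obtain ⟨⟨hab, hap, haq, hae, hag⟩, ⟨hbp, hbq, hbe, hbg⟩, ⟨hpq, hpe, hpg⟩, ⟨hqe, hqg⟩, heg, -⟩ :=
    hnd'
  rw [lamT_eq ⟨hae, hag, heg⟩, lamT_eq ⟨hbe, hbg, heg⟩, lamT_eq ⟨hpe, hpg, heg⟩,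
    lamT_eq ⟨hqe, hqg, heg⟩]
  exact sum_four862 H hr hnd hav hz hW

end Vale.Agent.P032.H862

namespace Vale.Agent.P032.Six

open Vale.Agent.P032.S5 Vale.Agent.P032.Carr Vale.Agent.P032.H460 Vale.Agent.P032.H862

variable {U : Fin 6 → Set ℂ} {T : ℂ → Set (Fin 6)} {f : ℂ → Set (Fin 6)} {Z : Set ℂ} {c : ℂ}
  {R δ₀ : ℝ}

/-- **The four-term sum in the world `DSt`**, with the reference labels -/
theorem DSt.sum_four862 (D : DSt U T Z f c R δ₀) {V : ℂ} (hV : dist V c ≤ R - 1)
    {a b p q e g : Fin 6} (hnd : [a, b, p, q, e, g].Nodup)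
    (hT : ∀ i ∈ ({a, b, p, q} : Set (Fin 6)), i ∈ T V)
    (h4 : ∀ y, dist y V = 1 → 4 ≤ (T y).ncard → ¬ (e ∈ T y \ f y ∧ g ∈ T y \ f y)) {v : ZMod 2}
    (hW : ∃ δ₂ > 0, ∀ δ, 0 < δ → δ ≤ δ₂ → ∀ r : ℂ → Fin 6, Ref862 T Z f δ {a, b, p, q} e g V r →
      ∃ᶠ j : ℕ in atTop, ∑ k ∈ Finset.range (6 * 2 ^ j),
        eps (r (S5.pt V j (2 ^ j) k)) (r (S5.pt V j (2 ^ j) (k + 1))) {e, g} = v) :
    lamT T Z f δ₀ a V e g + lamT T Z f δ₀ b V e g + lamT T Z f δ₀ p V e g +
      lamT T Z f δ₀ q V e g = v :=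
  sum_four_T862 D.hm (D.rg hV) hnd (fun i hi => av_T D.df.irr (hT i hi))
    (fun z hz hzV => h4 z hzV (D.zs.four z hz)) hW

end Vale.Agent.P032.Six
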