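import Vale.Agent.P032.H862.ParT1
import Vale.Agent.P032.H416.Clean
import Vale.Agent.P032.S5.H11.TopD

/-!
# P032: chains with swap points and harmless points

`FullC862 T z` : a full two-pair point whose circle has, besides the two ends of the full arc, only
swap points (`T1p862`) and harmless points (`EEp862`, `E98`) with at least four colours.
`SameC862` : the block: in the world `DF`, `NoComp` a two-pair point with a four coloured point on its
circle is of this kind.
`no_df_T1` : no frame `DF` without complementary ends, from this block.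
-/

open Set Filter Topology Metric

noncomputable section

namespace Vale.Agent.P032.Six

open Vale.Agent.P032.S5.H843

/-- a full two-pair point with swap points and harmless points on its circle -/
def FullC862 (T : ℂ → Set (Fin 6)) (z : ℂ) : Prop :=
  ∃ (a b c d : Fin 6) (α β : ℝ), DPt T z a b c d ∧ β ≠ α ∧ |β - α| ≤ Real.pi / 3 ∧
    T (z + cis α) = T z ∧ T (z + cis β) = T z ∧
    (∀ θ ∈ uIoo α β, T (z + cis θ) = {a, b}) ∧
    (∀ q, dist q z = 1 → T q = {a, b} → ∃ θ ∈ uIoo α β, q = z + cis θ) ∧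
    ∀ q, dist q z = 1 → 4 ≤ (T q).ncard → q = z + cis α ∨ q = z + cis β ∨
      T1p862 T z {a, b} q ∨ EEp862 T z {a, b} q ∨ E98 T z q

/-- block: a two-pair point with a four coloured point on its circle is full with swap points and
harmless points -/
def SameC862 : Prop := ∀ (U : Fin 6 → Set ℂ) (T : ℂ → Set (Fin 6)), DF U T → NoComp T →
  ∀ z v, (∃ a b c d, DPt T z a b c d) → dist v z = 1 → (T v).ncard = 4 → FullC862 T z

variable {U : Fin 6 → Set ℂ} {T : ℂ → Set (Fin 6)}

theorem DPt.ncard862 {z : ℂ} {a b c d : Fin 6} (hz : DPt T z a b c d) : (T z).ncard = 4 := by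
  rw [hz.pal, Set.ncard_insert_of_notMem (by simp [hz.ab, hz.ac, hz.ad]) (Set.toFinite _),
    Set.ncard_insert_of_notMem (by simp [hz.bc, hz.bd]) (Set.toFinite _), Set.ncard_pair hz.cd]

theorem FullC862.full {z : ℂ} (h : FullC862 T z) : Full T z := by
  obtain ⟨a, b, c, d, α, β, hz, hne, hle, hα, hβ, harc, honly, hlist⟩ := h
  refine ⟨a, b, c, d, α, β, hz, hne, hle, hα, hβ, harc, honly, fun q hq hqT => ?_⟩
  have haz : a ∈ T z := by rw [hz.pal]; simp
  have hbz : b ∈ T z := by rw [hz.pal]; simp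
  rcases hlist q hq (by rw [hqT]; exact hz.ncard862.ge) with h1 | h1 | h1 | h1 | h1
  · exact Or.inl h1
  · exact Or.inr h1
  · exfalso
    have h2 : a ∈ ({a, b} : Set (Fin 6))ᶜ := by rw [← h1.pal, hqT]; exact haz
    exact h2 (Or.inl rfl)
  · refine absurd ?_ h1.nC
    rw [hqT]
    rintro x (rfl | hx)
    · exact haz
    · rw [mem_singleton_iff] at hx; subst hx; exact hbz
  · exact absurd hqT.symm h1.ne

theorem cis_add_cis862 (s t : ℝ) :
    cis s + cis t = ((2 * Real.cos ((s - t) / 2) : ℝ) : ℂ) * cis ((s + t) / 2) := by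
  have e1 : cis s = cis ((s + t) / 2) * cis ((s - t) / 2) := by
    rw [← cis_add169]; congr 1; ring
  have e2 : cis t = cis ((s + t) / 2) * cis (-((s - t) / 2)) := by
    rw [← cis_add169]; congr 1; ring
  have e3 : cis ((s - t) / 2) + cis (-((s - t) / 2)) = ((2 * Real.cos ((s - t) / 2) : ℝ) : ℂ) := by
    apply Complex.ext
    · rw [Complex.add_re, cis_re, cis_re, Real.cos_neg, Complex.ofReal_re]; ring
    · rw [Complex.add_im, cis_im, cis_im, Real.sin_neg, Complex.ofReal_im]; ring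
  rw [← e3, e1, e2]; ring

theorem cos_half862 {s t : ℝ} (h : |s - t| ≤ Real.pi / 3) : 0 < 2 * Real.cos ((s - t) / 2) := by
  have hpi := Real.pi_pos
  rw [abs_le] at h
  have := Real.cos_pos_of_mem_Ioo (x := (s - t) / 2) ⟨by linarith, by linarith⟩
  linarith

/-- equal directions -/
theorem dir_eq862 {A B : ℝ} {p q : ℂ} (hA : 0 < A) (hB : 0 < B) (hp : ‖p‖ = 1) (hq : ‖q‖ = 1)
    (h : (A : ℂ) * p = B * q) : p = q := by
  have h1 : A = B := by
    have h2 := congrArg norm h
    rw [norm_mul, norm_mul, hp, hq, mul_one, mul_one, Complex.norm_real, Complex.norm_real,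
      Real.norm_of_nonneg hA.le, Real.norm_of_nonneg hB.le] at h2
    exact h2
  rw [h1] at h
  exact mul_left_cancel₀ (by exact_mod_cast hB.ne') h

/-- **the list of the four coloured points at a chain centre** -/
theorem JCh.list862 {V : ℕ → ℂ} {ρ : ℕ → ℝ} {S : Set (Fin 6)} {C : ℕ → Set (Fin 6)}
    (J : JCh T V ρ S C) (h : Irr U T)
    (hmin : ∀ z, 4 ≤ (T z).ncard → ∀ s, s ⊆ T z → s ≠ T z →
      ¬ ∀ᶠ w in 𝓝 z, ∃ i ∈ s, w ∈ U i ∨ (w ∈ XX U ∧ i ∈ Pal U w))
    (hFull : ∀ z, (∃ a b c d, DPt T z a b c d) → Full T z)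
    {i : ℕ} (hF : FullC862 T (V (i + 1))) (q : ℂ)
    (hq : dist q (V (i + 1)) = 1) (hq4 : 4 ≤ (T q).ncard) : q = V i ∨ q = V (i + 2) ∨
      T1p862 T (V (i + 1)) (C (i + 1)) q ∨ EEp862 T (V (i + 1)) (C (i + 1)) q := by
  have hfull := hF.full
  obtain ⟨a, b, c, d, α, β, hz, hne, hle, hα, hβ, harc, honly, hlist⟩ := hF
  have hpl := J.pal (i + 1)
  have hends : ∀ q, dist q (V (i + 1)) = 1 → T q = T (V (i + 1)) →
      q = V (i + 1) + cis α ∨ q = V (i + 1) + cis β := by
    intro q hq hqT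
    have haz : a ∈ T (V (i + 1)) := by rw [hz.pal]; simp
    have hbz : b ∈ T (V (i + 1)) := by rw [hz.pal]; simp
    rcases hlist q hq (by rw [hqT]; exact hz.ncard862.ge) with h1 | h1 | h1 | h1 | h1
    · exact Or.inl h1
    · exact Or.inr h1
    · exfalso
      have h2 : a ∈ ({a, b} : Set (Fin 6))ᶜ := by rw [← h1.pal, hqT]; exact haz
      exact h2 (Or.inl rfl)
    · refine absurd ?_ h1.nC
      rw [hqT]
      rintro x (rfl | hx)
      · exact haz
      · rw [mem_singleton_iff] at hx; subst hx; exact hbz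
    · exact absurd hqT.symm h1.ne
  have e1 : dist (V i) (V (i + 1)) = 1 := J.rods.unit i
  have e2 : dist (V (i + 2)) (V (i + 1)) = 1 := by
    rw [dist_comm]; exact J.rods.unit (i + 1)
  have k1 := hends _ e1 (by rw [J.pal, J.pal])
  have k2 := hends _ e2 (by rw [J.pal, J.pal])
  have hVne := J.ends_ne169 i
  -- the two ends
  have hset : (V (i + 1) + cis α = V i ∧ V (i + 1) + cis β = V (i + 2)) ∨
      (V (i + 1) + cis α = V (i + 2) ∧ V (i + 1) + cis β = V i) := by
    rcases k1 with k1 | k1 <;> rcases k2 with k2 | k2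
    · exact absurd (k1.trans k2.symm) hVne
    · exact Or.inl ⟨k1.symm, k2.symm⟩
    · exact Or.inr ⟨k2.symm, k1.symm⟩
    · exact absurd (k1.trans k2.symm) hVne
  have hsum : cis α + cis β = (V i - V (i + 1)) + (V (i + 2) - V (i + 1)) := by
    rcases hset with ⟨h1, h2⟩ | ⟨h1, h2⟩ <;> linear_combination h1 + h2
  -- the middle points
  have hmid : ((2 * Real.cos ((α - β) / 2) : ℝ) : ℂ) * cis ((α + β) / 2) =
      ((2 * Real.cos ((ρ i - ρ (i + 1)) / 2) : ℝ) : ℂ) *
        ((-1) ^ (i + 1) * cis ((ρ i + ρ (i + 1)) / 2)) := by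
    rw [← cis_add_cis862, hsum, J.rods.sub_left715, J.rods.sub_right715, ← mul_add,
      cis_add_cis862]
    ring
  have hn : ‖((-1 : ℂ)) ^ (i + 1) * cis ((ρ i + ρ (i + 1)) / 2)‖ = 1 := by
    rw [norm_npow169, norm_cis]
  have hdir := dir_eq862 (cos_half862 (by rw [abs_sub_comm]; exact hle))
    (cos_half862 (by rw [abs_sub_comm]; exact J.rods.le i)) (norm_cis _) hn hmid
  have hC : C (i + 1) = {a, b} := by
    have h1 : (ρ i + ρ (i + 1)) / 2 ∈ uIoo (ρ i) (ρ (i + 1)) := by
      rcases lt_or_gt_of_ne (J.rods.ne i) with h2 | h2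
      · exact mem_uIoo_of_gt (by linarith) (by linarith)
      · exact mem_uIoo_of_lt (by linarith) (by linarith)
    have h2 : (α + β) / 2 ∈ uIoo α β := by
      rcases lt_or_gt_of_ne hne with h2 | h2
      · exact mem_uIoo_of_gt (by linarith) (by linarith)
      · exact mem_uIoo_of_lt (by linarith) (by linarith)
    rw [← J.arc i _ h1, ← harc _ h2]
    unfold arcPt
    rw [hdir]
  rcases hlist q hq hq4 with h1 | h1 | h1 | h1 | h1
  · rcases hset with ⟨h2, -⟩ | ⟨h2, -⟩
    · exact Or.inl (h1.trans h2)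
    · exact Or.inr (Or.inl (h1.trans h2))
  · rcases hset with ⟨-, h2⟩ | ⟨-, h2⟩
    · exact Or.inr (Or.inl (h1.trans h2))
    · exact Or.inl (h1.trans h2)
  · rw [hC]; exact Or.inr (Or.inr (Or.inl h1))
  · rw [hC]; exact Or.inr (Or.inr (Or.inr h1))
  · rw [hC]
    have hDq : ∃ a b c d, DPt T q a b c d := by
      obtain ⟨a', b', c', d', e', f', -, hy, -⟩ := h1
      exact ⟨_, _, _, _, hy⟩
    exact Or.inr (Or.inr (Or.inr (h1.eep862 h hmin hq hfull (hFull q hDq) hz)))

/-- **no frame `DF` without complementary ends**, from the block `SameC862` -/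
theorem no_df_T1 (HX : SameC862) (h : DF U T) (hN : NoComp T) : False := by
  have hF : ∀ z, (∃ a b c d, DPt T z a b c d) → FullC862 T z := fun z hz => by
    obtain ⟨v, hv, hv4⟩ := not_clean_of_nc h.irr h.le4 hN hz
    exact HX U T h hN z v hz hv hv4
  obtain ⟨z, a, b, c, d, hD, y, hy, hy4⟩ := h.irr.exists_dpair' h.mn h.le4
  obtain ⟨V, ρ, S, C, -, J⟩ := exists_JCh h.irr (fun z hz _ => (hF z hz).full)
    ⟨a, b, c, d, hD⟩ hy hy4.ge
  have hDi : ∀ i, ∃ a b c d, DPt T (V i) a b c d := by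
    intro i
    obtain ⟨a, b, c, d, -, h1⟩ := J.dpt i
    exact ⟨a, b, c, d, h1⟩
  have hS4 : S.ncard = 4 := by
    obtain ⟨a, b, c, d, h1⟩ := hDi 0
    rw [← J.pal 0]; exact h1.ncard862
  have hc2 : Sᶜ.ncard = 2 := by
    have h1 := Set.ncard_add_ncard_compl S
    rw [Nat.card_eq_fintype_card, Fintype.card_fin] at h1
    omega
  obtain ⟨e, f, hef, hSc⟩ := Set.ncard_eq_two.1 hc2
  have hSe : e ∉ S := by
    have : e ∈ Sᶜ := by rw [hSc]; simp
    exact this
  have hSf : f ∉ S := by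
    have : f ∈ Sᶜ := by rw [hSc]; simp
    exact this
  refine J.false862 h.irr h.mn h.le4 (fun z hz => (hF z hz).full) hef hSe hSf (fun i => ?_)
    (fun i q hq hq4 => J.list862 h.irr h.mn (fun z hz => (hF z hz).full) (hF _ (hDi (i + 1))) q hq
      hq4) fun R => ?_
  · by_cases hi : i ∈ S
    · exact Or.inr (Or.inr hi)
    · have h1 : i ∈ Sᶜ := hi
      rw [hSc] at h1
      rcases h1 with h1 | h1
      · exact Or.inl h1
      · exact Or.inr (Or.inl h1)
  · refine (h.fin 0 R).subset ?_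
    rintro _ ⟨⟨i, rfl⟩, h1⟩
    exact ⟨mem_closedBall.1 h1, hDi i⟩

end Vale.Agent.P032.Six
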